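import Crest.Agent.R168.Noise

/-!
Posterior means of the configuration given its noisy version, Bayes' identity, and the
martingale (orthogonality) estimate along increasing volumes.
-/

set_option autoImplicit false

namespace Crest.Agent.R168

open MeasureTheory Finset Filter Topology ProbabilityTheory
open scoped ENNReal

/-- Bounded measurable real functions. -/
structure BM {Ω : Type*} [MeasurableSpace Ω] (f : Ω → ℝ) : Prop where
  meas : Measurable f
  bdd : ∃ C, ∀ x, |f x| ≤ C

namespace BM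

variable {Ω : Type*} [MeasurableSpace Ω] {f g : Ω → ℝ}

lemma integrable (hf : BM f) (μ : Measure Ω) [IsFiniteMeasure μ] : Integrable f μ := by
  obtain ⟨C, hC⟩ := hf.bdd
  exact Integrable.of_bound hf.meas.aestronglyMeasurable C (ae_of_all _ hC)

lemma const (c : ℝ) : BM (fun _ : Ω => c) := ⟨measurable_const, |c|, fun _ => le_rfl⟩

lemma add (hf : BM f) (hg : BM g) : BM (fun x => f x + g x) := by
  obtain ⟨C, hC⟩ := hf.bdd
  obtain ⟨D, hD⟩ := hg.bdd
  exact ⟨hf.meas.add hg.meas, C + D, fun x => (abs_add_le _ _).trans (add_le_add (hC x) (hD x))⟩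

lemma sub (hf : BM f) (hg : BM g) : BM (fun x => f x - g x) := by
  obtain ⟨C, hC⟩ := hf.bdd
  obtain ⟨D, hD⟩ := hg.bdd
  exact ⟨hf.meas.sub hg.meas, C + D, fun x => (abs_sub _ _).trans (add_le_add (hC x) (hD x))⟩

lemma mul (hf : BM f) (hg : BM g) : BM (fun x => f x * g x) := by
  obtain ⟨C, hC⟩ := hf.bdd
  obtain ⟨D, hD⟩ := hg.bdd
  refine ⟨hf.meas.mul hg.meas, C * D, fun x => ?_⟩
  rw [abs_mul]
  exact mul_le_mul (hC x) (hD x) (abs_nonneg _) ((abs_nonneg _).trans (hC x))

lemma const_mul (hf : BM f) (c : ℝ) : BM (fun x => c * f x) := (const c).mul hf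

lemma abs (hf : BM f) : BM (fun x => |f x|) := by
  obtain ⟨C, hC⟩ := hf.bdd
  exact ⟨hf.meas.abs, C, fun x => by simpa using hC x⟩

lemma sq (hf : BM f) : BM (fun x => f x ^ 2) := by
  simpa [_root_.sq] using hf.mul hf

lemma sum {ι : Type*} {s : Finset ι} {f : ι → Ω → ℝ} (hf : ∀ i ∈ s, BM (f i)) :
    BM (fun x => ∑ i ∈ s, f i x) := by
  classical
  induction s using Finset.induction_on with
  | empty => simpa using const 0
  | insert a s ha ih =>
    simp only [Finset.sum_insert ha]
    exact (hf a (by simp)).add (ih fun i hi => hf i (by simp [hi]))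

lemma prod {ι : Type*} {s : Finset ι} {f : ι → Ω → ℝ} (hf : ∀ i ∈ s, BM (f i)) :
    BM (fun x => ∏ i ∈ s, f i x) := by
  classical
  induction s using Finset.induction_on with
  | empty => simpa using const 1
  | insert a s ha ih =>
    simp only [Finset.prod_insert ha]
    exact (hf a (by simp)).mul (ih fun i hi => hf i (by simp [hi]))

lemma comp {Ω' : Type*} [MeasurableSpace Ω'] (hf : BM f) {φ : Ω' → Ω} (hφ : Measurable φ) :
    BM (fun x => f (φ x)) := by
  obtain ⟨C, hC⟩ := hf.bdd
  exact ⟨hf.meas.comp hφ, C, fun x => hC _⟩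

lemma of_unit (hf : Measurable f) (h0 : ∀ x, 0 ≤ f x) (h1 : ∀ x, f x ≤ 1) : BM f :=
  ⟨hf, 1, fun x => by rw [abs_of_nonneg (h0 x)]; exact h1 x⟩

end BM

variable {I : Type*} [DecidableEq I]

/-- Probability weights on the subsets of `F`. -/
structure Prob (q : Finset I → ℝ) (F : Finset I) : Prop where
  nonneg : ∀ A ⊆ F, 0 ≤ q A
  sum_one : ∑ A ∈ F.powerset, q A = 1

lemma Good.prob {E : Set I} {p : Finset I → Finset I → ℝ} (hp : Good E p) {F : Finset I}
    (hF : (F : Set I) ⊆ E) : Prob (p F) F := ⟨hp.nonneg F hF, hp.sum_one F hF⟩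

/-- Posterior mean of coordinate `i` of the configuration given the noisy observation `y` at
time `t`. -/
noncomputable def vel (q : Finset I → ℝ) (F : Finset I) (t : ℝ) (y : I → ℝ) (i : I) : ℝ :=
  mean q F (fun j => Real.exp (th t (y j))) i

/-- Posterior probability of the configuration `A`. -/
noncomputable def post (q : Finset I → ℝ) (F : Finset I) (t : ℝ) (y : I → ℝ) (A : Finset I) : ℝ :=
  q A * wt t y A / ∑ B ∈ F.powerset, q B * wt t y B

/-- Law of `t X + Z`. -/
noncomputable def lawY (q : Finset I → ℝ) (F : Finset I) (t : ℝ) : Measure (I → ℝ) :=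
  ∑ A ∈ F.powerset, ENNReal.ofReal (q A) • (Gam I).map (shift t A)

section
variable {q : Finset I → ℝ} {F : Finset I}

omit [DecidableEq I] in
lemma Prob.Z_pos (hq : Prob q F) (t : ℝ) (y : I → ℝ) : 0 < ∑ B ∈ F.powerset, q B * wt t y B := by
  have : ∃ A ∈ F.powerset, q A ≠ 0 := by
    by_contra h
    push Not at h
    have := hq.sum_one
    rw [Finset.sum_eq_zero h] at this
    exact zero_ne_one this
  obtain ⟨A, hA, hne⟩ := this
  refine Finset.sum_pos' (fun B hB => ?_) ⟨A, hA, ?_⟩
  · exact mul_nonneg (hq.nonneg B (Finset.mem_powerset.mp hB)) (wt_pos _ _ _).le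
  · exact mul_pos (lt_of_le_of_ne (hq.nonneg A (Finset.mem_powerset.mp hA)) hne.symm)
      (wt_pos _ _ _)

omit [DecidableEq I] in
lemma Prob.post_nonneg (hq : Prob q F) (t : ℝ) (y : I → ℝ) {A : Finset I} (hA : A ∈ F.powerset) :
    0 ≤ post q F t y A :=
  div_nonneg (mul_nonneg (hq.nonneg A (Finset.mem_powerset.mp hA)) (wt_pos _ _ _).le)
    (hq.Z_pos t y).le

omit [DecidableEq I] in
lemma Prob.sum_post (hq : Prob q F) (t : ℝ) (y : I → ℝ) :
    ∑ A ∈ F.powerset, post q F t y A = 1 := by
  simp only [post]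
  rw [← Finset.sum_div, div_self (hq.Z_pos t y).ne']

omit [DecidableEq I] in
lemma Prob.post_le_one (hq : Prob q F) (t : ℝ) (y : I → ℝ) {A : Finset I} (hA : A ∈ F.powerset) :
    post q F t y A ≤ 1 := by
  rw [← hq.sum_post t y]
  exact Finset.single_le_sum (f := fun A => post q F t y A) (fun B hB => hq.post_nonneg t y hB) hA

lemma vel_eq (q : Finset I → ℝ) (F : Finset I) (t : ℝ) (y : I → ℝ) (i : I) :
    vel q F t y i = ∑ A ∈ F.powerset, post q F t y A * ind A i := by
  simp only [vel, mean, Zf, post, wt, Finset.sum_div]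
  exact Finset.sum_congr rfl fun A _ => by ring

lemma ind_nonneg (A : Finset I) (i : I) : 0 ≤ ind A i := by unfold ind; split_ifs <;> simp

lemma ind_le_one (A : Finset I) (i : I) : ind A i ≤ 1 := by unfold ind; split_ifs <;> simp

lemma ind_sq (A : Finset I) (i : I) : ind A i ^ 2 = ind A i := by unfold ind; split_ifs <;> simp

lemma Prob.vel_nonneg (hq : Prob q F) (t : ℝ) (y : I → ℝ) (i : I) : 0 ≤ vel q F t y i := by
  rw [vel_eq]
  exact Finset.sum_nonneg fun A hA => mul_nonneg (hq.post_nonneg t y hA) (ind_nonneg _ _)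

lemma Prob.vel_le_one (hq : Prob q F) (t : ℝ) (y : I → ℝ) (i : I) : vel q F t y i ≤ 1 := by
  rw [vel_eq, ← hq.sum_post t y]
  exact Finset.sum_le_sum fun A hA =>
    mul_le_of_le_one_right (hq.post_nonneg t y hA) (ind_le_one _ _)

lemma measurable_vel_param {Ω : Type*} [MeasurableSpace Ω] {q : Ω → Finset I → ℝ}
    (hq : ∀ A, Measurable fun ω => q ω A) (F : Finset I) (t : ℝ) {y : Ω → I → ℝ}
    (hy : Measurable y) (i : I) : Measurable fun ω => vel (q ω) F t (y ω) i := by
  unfold vel mean Zf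
  fun_prop

@[fun_prop]
lemma measurable_vel (q : Finset I → ℝ) (F : Finset I) (t : ℝ) (i : I) :
    Measurable fun y => vel q F t y i :=
  measurable_vel_param (q := fun _ => q) (fun _ => measurable_const) F t measurable_id i

omit [DecidableEq I] in
@[fun_prop]
lemma measurable_post (q : Finset I → ℝ) (F : Finset I) (t : ℝ) (A : Finset I) :
    Measurable fun y => post q F t y A := by
  unfold post
  fun_prop

lemma Prob.bm_vel (hq : Prob q F) (t : ℝ) (i : I) : BM fun y => vel q F t y i :=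
  BM.of_unit (measurable_vel q F t i) (fun y => hq.vel_nonneg t y i) fun y => hq.vel_le_one t y i

omit [DecidableEq I] in
lemma Prob.bm_post (hq : Prob q F) (t : ℝ) {A : Finset I} (hA : A ∈ F.powerset) :
    BM fun y => post q F t y A :=
  BM.of_unit (measurable_post q F t A) (fun y => hq.post_nonneg t y hA)
    fun y => hq.post_le_one t y hA

omit [DecidableEq I] in
lemma bm_wt (t : ℝ) (A : Finset I) : BM fun y => wt t y A :=
  ⟨measurable_wt t A, _, fun y => by rw [abs_of_pos (wt_pos _ _ _)]; exact wt_le t y A⟩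

lemma vel_congr (q : Finset I → ℝ) (F : Finset I) (t : ℝ) {y y' : I → ℝ}
    (h : ∀ j ∈ F, y j = y' j) (i : I) : vel q F t y i = vel q F t y' i := by
  have : ∀ A ∈ F.powerset, ∏ j ∈ A, Real.exp (th t (y j)) = ∏ j ∈ A, Real.exp (th t (y' j)) :=
    fun A hA => Finset.prod_congr rfl fun j hj => by rw [h j (Finset.mem_powerset.mp hA hj)]
  unfold vel mean Zf
  congr 1
  · exact Finset.sum_congr rfl fun A hA => by rw [this A hA]
  · exact Finset.sum_congr rfl fun A hA => by rw [this A hA]

lemma MeanLip.vel_lip (hl : MeanLip q F) {t t' r s : ℝ} {y y' : I → ℝ} (hr : 0 ≤ r)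
    (h : ∀ j ∈ F, |y j - y' j| ≤ r) (hs : |t - t'| ≤ s) (i : I) :
    |vel q F t y i - vel q F t' y' i| ≤ 400 * r + 200 * s := by
  have := hl (fun j => th t (y j)) (fun j => th t' (y' j)) (2 * r + s)
    (by linarith [abs_nonneg (t - t')])
    (fun j hj => (th_lip _ _ _ _).trans (by linarith [h j hj])) i
  unfold vel
  linarith

lemma Prob.isProb (hq : Prob q F) (t : ℝ) : IsProbabilityMeasure (lawY q F t) := by
  constructor
  have : ∀ A : Finset I, (Gam I).map (shift t A) Set.univ = 1 := fun A =>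
    (Measure.isProbabilityMeasure_map (measurable_shift t A).aemeasurable).measure_univ
  simp only [lawY, Measure.coe_finsetSum, Finset.sum_apply, Measure.smul_apply, this, smul_eq_mul,
    mul_one]
  rw [← ENNReal.ofReal_sum_of_nonneg (fun A hA => hq.nonneg A (Finset.mem_powerset.mp hA)),
    hq.sum_one, ENNReal.ofReal_one]

lemma Prob.integral_lawY (hq : Prob q F) (t : ℝ) {g : (I → ℝ) → ℝ} (hg : BM g) :
    ∫ y, g y ∂lawY q F t = ∑ A ∈ F.powerset, q A * ∫ z, g (shift t A z) ∂Gam I := by
  rw [lawY, integral_finsetSum_measure]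
  · refine Finset.sum_congr rfl fun A hA => ?_
    rw [integral_smul_measure, integral_map (measurable_shift t A).aemeasurable
      hg.meas.aestronglyMeasurable, ENNReal.toReal_ofReal
      (hq.nonneg A (Finset.mem_powerset.mp hA)), smul_eq_mul]
  · intro A _
    exact (hg.integrable _).smul_measure ENNReal.ofReal_ne_top

lemma Prob.integral_lawY_zero (hq : Prob q F) {g : (I → ℝ) → ℝ} (hg : BM g) :
    ∫ y, g y ∂lawY q F 0 = ∫ z, g z ∂Gam I := by
  rw [hq.integral_lawY 0 hg]
  have : ∀ (A : Finset I) (z : I → ℝ), shift 0 A z = z := fun A z => by ext j; simp [shift]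
  simp only [this]
  rw [← Finset.sum_mul, hq.sum_one, one_mul]

/-- Bayes' identity. -/
lemma Prob.bayes (hq : Prob q F) (t : ℝ) {G : Finset I → (I → ℝ) → ℝ} (hG : ∀ B, BM (G B)) :
    ∫ y, ∑ B ∈ F.powerset, post q F t y B * G B y ∂lawY q F t =
      ∑ B ∈ F.powerset, q B * ∫ z, G B (shift t B z) ∂Gam I := by
  have hbm : BM fun y => ∑ B ∈ F.powerset, post q F t y B * G B y :=
    BM.sum fun B hB => (hq.bm_post t hB).mul (hG B)
  rw [hq.integral_lawY t hbm]
  simp only [integral_shift t _ hbm.meas, integral_shift t _ (hG _).meas, ← integral_const_mul]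
  rw [← integral_finsetSum _ fun A _ => (((bm_wt t A).mul hbm).const_mul _).integrable _,
    ← integral_finsetSum _ fun A _ => (((bm_wt t A).mul (hG A)).const_mul _).integrable _]
  refine integral_congr_ae (ae_of_all _ fun y => ?_)
  simp only [← mul_assoc]
  rw [← Finset.sum_mul, Finset.mul_sum]
  refine Finset.sum_congr rfl fun B _ => ?_
  have := (hq.Z_pos t y).ne'
  simp only [post]
  field_simp

lemma shift_shift (t δ : ℝ) (B : Finset I) (z : I → ℝ) :
    shift δ B (shift t B z) = shift (t + δ) B z := by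
  ext j; simp only [shift]; ring

/-- One step of the resampling chain. -/
lemma Prob.step (hq : Prob q F) (t δ : ℝ) {g : (I → ℝ) → ℝ} (hg : BM g) :
    ∫ y, ∑ B ∈ F.powerset, post q F t y B * g (shift δ B y) ∂lawY q F t =
      ∫ y, g y ∂lawY q F (t + δ) := by
  rw [hq.bayes t (G := fun B y => g (shift δ B y)) fun B => hg.comp (measurable_shift δ B),
    hq.integral_lawY _ hg]
  simp only [shift_shift]

lemma Prob.integral_vel_mul (hq : Prob q F) (t : ℝ) (j : I) {g : (I → ℝ) → ℝ} (hg : BM g) :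
    ∫ y, vel q F t y j * g y ∂lawY q F t =
      ∑ B ∈ F.powerset, q B * ∫ z, ind B j * g (shift t B z) ∂Gam I := by
  rw [← hq.bayes t (G := fun B y => ind B j * g y) fun B => hg.const_mul _]
  refine integral_congr_ae (ae_of_all _ fun y => ?_)
  simp only [vel_eq, Finset.sum_mul, mul_assoc]

end

section
variable {E : Set I} {p : Finset I → Finset I → ℝ}

lemma shift_inter (t : ℝ) (B F : Finset I) (z : I → ℝ) :
    ∀ j ∈ (F : Set I), shift t B z j = shift t (B ∩ F) z j := by
  intro j hj
  have hj' : j ∈ F := hj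
  simp [shift, ind, hj']

lemma Good.integral_lawY_cons (hp : Good E p) {F F' : Finset I} (hFF : F ⊆ F')
    (hF' : (F' : Set I) ⊆ E) (t : ℝ) {g : (I → ℝ) → ℝ} (hg : BM g) (hd : DependsOn g (F : Set I)) :
    ∫ y, g y ∂lawY (p F') F' t = ∫ y, g y ∂lawY (p F) F t := by
  have hF : (F : Set I) ⊆ E := (Finset.coe_subset.mpr hFF).trans hF'
  rw [(hp.prob hF').integral_lawY t hg, (hp.prob hF).integral_lawY t hg,
    ← hp.cons F F' hFF hF' fun A => ∫ z, g (shift t A z) ∂Gam I]
  refine Finset.sum_congr rfl fun B _ => ?_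
  congr 2
  ext z
  exact hd (shift_inter t B F z)

lemma Good.integral_vel_mul_cons (hp : Good E p) {F F' : Finset I} (hFF : F ⊆ F')
    (hF' : (F' : Set I) ⊆ E) (t : ℝ) {j : I} (hj : j ∈ F) {g : (I → ℝ) → ℝ} (hg : BM g)
    (hd : DependsOn g (F : Set I)) :
    ∫ y, vel (p F') F' t y j * g y ∂lawY (p F') F' t =
      ∫ y, vel (p F) F t y j * g y ∂lawY (p F) F t := by
  have hF : (F : Set I) ⊆ E := (Finset.coe_subset.mpr hFF).trans hF'
  rw [(hp.prob hF').integral_vel_mul t j hg, (hp.prob hF).integral_vel_mul t j hg,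
    ← hp.cons F F' hFF hF' fun A => ∫ z, ind A j * g (shift t A z) ∂Gam I]
  refine Finset.sum_congr rfl fun B _ => ?_
  congr 2
  ext z
  rw [hd (shift_inter t B F z)]
  simp [ind, hj]

/-- Second moment of the posterior mean in volume `F`. -/
noncomputable def energy (p : Finset I → Finset I → ℝ) (F : Finset I) (t : ℝ) (j : I) : ℝ :=
  ∫ y, vel (p F) F t y j ^ 2 ∂lawY (p F) F t

lemma Good.energy_le_one (hp : Good E p) {F : Finset I} (hF : (F : Set I) ⊆ E) (t : ℝ) (j : I) :
    energy p F t j ≤ 1 := by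
  have hq := hp.prob hF
  have := hq.isProb t
  calc energy p F t j ≤ ∫ _, (1 : ℝ) ∂lawY (p F) F t :=
        integral_mono ((hq.bm_vel t j).sq.integrable _) (integrable_const _) fun y =>
          pow_le_one₀ (hq.vel_nonneg t y j) (hq.vel_le_one t y j)
    _ = 1 := by simp

lemma Good.orth (hp : Good E p) {F F' : Finset I} (hFF : F ⊆ F')
    (hF' : (F' : Set I) ⊆ E) (t : ℝ) {j : I} (hj : j ∈ F) :
    ∫ y, (vel (p F') F' t y j - vel (p F) F t y j) ^ 2 ∂lawY (p F') F' t =
      energy p F' t j - energy p F t j := by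
  have hF : (F : Set I) ⊆ E := (Finset.coe_subset.mpr hFF).trans hF'
  have hq := hp.prob hF
  have hq' := hp.prob hF'
  have := hq'.isProb t
  have hd : DependsOn (fun y => vel (p F) F t y j) (F : Set I) := fun y y' h =>
    vel_congr _ _ _ h j
  have h1 := hp.integral_vel_mul_cons hFF hF' t hj (hq.bm_vel t j) hd
  have h2 := hp.integral_lawY_cons hFF hF' t (hq.bm_vel t j).sq fun y y' h => by
    simp only [vel_congr _ _ _ h j]
  have h3 : ∀ y, (vel (p F') F' t y j - vel (p F) F t y j) ^ 2 =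
      vel (p F') F' t y j ^ 2 - 2 * (vel (p F') F' t y j * vel (p F) F t y j) +
        vel (p F) F t y j ^ 2 := fun y => by ring
  simp only [h3]
  rw [integral_add, integral_sub, integral_const_mul, h1, h2]
  · simp only [energy, ← _root_.sq]; ring
  · exact (hq'.bm_vel t j).sq.integrable _
  · exact (((hq'.bm_vel t j).mul (hq.bm_vel t j)).const_mul _).integrable _
  · exact ((hq'.bm_vel t j).sq.sub
      (((hq'.bm_vel t j).mul (hq.bm_vel t j)).const_mul _)).integrable _
  · exact (hq.bm_vel t j).sq.integrable _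

/-- Martingale convergence in quantitative form: a volume `W ⊇ J` such that the posterior means
on `J` computed in `W` are close in `L¹` to those computed in any larger volume. -/
lemma Good.exists_volume (hp : Good E p) {J : Finset I} (hJ : (J : Set I) ⊆ E) (t : ℝ) {η : ℝ}
    (hη : 0 < η) : ∃ W : Finset I, J ⊆ W ∧ (W : Set I) ⊆ E ∧ ∀ F : Finset I, W ⊆ F →
      (F : Set I) ⊆ E →
        ∫ y, ∑ j ∈ J, |vel (p F) F t y j - vel (p W) W t y j| ∂lawY (p F) F t ≤ η := by
  set ε : ℝ := η / (2 * (J.card + 1)) with hε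
  have hε0 : 0 < ε := by positivity
  set α : Finset I → ℝ := fun F => ∑ j ∈ J, energy p F t j with hα
  set S : Set ℝ := α '' {F | J ⊆ F ∧ (F : Set I) ⊆ E} with hS
  have hbdd : BddAbove S := by
    refine ⟨J.card, ?_⟩
    rintro _ ⟨F, hF, rfl⟩
    calc α F ≤ ∑ _j ∈ J, (1 : ℝ) := Finset.sum_le_sum fun j _ => hp.energy_le_one hF.2 t j
      _ = J.card := by simp
  have hne : S.Nonempty := ⟨_, J, ⟨subset_rfl, hJ⟩, rfl⟩
  obtain ⟨_, ⟨W, hW, rfl⟩, hlt⟩ := exists_lt_of_lt_csSup hne
    (show sSup S - ε * (η / 2) < sSup S by linarith [mul_pos hε0 (half_pos hη)])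
  refine ⟨W, hW.1, hW.2, fun F hWF hF => ?_⟩
  have hq := hp.prob hF
  have hqW := hp.prob hW.2
  have := hq.isProb t
  have hle : α F ≤ sSup S := le_csSup hbdd ⟨F, ⟨hW.1.trans hWF, hF⟩, rfl⟩
  have hpt : ∀ a : ℝ, |a| ≤ ε + ε⁻¹ * a ^ 2 := by
    intro a
    rw [← sq_abs a]
    by_cases h : |a| ≤ ε
    · have : 0 ≤ ε⁻¹ * |a| ^ 2 := by positivity
      linarith
    · have h1 : 1 ≤ ε⁻¹ * |a| := by
        rw [inv_mul_eq_div, le_div_iff₀ hε0]; linarith
      nlinarith [abs_nonneg a]
  have hb : ∀ j, BM fun y => vel (p F) F t y j - vel (p W) W t y j := fun j =>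
    (hq.bm_vel t j).sub (hqW.bm_vel t j)
  calc ∫ y, ∑ j ∈ J, |vel (p F) F t y j - vel (p W) W t y j| ∂lawY (p F) F t
      = ∑ j ∈ J, ∫ y, |vel (p F) F t y j - vel (p W) W t y j| ∂lawY (p F) F t :=
        integral_finsetSum _ fun j _ => (hb j).abs.integrable _
    _ ≤ ∑ j ∈ J, (ε + ε⁻¹ * (energy p F t j - energy p W t j)) := by
        refine Finset.sum_le_sum fun j hj => ?_
        rw [← hp.orth hWF hF t (hW.1 hj), ← integral_const_mul]
        calc _ ≤ ∫ y, (ε + ε⁻¹ * (vel (p F) F t y j - vel (p W) W t y j) ^ 2) ∂lawY (p F) F t :=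
              integral_mono ((hb j).abs.integrable _)
                (((BM.const ε).add ((hb j).sq.const_mul _)).integrable _) fun y => hpt _
          _ = _ := by
              rw [integral_add (integrable_const _) (((hb j).sq.const_mul _).integrable _)]
              simp
    _ = J.card * ε + ε⁻¹ * (α F - α W) := by
        simp only [Finset.sum_add_distrib, Finset.sum_const, nsmul_eq_mul, ← Finset.mul_sum,
          Finset.sum_sub_distrib, hα]
    _ ≤ η / 2 + η / 2 := by
        apply add_le_add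
        · rw [hε, mul_div_assoc', div_le_div_iff₀ (by positivity) (by positivity)]
          nlinarith
        · rw [inv_mul_le_iff₀ hε0]; linarith
    _ = η := by ring

end

end Crest.Agent.R168
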