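import Crest.Agent.R168.Euler

/-!
The approximants `appr`: Cauchy property along the net of finite volumes, and their limiting law.
-/

set_option autoImplicit false

namespace Crest.Agent.R168

open MeasureTheory Finset Filter Topology ProbabilityTheory

/-- Soft threshold at level `n / 2`. -/
noncomputable def sig (n : ℕ) (y : ℝ) : ℝ := max 0 (min 1 (y - n / 2))

/-- Bump around the level `n / 2`. -/
noncomputable def psi (n : ℕ) (y : ℝ) : ℝ := max 0 (min 1 (3 - |y - n / 2|))

lemma sig_nonneg (n : ℕ) (y : ℝ) : 0 ≤ sig n y := le_max_left _ _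

lemma sig_le_one (n : ℕ) (y : ℝ) : sig n y ≤ 1 := max_le zero_le_one (min_le_left _ _)

lemma psi_nonneg (n : ℕ) (y : ℝ) : 0 ≤ psi n y := le_max_left _ _

lemma psi_le_one (n : ℕ) (y : ℝ) : psi n y ≤ 1 := max_le zero_le_one (min_le_left _ _)

@[fun_prop]
lemma measurable_sig (n : ℕ) : Measurable (sig n) := by unfold sig; fun_prop

@[fun_prop]
lemma measurable_psi (n : ℕ) : Measurable (psi n) := by unfold psi; fun_prop

lemma clamp_lip (a b : ℝ) : |max 0 (min 1 a) - max 0 (min 1 b)| ≤ |a - b| := by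
  have h1 := le_abs_self (a - b)
  have h2 := neg_abs_le (a - b)
  have h3 := abs_nonneg (a - b)
  rw [abs_le]
  simp only [max_def, min_def]
  split_ifs <;> constructor <;> linarith

lemma sig_lip (n : ℕ) (y y' : ℝ) : |sig n y - sig n y'| ≤ |y - y'| := by
  refine (clamp_lip _ _).trans (le_of_eq ?_)
  congr 1; ring

lemma psi_lip (n : ℕ) (y y' : ℝ) : |psi n y - psi n y'| ≤ |y - y'| := by
  refine (clamp_lip _ _).trans ?_
  have := abs_abs_sub_abs_le_abs_sub (y' - n / 2) (y - n / 2)
  rw [show (3 : ℝ) - |y - n / 2| - (3 - |y' - n / 2|) = |y' - n / 2| - |y - n / 2| by ring]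
  refine this.trans (le_of_eq ?_)
  rw [abs_sub_comm]; congr 1; ring

lemma sig_of_ge {n : ℕ} {y : ℝ} (h : 1 ≤ y - n / 2) : sig n y = 1 := by
  unfold sig; rw [min_eq_left h, max_eq_right zero_le_one]

lemma sig_of_le {n : ℕ} {y : ℝ} (h : y - n / 2 ≤ 0) : sig n y = 0 := by
  unfold sig; rw [min_eq_right (h.trans zero_le_one), max_eq_left h]

lemma psi_of_le {n : ℕ} {y : ℝ} (h : |y - n / 2| ≤ 2) : psi n y = 1 := by
  unfold psi; rw [min_eq_left (by linarith), max_eq_right zero_le_one]

lemma sig_mul_le_psi (n : ℕ) (y : ℝ) : sig n y * (1 - sig n y) ≤ psi n y := by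
  by_cases h : |y - n / 2| ≤ 2
  · rw [psi_of_le h]; nlinarith [sig_nonneg n y, sig_le_one n y]
  · rcases lt_abs.mp (not_le.mp h) with h | h
    · rw [sig_of_ge (by linarith)]; simpa using psi_nonneg n y
    · rw [sig_of_le (by linarith)]; simpa using psi_nonneg n y

lemma sig_succ_le_psi (n : ℕ) {y y' : ℝ} (h0 : 0 ≤ y' - y) (h1 : y' - y ≤ 1) :
    |sig (n + 1) y' - sig n y| ≤ psi n y := by
  by_cases h : |y - n / 2| ≤ 2
  · rw [psi_of_le h, abs_le]
    constructor <;> linarith [sig_nonneg n y, sig_le_one n y, sig_nonneg (n + 1) y',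
      sig_le_one (n + 1) y']
  · rcases lt_abs.mp (not_le.mp h) with h | h
    · rw [sig_of_ge (n := n) (by linarith), sig_of_ge (by push_cast; linarith)]
      simpa using psi_nonneg n y
    · rw [sig_of_le (n := n) (by linarith), sig_of_le (by push_cast; linarith)]
      simpa using psi_nonneg n y

/-- Geometric tail factor. -/
noncomputable def tl (n : ℕ) : ℝ := Real.exp (3 / 2) * Real.exp (-1 / 4) ^ n

lemma tl_nonneg (n : ℕ) : 0 ≤ tl n := by unfold tl; positivity

lemma one_le_tail {n : ℕ} {z : ℝ} (h : (n : ℝ) / 2 - 3 ≤ |z|) : 1 ≤ tl n * Real.exp (|z| / 2) := by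
  rw [tl, ← Real.exp_nat_mul, ← Real.exp_add, ← Real.exp_add]
  exact Real.one_le_exp (by linarith)

lemma tendsto_tl : Tendsto tl atTop (𝓝 0) := by
  have := (tendsto_pow_atTop_nhds_zero_of_lt_one (Real.exp_pos (-1 / 4)).le
    (Real.exp_lt_one_iff.mpr (by norm_num))).const_mul (Real.exp (3 / 2))
  rw [mul_zero] at this
  exact this

lemma sum_tl_le (a b : ℕ) : ∑ n ∈ Ico a b, tl n ≤ tl a / (1 - Real.exp (-1 / 4)) := by
  simp only [tl, ← Finset.mul_sum, mul_div_assoc]
  exact mul_le_mul_of_nonneg_left (geom_sum_Ico_le_of_lt_one (Real.exp_pos _).le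
    (Real.exp_lt_one_iff.mpr (by norm_num))) (Real.exp_pos _).le

variable {I : Type*} [DecidableEq I]

lemma psi_shift_le (n : ℕ) (A : Finset I) (z : I → ℝ) (i : I) :
    psi n (shift n A z i) ≤ tl n * Real.exp (|z i| / 2) := by
  by_cases h : (n : ℝ) / 2 - 3 ≤ |z i|
  · exact (psi_le_one _ _).trans (one_le_tail h)
  · have h1 := abs_lt.mp (not_le.mp h)
    have : 3 ≤ |shift n A z i - n / 2| := by
      simp only [shift, ind]
      split_ifs
      · exact le_trans (by linarith) (le_abs_self _)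
      · exact le_trans (by linarith) (neg_le_abs _)
    have h2 : psi n (shift n A z i) = 0 := by
      unfold psi; rw [min_eq_right (by linarith), max_eq_left (by linarith)]
    rw [h2]
    exact mul_nonneg (tl_nonneg n) (Real.exp_pos _).le

lemma sig_shift_le (n : ℕ) (A : Finset I) (z : I → ℝ) (i : I) :
    |sig n (shift n A z i) - ind A i| ≤ tl n * Real.exp (|z i| / 2) := by
  by_cases h : (n : ℝ) / 2 - 3 ≤ |z i|
  · refine le_trans ?_ (one_le_tail h)
    rw [abs_le]
    constructor <;> linarith [sig_nonneg n (shift n A z i), sig_le_one n (shift n A z i),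
      ind_nonneg A i, ind_le_one A i]
  · have h1 := abs_lt.mp (not_le.mp h)
    have : sig n (shift n A z i) = ind A i := by
      simp only [shift, ind]
      split_ifs
      · exact sig_of_ge (by linarith)
      · exact sig_of_le (by linarith)
    rw [this, sub_self, abs_zero]
    exact mul_nonneg (tl_nonneg n) (Real.exp_pos _).le

omit [DecidableEq I] in
lemma bm_psi (n : ℕ) (i : I) : BM fun y : I → ℝ => psi n (y i) :=
  BM.of_unit (by fun_prop) (fun _ => psi_nonneg _ _) fun _ => psi_le_one _ _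

omit [DecidableEq I] in
lemma bm_sig (n : ℕ) (i : I) : BM fun y : I → ℝ => sig n (y i) :=
  BM.of_unit (by fun_prop) (fun _ => sig_nonneg _ _) fun _ => sig_le_one _ _

lemma Prob.integral_psi_le {q : Finset I → ℝ} {F : Finset I} (hq : Prob q F) (n : ℕ) (i : I) :
    ∫ y, psi n (y i) ∂lawY q F n ≤ tl n * c0 := by
  rw [hq.integral_lawY _ (bm_psi n i)]
  calc _ ≤ ∑ A ∈ F.powerset, q A * (tl n * c0) := by
        refine Finset.sum_le_sum fun A hA =>
          mul_le_mul_of_nonneg_left ?_ (hq.nonneg A (Finset.mem_powerset.mp hA))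
        rw [← integral_expabs i, ← integral_const_mul]
        exact integral_mono (((bm_psi n i).comp (measurable_shift _ A)).integrable _)
          ((integrable_expabs i).const_mul _) fun z => psi_shift_le n A z i
    _ = _ := by rw [← Finset.sum_mul, hq.sum_one, one_mul]

lemma exists_Mn (n : ℕ) : ∃ m : ℕ, n ≤ m ∧ (n + 1) * err m n ≤ 1 / (n + 1) := by
  have h1 : Tendsto (fun m => ((n : ℝ) + 1) * err m n) atTop (𝓝 0) := by
    simpa using (tendsto_err n).const_mul ((n : ℝ) + 1)
  exact ((eventually_ge_atTop n).and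
    (h1.eventually (ge_mem_nhds (show (0 : ℝ) < 1 / (n + 1) by positivity)))).exists

/-- Mesh exponent used up to time `n`. -/
noncomputable def Mn (n : ℕ) : ℕ := (exists_Mn n).choose

lemma le_Mn (n : ℕ) : n ≤ Mn n := (exists_Mn n).choose_spec.1

lemma err_Mn (n : ℕ) : (n + 1) * err (Mn n) n ≤ 1 / (n + 1) := (exists_Mn n).choose_spec.2

/-- Position at integer time `T` of the dyadic Euler scheme. -/
noncomputable def pos (p : Finset I → Finset I → ℝ) (F : Finset I) (m T : ℕ) (z : I → ℝ) : I → ℝ :=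
  eul p (mesh m) F z (T * 2 ^ m)

/-- The approximant of the output at site `i`. -/
noncomputable def appr (p : Finset I → Finset I → ℝ) (F : Finset I) (n : ℕ) (i : I) (z : I → ℝ) :
    ℝ := sig n (pos p F (Mn n) n z i)

lemma cast_mul_mesh (T m : ℕ) : ((T * 2 ^ m : ℕ) : ℝ) * mesh m = T := by
  unfold mesh; push_cast; field_simp

lemma measurable_pos (p : Finset I → Finset I → ℝ) (F : Finset I) (m T : ℕ) :
    Measurable (pos p F m T) := measurable_eul _ _ _ _

lemma appr_nonneg (p : Finset I → Finset I → ℝ) (F : Finset I) (n : ℕ) (i : I) (z : I → ℝ) :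
    0 ≤ appr p F n i z := sig_nonneg _ _

lemma appr_le_one (p : Finset I → Finset I → ℝ) (F : Finset I) (n : ℕ) (i : I) (z : I → ℝ) :
    appr p F n i z ≤ 1 := sig_le_one _ _

lemma bm_appr (p : Finset I → Finset I → ℝ) (F : Finset I) (n : ℕ) (i : I) :
    BM (appr p F n i) := (bm_sig n i).comp (measurable_pos p F _ n)

lemma measurable_appr_param {Ω : Type*} [MeasurableSpace Ω] {p : Ω → Finset I → Finset I → ℝ}
    (hp : ∀ F A, Measurable fun ω => p ω F A) (F : Finset I) (n : ℕ) (i : I) {z : Ω → I → ℝ}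
    (hz : Measurable z) : Measurable fun ω => appr (p ω) F n i (z ω) :=
  (measurable_sig n).comp ((measurable_pi_apply i).comp (measurable_sch_param hp _ _ hz _))

section
variable {p : Finset I → Finset I → ℝ} {F : Finset I}

lemma integral_pos (hq : Prob (p F) F)
    (hl : MeanLip (p F) F) {f : (I → ℝ) → ℝ} (hb : BM f) {K : ℝ} (hK : 0 ≤ K) (hf : LipOn F K f)
    (m : ℕ) {T n : ℕ} (hT : T ≤ n) :
    |∫ z, f (pos p F m T z) ∂Gam I - ∫ y, f y ∂lawY (p F) F T| ≤ K * err m n := by
  have := integral_eul hq hl hb hK hf m (T * 2 ^ m) (T := n)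
    (by rw [cast_mul_mesh]; exact_mod_cast hT)
  rwa [cast_mul_mesh] at this

lemma integral_psi_pos (hq : Prob (p F) F) (hl : MeanLip (p F) F) {i : I} (hi : i ∈ F)
    (m : ℕ) {T n : ℕ} (hT : T ≤ n) :
    ∫ z, psi T (pos p F m T z i) ∂Gam I ≤ tl T * c0 + err m n := by
  have h1 := integral_pos hq hl (bm_psi T i) zero_le_one
    (fun y y' r _ h => by simpa using (psi_lip T _ _).trans (h i hi)) m hT
  have h2 := hq.integral_psi_le T i
  linarith [(abs_le.mp h1).2]

lemma time_tail (hq : Prob (p F) F) (hl : MeanLip (p F) F) {i : I} (hi : i ∈ F)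
    {T n : ℕ} (hT : T ≤ n) :
    ∫ z, |appr p F n i z - sig T (pos p F (Mn n) T z i)| ∂Gam I ≤
      tl T / (1 - Real.exp (-1 / 4)) * c0 + 1 / (n + 1) := by
  set m := Mn n with hm
  have h1 : ∀ z, ∀ a, T ≤ a → |sig a (pos p F m a z i) - sig T (pos p F m T z i)| ≤
      ∑ b ∈ Ico T a, psi b (pos p F m b z i) := by
    intro z a ha
    induction a, ha using Nat.le_induction with
    | base => simp
    | succ a ha ih =>
      rw [Finset.sum_Ico_succ_top ha]
      have h2 := eul_incr hq (mesh_pos m).le z (a * 2 ^ m) (2 ^ m) i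
      have h3 : ((2 ^ m : ℕ) : ℝ) * mesh m = 1 := by simpa using cast_mul_mesh 1 m
      rw [h3, show a * 2 ^ m + 2 ^ m = (a + 1) * 2 ^ m by ring] at h2
      have h4 := sig_succ_le_psi a h2.1 h2.2
      exact (abs_sub_le _ _ _).trans (by rw [add_comm]; exact add_le_add ih h4)
  have hb : ∀ b, BM fun z => psi b (pos p F m b z i) := fun b =>
    (bm_psi b i).comp (measurable_pos p F m b)
  have he := err_nonneg m (Nat.cast_nonneg n : (0 : ℝ) ≤ n)
  calc _ ≤ ∫ z, ∑ b ∈ Ico T n, psi b (pos p F m b z i) ∂Gam I :=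
        integral_mono (((bm_appr p F n i).sub
          ((bm_sig T i).comp (measurable_pos p F m T))).abs.integrable _)
          ((BM.sum fun b _ => hb b).integrable _) fun z => h1 z n hT
    _ = ∑ b ∈ Ico T n, ∫ z, psi b (pos p F m b z i) ∂Gam I :=
        integral_finsetSum _ fun b _ => (hb b).integrable _
    _ ≤ ∑ b ∈ Ico T n, (tl b * c0 + err m n) := Finset.sum_le_sum fun b hb =>
        integral_psi_pos hq hl hi m (Finset.mem_Ico.mp hb).2.le
    _ = (∑ b ∈ Ico T n, tl b) * c0 + (n - T : ℕ) * err m n := by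
        rw [Finset.sum_add_distrib, Finset.sum_mul]; simp
    _ ≤ _ := by
        refine add_le_add (mul_le_mul_of_nonneg_right (sum_tl_le T n) c0_nonneg) ?_
        refine le_trans (mul_le_mul_of_nonneg_right ?_ he) (err_Mn n)
        exact_mod_cast (by omega : n - T ≤ n + 1)

end

section
variable {E : Set I} {p : Finset I → Finset I → ℝ}

lemma Good.exists_nested (hp : Good E p) (h : ℝ) {η : ℝ} (hη : 0 < η) (N : ℕ) :
    ∀ J : Finset I, (J : Set I) ⊆ E → ∃ W : ℕ → Finset I, W N = J ∧
      (∀ k ≤ N, (W k : Set I) ⊆ E) ∧ ∀ k < N, W (k + 1) ⊆ W k ∧ ∀ F : Finset I, W k ⊆ F →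
        (F : Set I) ⊆ E → ∫ y, ∑ j ∈ W (k + 1),
          |vel (p F) F (k * h) y j - vel (p (W k)) (W k) (k * h) y j| ∂lawY (p F) F (k * h) ≤ η := by
  induction N with
  | zero => exact fun J hJ => ⟨fun _ => J, rfl, fun _ _ => hJ, fun k hk => absurd hk (by omega)⟩
  | succ N ih =>
    intro J hJ
    obtain ⟨V, hJV, hVE, hV⟩ := hp.exists_volume hJ (N * h) hη
    obtain ⟨W, hWN, hWE, hW⟩ := ih V hVE
    refine ⟨Function.update W (N + 1) J, by simp, fun k hk => ?_, fun k hk => ?_⟩
    · rcases hk.eq_or_lt with rfl | hk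
      · simpa using hJ
      · rw [Function.update_of_ne hk.ne]; exact hWE k (by omega)
    · rw [Function.update_of_ne hk.ne]
      rcases (Nat.lt_succ_iff.mp hk).eq_or_lt with rfl | hk'
      · rw [Function.update_self, hWN]; exact ⟨hJV, hV⟩
      · rw [Function.update_of_ne (by omega)]; exact hW k hk'

lemma Good.space_cauchy (hp : Good E p) {i : I} (hi : i ∈ E) (T : ℕ) {ε : ℝ} (hε : 0 < ε) :
    ∃ (W : Finset I) (m₀ : ℕ) (a : (I → ℝ) → ℝ), i ∈ W ∧ (W : Set I) ⊆ E ∧ BM a ∧
      ∀ F : Finset I, W ⊆ F → (F : Set I) ⊆ E → ∀ m, m₀ ≤ m →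
        ∫ z, |sig T (pos p F m T z i) - a z| ∂Gam I ≤ ε := by
  obtain ⟨m₁, hm₁⟩ := ((tendsto_err T).eventually
    (ge_mem_nhds (show (0 : ℝ) < ε / 3 by positivity))).exists
  set h := mesh m₁ with hh
  have hh0 : 0 < h := mesh_pos m₁
  set N := T * 2 ^ m₁ with hN
  have hNh : (N : ℝ) * h = T := cast_mul_mesh T m₁
  set X := Real.exp (400 * T) with hX
  have hX0 : 0 < X := Real.exp_pos _
  set η := ε / 3 / (X * (T + 1)) with hη
  have hη0 : 0 < η := by positivity
  obtain ⟨W, hWN, hWE, hW⟩ := hp.exists_nested h hη0 N {i} (by simpa using hi)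
  have hanti : ∀ k ≤ N, W k ⊆ W 0 := by
    intro k hk
    induction k with
    | zero => exact subset_rfl
    | succ k ih => exact (hW k (by omega)).1.trans (ih (by omega))
  have ht : Tendsto (fun m => X * (T * (800 * (W 0).card * err m T))) atTop (𝓝 0) := by
    simpa using (((tendsto_err T).const_mul (800 * (W 0).card : ℝ)).const_mul (T : ℝ)).const_mul X
  obtain ⟨m₂, hm₂⟩ := eventually_atTop.mp
    (ht.eventually (ge_mem_nhds (show (0 : ℝ) < ε / 3 by positivity)))
  refine ⟨W 0, max m₁ m₂, fun z => sig T (sch p h W z N i), hanti N le_rfl (by simp [hWN]),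
    hWE 0 (by omega), (bm_sig T i).comp (measurable_sch p h W N), fun F hWF hF m hm => ?_⟩
  obtain ⟨d, rfl⟩ := Nat.exists_eq_add_of_le (le_of_max_le_left hm)
  have hq := hp.prob hF
  have hl := hp.lip F hF
  set y : (I → ℝ) → ℕ → I → ℝ := fun z k => eul p (mesh (m₁ + d)) F z (k * 2 ^ d) with hy
  set e : ℕ → (I → ℝ) → ℝ := fun k y => ∑ j ∈ W (k + 1),
    |vel (p F) F (k * h) y j - vel (p (W k)) (W k) (k * h) y j| with he
  have he0 : ∀ k y, 0 ≤ e k y := fun k y => Finset.sum_nonneg fun _ _ => abs_nonneg _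
  have hebm : ∀ k < N, BM (e k) := fun k hk => BM.sum fun j _ =>
    ((hq.bm_vel _ j).sub ((hp.prob (hWE k hk.le)).bm_vel _ j)).abs
  have helip : ∀ k < N, LipOn F (800 * (W 0).card) (e k) := by
    intro k hk u u' r hr hu
    simp only [he]
    rw [← Finset.sum_sub_distrib]
    refine (Finset.abs_sum_le_sum_abs _ _).trans ?_
    calc _ ≤ ∑ _j ∈ W (k + 1), 800 * r := by
          refine Finset.sum_le_sum fun j _ => (abs_abs_sub_abs_le_abs_sub _ _).trans ?_
          have h1 := hl.vel_lip (t := k * h) (t' := k * h) (s := 0) hr hu (by simp) j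
          have h2 := (hp.lip _ (hWE k hk.le)).vel_lip (t := k * h) (t' := k * h) (s := 0) hr
            (fun j hj => hu j (hWF (hanti k hk.le hj))) (by simp) j
          have h3 := abs_le.mp h1
          have h4 := abs_le.mp h2
          rw [abs_le]; constructor <;> linarith
      _ = 800 * (W (k + 1)).card * r := by simp; ring
      _ ≤ _ := by
          gcongr
          exact hanti (k + 1) hk
  have hpt : ∀ z, |sig T (pos p F (m₁ + d) T z i) - sig T (sch p h W z N i)| ≤
      X * ∑ k ∈ range N, (600 * h ^ 2 + h * e k (y z k)) := by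
    intro z
    refine (sig_lip _ _ _).trans ?_
    have h1 := sch_compare (p := p) hh0.le (W := W) (z := z) (y := y z) (by simp [hy, eul_zero])
      (c := fun k => 600 * h ^ 2 + h * e k (y z k))
      (fun k => by have := he0 k (y z k); positivity) N (fun k hk => (hW k hk).1)
      (fun k hk => hp.lip _ (hWE k hk.le)) (fun k _ j hj => by
        have h2 := eul_dyadic_step hq hl z m₁ d k j
        have h3 : |vel (p F) F (k * h) (y z k) j - vel (p (W k)) (W k) (k * h) (y z k) j| ≤
            e k (y z k) := Finset.single_le_sum (f := fun j =>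
              |vel (p F) F (k * h) (y z k) j - vel (p (W k)) (W k) (k * h) (y z k) j|)
              (fun _ _ => abs_nonneg _) hj
        have h4 := abs_le.mp h2
        have h5 := abs_le.mp h3
        have h6 := mul_le_mul_of_nonneg_left h5.1 hh0.le
        have h7 := mul_le_mul_of_nonneg_left h5.2 hh0.le
        simp only [hy] at h6 h7 ⊢
        rw [abs_le]; constructor <;> linarith) i (by simp [hWN])
    have h8 : y z N = pos p F (m₁ + d) T z := by
      simp only [hy, pos, hN, pow_add, mul_assoc]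
    rw [h8] at h1
    refine h1.trans (mul_le_mul_of_nonneg_right (pow_le_exp_mul hh0.le hNh.le) ?_)
    exact Finset.sum_nonneg fun k _ => by have := he0 k (y z k); positivity
  have hybm : ∀ k < N, BM fun z => e k (y z k) := fun k hk =>
    (hebm k hk).comp (measurable_eul p _ F _)
  have hint : ∀ k < N, ∫ z, e k (y z k) ∂Gam I ≤ η + 800 * (W 0).card * err (m₁ + d) T := by
    intro k hk
    have h1 : ((k * 2 ^ d : ℕ) : ℝ) * mesh (m₁ + d) = k * h := by
      push_cast; rw [mul_assoc, mesh_add]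
    have h2 := integral_eul hq hl (hebm k hk) (by positivity) (helip k hk) (m₁ + d) (k * 2 ^ d)
      (T := T) (by
        rw [h1, ← hNh]
        exact mul_le_mul_of_nonneg_right (by exact_mod_cast hk.le) hh0.le)
    rw [h1] at h2
    have h3 := (hW k hk).2 F ((hanti k hk.le).trans hWF) hF
    linarith [(abs_le.mp h2).2]
  have hsum : ∀ k ∈ range N, BM fun z => 600 * h ^ 2 + h * e k (y z k) := fun k hk =>
    (BM.const _).add ((hybm k (Finset.mem_range.mp hk)).const_mul _)
  calc _ ≤ ∫ z, X * ∑ k ∈ range N, (600 * h ^ 2 + h * e k (y z k)) ∂Gam I :=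
        integral_mono ((((bm_sig T i).comp (measurable_pos p F _ T)).sub
          ((bm_sig T i).comp (measurable_sch p h W N))).abs.integrable _)
          (((BM.sum hsum).const_mul _).integrable _) hpt
    _ = X * ∑ k ∈ range N, (600 * h ^ 2 + h * ∫ z, e k (y z k) ∂Gam I) := by
        rw [integral_const_mul, integral_finsetSum _ fun k hk => (hsum k hk).integrable _]
        congr 1
        refine Finset.sum_congr rfl fun k hk => ?_
        rw [integral_add (integrable_const _)
          (((hybm k (Finset.mem_range.mp hk)).const_mul _).integrable _), integral_const_mul h]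
        simp
    _ ≤ X * ∑ _k ∈ range N, (600 * h ^ 2 + h * (η + 800 * (W 0).card * err (m₁ + d) T)) := by
        refine mul_le_mul_of_nonneg_left (Finset.sum_le_sum fun k hk => ?_) hX0.le
        exact add_le_add le_rfl
          (mul_le_mul_of_nonneg_left (hint k (Finset.mem_range.mp hk)) hh0.le)
    _ = err m₁ T + X * T * η + X * (T * (800 * (W 0).card * err (m₁ + d) T)) := by
        simp only [Finset.sum_const, Finset.card_range, nsmul_eq_mul]
        rw [show err m₁ T = X * (600 * T * h) from rfl, ← hNh]; ring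
    _ ≤ ε / 3 + ε / 3 + ε / 3 := by
        refine add_le_add (add_le_add hm₁ ?_) (hm₂ _ (le_of_max_le_right hm))
        rw [hη, mul_div_assoc', div_le_iff₀ (by positivity)]
        nlinarith
    _ = ε := by ring

theorem Good.cauchy (hp : Good E p) {i : I} (hi : i ∈ E) {ε : ℝ} (hε : 0 < ε) :
    ∃ (W : Finset I) (n₀ : ℕ), (W : Set I) ⊆ E ∧ ∀ F F' : Finset I, W ⊆ F → (F : Set I) ⊆ E →
      W ⊆ F' → (F' : Set I) ⊆ E → ∀ n n', n₀ ≤ n → n₀ ≤ n' →
        ∫ z, |appr p F n i z - appr p F' n' i z| ∂Gam I ≤ ε := by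
  have h1 : Tendsto (fun T => tl T / (1 - Real.exp (-1 / 4)) * c0) atTop (𝓝 0) := by
    simpa using (tendsto_tl.div_const (1 - Real.exp (-1 / 4))).mul_const c0
  obtain ⟨T, hT⟩ := (h1.eventually (ge_mem_nhds (show (0 : ℝ) < ε / 6 by positivity))).exists
  obtain ⟨W, m₀, a, hiW, hWE, ha, hW⟩ := hp.space_cauchy hi T (show (0 : ℝ) < ε / 6 by positivity)
  obtain ⟨n₁, hn₁⟩ := eventually_atTop.mp (tendsto_one_div_add_atTop_nhds_zero_nat.eventually
    (ge_mem_nhds (show (0 : ℝ) < ε / 6 by positivity)))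
  have key : ∀ F : Finset I, W ⊆ F → (F : Set I) ⊆ E → ∀ n, max T (max m₀ n₁) ≤ n →
      ∫ z, |appr p F n i z - a z| ∂Gam I ≤ ε / 2 := by
    intro F hWF hF n hn
    have h2 := time_tail (hp.prob hF) (hp.lip F hF) (hWF hiW) (T := T) (n := n) (by omega)
    have h3 := hW F hWF hF (Mn n) (le_trans (by omega) (le_Mn n))
    have h4 := hn₁ n (by omega)
    have hb : BM fun z => sig T (pos p F (Mn n) T z i) :=
      (bm_sig T i).comp (measurable_pos p F _ T)
    calc _ ≤ ∫ z, (|appr p F n i z - sig T (pos p F (Mn n) T z i)| +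
          |sig T (pos p F (Mn n) T z i) - a z|) ∂Gam I :=
          integral_mono (((bm_appr p F n i).sub ha).abs.integrable _)
            ((((bm_appr p F n i).sub hb).abs.add (hb.sub ha).abs).integrable _)
            fun z => abs_sub_le _ _ _
      _ = _ := integral_add (((bm_appr p F n i).sub hb).abs.integrable _)
            ((hb.sub ha).abs.integrable _)
      _ ≤ ε / 2 := by linarith
  refine ⟨W, max T (max m₀ n₁), hWE, fun F F' hWF hF hWF' hF' n n' hn hn' => ?_⟩
  have h2 := key F hWF hF n hn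
  have h3 := key F' hWF' hF' n' hn'
  calc _ ≤ ∫ z, (|appr p F n i z - a z| + |appr p F' n' i z - a z|) ∂Gam I :=
        integral_mono (((bm_appr p F n i).sub (bm_appr p F' n' i)).abs.integrable _)
          ((((bm_appr p F n i).sub ha).abs.add ((bm_appr p F' n' i).sub ha).abs).integrable _)
          fun z => by
            have := abs_sub_le (appr p F n i z) (a z) (appr p F' n' i z)
            rwa [abs_sub_comm (a z)] at this
    _ = _ := integral_add (((bm_appr p F n i).sub ha).abs.integrable _)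
          (((bm_appr p F' n' i).sub ha).abs.integrable _)
    _ ≤ ε := by linarith

lemma err_Mn_le (n : ℕ) : err (Mn n) n ≤ 1 / (n + 1) := by
  refine le_trans (le_mul_of_one_le_left (err_nonneg _ (Nat.cast_nonneg n)) ?_) (err_Mn n)
  linarith [(Nat.cast_nonneg n : (0 : ℝ) ≤ n)]

theorem Good.zero_one (hp : Good E p) {F : Finset I} (hF : (F : Set I) ⊆ E) {i : I} (hi : i ∈ F)
    (n : ℕ) : ∫ z, appr p F n i z * (1 - appr p F n i z) ∂Gam I ≤ tl n * c0 + 1 / (n + 1) := by
  have h1 := integral_psi_pos (hp.prob hF) (hp.lip F hF) hi (Mn n) (le_refl n)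
  have h2 : ∫ z, appr p F n i z * (1 - appr p F n i z) ∂Gam I ≤
      ∫ z, psi n (pos p F (Mn n) n z i) ∂Gam I :=
    integral_mono (((bm_appr p F n i).mul ((BM.const 1).sub (bm_appr p F n i))).integrable _)
      (((bm_psi n i).comp (measurable_pos p F _ n)).integrable _) fun z => sig_mul_le_psi _ _
  linarith [err_Mn_le n]

lemma abs_prod_sub_prod_le {ι : Type*} (s : Finset ι) {a b : ι → ℝ} (ha0 : ∀ j, 0 ≤ a j)
    (ha1 : ∀ j, a j ≤ 1) (hb0 : ∀ j, 0 ≤ b j) (hb1 : ∀ j, b j ≤ 1) :
    |∏ j ∈ s, a j - ∏ j ∈ s, b j| ≤ ∑ j ∈ s, |a j - b j| := by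
  classical
  induction s using Finset.induction_on with
  | empty => simp
  | insert x s hx ih =>
    rw [Finset.prod_insert hx, Finset.prod_insert hx, Finset.sum_insert hx]
    have h1 : a x * ∏ j ∈ s, a j - b x * ∏ j ∈ s, b j =
        (a x - b x) * ∏ j ∈ s, a j + b x * (∏ j ∈ s, a j - ∏ j ∈ s, b j) := by ring
    have h2 : 0 ≤ ∏ j ∈ s, a j := Finset.prod_nonneg fun j _ => ha0 j
    have h3 : ∏ j ∈ s, a j ≤ 1 := Finset.prod_le_one (fun j _ => ha0 j) fun j _ => ha1 j
    rw [h1]
    refine (abs_add_le _ _).trans (add_le_add ?_ ?_)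
    · rw [abs_mul, abs_of_nonneg h2]; exact mul_le_of_le_one_right (abs_nonneg _) h3
    · rw [abs_mul, abs_of_nonneg (hb0 x)]
      exact (mul_le_of_le_one_left (abs_nonneg _) (hb1 x)).trans ih

theorem Good.law (hp : Good E p) {F₀ F : Finset I} (hFF : F₀ ⊆ F) (hF : (F : Set I) ⊆ E) (n : ℕ) :
    |∫ z, ∏ j ∈ F₀, appr p F n j z ∂Gam I - p F₀ F₀| ≤
      F₀.card * (tl n * c0) + F₀.card * (1 / (n + 1)) := by
  have hq := hp.prob hF
  have hb : BM fun y : I → ℝ => ∏ j ∈ F₀, sig n (y j) := BM.prod fun j _ => bm_sig n j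
  have h1 := integral_pos hq (hp.lip F hF) hb (Nat.cast_nonneg F₀.card)
    (fun y y' r _ h => by
      refine (abs_prod_sub_prod_le F₀ (fun _ => sig_nonneg _ _) (fun _ => sig_le_one _ _)
        (fun _ => sig_nonneg _ _) (fun _ => sig_le_one _ _)).trans ?_
      calc _ ≤ ∑ _j ∈ F₀, r := Finset.sum_le_sum fun j hj => (sig_lip _ _ _).trans (h j (hFF hj))
        _ = _ := by simp) (Mn n) (le_refl n)
  have h2 : p F₀ F₀ = ∑ A ∈ F.powerset, p F A * ∏ j ∈ F₀, ind A j := by
    have := hp.cons F₀ F hFF hF fun A => if A = F₀ then 1 else 0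
    simp only [mul_ite, mul_one, mul_zero, Finset.sum_ite_eq', Finset.mem_powerset, subset_rfl,
      if_true] at this
    rw [← this]
    refine Finset.sum_congr rfl fun A _ => ?_
    simp only [ind, Finset.prod_boole, Finset.inter_eq_right, mul_ite, mul_one, mul_zero]
    rfl
  have h3 : |∫ y, ∏ j ∈ F₀, sig n (y j) ∂lawY (p F) F n - p F₀ F₀| ≤ F₀.card * (tl n * c0) := by
    rw [hq.integral_lawY _ hb, h2, ← Finset.sum_sub_distrib]
    refine (Finset.abs_sum_le_sum_abs _ _).trans ?_
    calc _ ≤ ∑ A ∈ F.powerset, p F A * (F₀.card * (tl n * c0)) := by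
          refine Finset.sum_le_sum fun A hA => ?_
          have hA0 := hq.nonneg A (Finset.mem_powerset.mp hA)
          rw [← mul_sub, abs_mul, abs_of_nonneg hA0]
          refine mul_le_mul_of_nonneg_left ?_ hA0
          have h4 : ∫ z, ∏ j ∈ F₀, sig n (shift n A z j) ∂Gam I - ∏ j ∈ F₀, ind A j =
              ∫ z, (∏ j ∈ F₀, sig n (shift n A z j) - ∏ j ∈ F₀, ind A j) ∂Gam I := by
            rw [integral_sub ((hb.comp (measurable_shift _ A)).integrable _) (integrable_const _)]
            simp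
          rw [h4]
          calc _ ≤ ∫ z, ∑ j ∈ F₀, tl n * Real.exp (|z j| / 2) ∂Gam I := by
                rw [← Real.norm_eq_abs]
                refine norm_integral_le_of_norm_le (integrable_finsetSum _ fun j _ =>
                  (integrable_expabs j).const_mul _) (ae_of_all _ fun z => ?_)
                refine (abs_prod_sub_prod_le F₀ (fun _ => sig_nonneg _ _)
                  (fun _ => sig_le_one _ _) (ind_nonneg A) (ind_le_one A)).trans ?_
                exact Finset.sum_le_sum fun j _ => sig_shift_le n A z j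
            _ = _ := by
                rw [integral_finsetSum _ fun j _ => (integrable_expabs j).const_mul _]
                simp [integral_const_mul, integral_expabs]
      _ = _ := by rw [← Finset.sum_mul, hq.sum_one, one_mul]
  have h4 := mul_le_mul_of_nonneg_left (err_Mn_le n) (Nat.cast_nonneg F₀.card)
  have h5 := abs_sub_le (∫ z, ∏ j ∈ F₀, appr p F n j z ∂Gam I)
    (∫ y, ∏ j ∈ F₀, sig n (y j) ∂lawY (p F) F n) (p F₀ F₀)
  simp only [appr] at h5 ⊢
  linarith

end

end Crest.Agent.R168
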