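import Mathlib
import Crest.Prelude.Def_Labels
import Crest.Prelude.Def_SpanningTrees
import Crest.Prelude.Def_GraphTables
import Crest.Prelude.Def_StronglyRayleigh

/-!
Definitions for result 168 (S0254, S0255): strongly Rayleigh laws and the free uniform spanning
forest as factors of i.i.d. labels.
-/

set_option autoImplicit false

namespace Crest.Agent.R168

open MeasureTheory Finset
open Crest.ProbabilityR.SpanningTrees

section General

variable {I : Type*} [DecidableEq I]

/-- Real indicator of membership in a finite set. -/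
def ind (A : Finset I) (j : I) : ℝ := if j ∈ A then 1 else 0

/-- Partition function of the weights `q` on subsets of `F` tilted by the field `l`. -/
noncomputable def Zf (q : Finset I → ℝ) (F : Finset I) (l : I → ℝ) : ℝ :=
  ∑ A ∈ F.powerset, q A * ∏ j ∈ A, l j

/-- Tilted probability that `i` is occupied. -/
noncomputable def mean (q : Finset I → ℝ) (F : Finset I) (l : I → ℝ) (i : I) : ℝ :=
  (∑ A ∈ F.powerset, q A * (∏ j ∈ A, l j) * ind A i) / Zf q F l

/-- The generating polynomial of the weights `q` on subsets of `F` is stable. -/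
def Stable (q : Finset I → ℝ) (F : Finset I) : Prop :=
  ∀ z : I → ℂ, (∀ j ∈ F, 0 < (z j).im) → ∑ A ∈ F.powerset, (q A : ℂ) * ∏ j ∈ A, z j ≠ 0

/-- Tilted occupation probabilities are `200`-Lipschitz in the field, for the sup norm. -/
def MeanLip (q : Finset I → ℝ) (F : Finset I) : Prop :=
  ∀ (θ θ' : I → ℝ) (r : ℝ), 0 ≤ r → (∀ j ∈ F, |θ j - θ' j| ≤ r) → ∀ i : I,
    |mean q F (fun j => Real.exp (θ j)) i - mean q F (fun j => Real.exp (θ' j)) i| ≤ 200 * r

/-- `p F A` is the probability that the configuration meets `F` exactly in `A`: a consistent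
family of finite-dimensional marginals (on finite subsets of `E`) with Lipschitz tilted means. -/
structure Good (E : Set I) (p : Finset I → Finset I → ℝ) : Prop where
  nonneg : ∀ F : Finset I, (F : Set I) ⊆ E → ∀ A ⊆ F, 0 ≤ p F A
  sum_one : ∀ F : Finset I, (F : Set I) ⊆ E → ∑ A ∈ F.powerset, p F A = 1
  cons : ∀ F F' : Finset I, F ⊆ F' → (F' : Set I) ⊆ E → ∀ g : Finset I → ℝ,
    ∑ B ∈ F'.powerset, p F' B * g (B ∩ F) = ∑ A ∈ F.powerset, p F A * g A
  lip : ∀ F : Finset I, (F : Set I) ⊆ E → MeanLip (p F) F

end General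

section Trees

open Classical in
/-- Indicator weight of the spanning trees of the piece of `G` on `S`. -/
noncomputable def treeW {V : Type*} (G : SimpleGraph V) (S : Finset V) (A : Finset (Sym2 V)) : ℝ :=
  if IsSpanningTreeOn G S A then 1 else 0

open Classical in
/-- Probability that the free uniform spanning forest of `G` contains `B`. -/
noncomputable def qG (G : SimpleGraph ℕ) (B : Finset (Sym2 ℕ)) : ℝ :=
  ⨅ S : Finset ℕ,
    if (G.induce (S : Set ℕ)).Connected ∧ B ⊆ edgesIn G S then ustContains G S B else 1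

/-- Probability that the free uniform spanning forest of `G` meets `F` exactly in `A`
(inclusion-exclusion). -/
noncomputable def pG (G : SimpleGraph ℕ) (F A : Finset (Sym2 ℕ)) : ℝ :=
  ∑ C ∈ (F \ A).powerset, (-1 : ℝ) ^ C.card * qG G (A ∪ C)

/-- Vertices within distance `n` of the pair `e`. -/
def ballV (G : SimpleGraph ℕ) (e : Sym2 ℕ) : ℕ → Set ℕ
  | 0 => {v | v ∈ e}
  | n + 1 => ballV G e n ∪ {w | ∃ v ∈ ballV G e n, G.Adj v w}

open Classical in
/-- A set as a `Finset` if it is finite, else the empty set. -/
noncomputable def toFin {α : Type*} (s : Set α) : Finset α :=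
  if h : s.Finite then h.toFinset else ∅

/-- Edges of `G` inside the ball of radius `n` around the pair `e`. -/
noncomputable def ballE (G : SimpleGraph ℕ) (e : Sym2 ℕ) (n : ℕ) : Finset (Sym2 ℕ) :=
  toFin {f | f ∈ G.edgeSet ∧ ∀ v ∈ f, v ∈ ballV G e n}

/-- Number of neighbours of `v` whose identifier is below that of `u`. -/
noncomputable def rank (G : SimpleGraph ℕ) (a : ℕ → ℝ) (v u : ℕ) : ℕ :=
  {w | G.Adj v w ∧ a w < a u}.ncard

/-- Noise on pairs read off from vertex labels: `ℓ` splits a label into a sequence of reals, the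
zeroth one is an identifier; the endpoint with the larger identifier owns the pair and uses the
coordinate given by the rank of the other endpoint among its neighbours. -/
noncomputable def edgeNoise (ℓ : unitInterval → ℕ → ℝ) (G : SimpleGraph ℕ)
    (x : ℕ → unitInterval) : Sym2 ℕ → ℝ :=
  Sym2.lift ⟨fun u v =>
      if ℓ (x u) 0 < ℓ (x v) 0 then ℓ (x v) (rank G (fun w => ℓ (x w) 0) v u + 1)
      else if ℓ (x v) 0 < ℓ (x u) 0 then ℓ (x u) (rank G (fun w => ℓ (x w) 0) u v + 1) else 0,
    by
      intro u v
      rcases lt_trichotomy (ℓ (x u) 0) (ℓ (x v) 0) with h | h | h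
      · simp [h, not_lt.mpr h.le]
      · simp [h]
      · simp [h, not_lt.mpr h.le]⟩

end Trees

end Crest.Agent.R168
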