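import Crest.Agent.R168.Defs

/-! I.i.d. noise on edges read equivariantly from vertex labels. -/

set_option autoImplicit false

namespace Crest.Agent.R168

open MeasureTheory Finset Filter Topology ProbabilityTheory
open Crest.ProbabilityR.SpanningTrees Crest.ProbabilityR.Labels Crest.ProbabilityR.GraphTables

namespace EdgeNoise

/-- The noise as a function of the identifiers `a` and of the remaining coordinates `b`. -/
noncomputable def noise (G : SimpleGraph ℕ) (a : ℕ → ℝ) (b : ℕ × ℕ → ℝ) : Sym2 ℕ → ℝ :=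
  Sym2.lift ⟨fun u v =>
      if a u < a v then b (v, rank G a v u) else if a v < a u then b (u, rank G a u v) else 0,
    by
      intro u v
      rcases lt_trichotomy (a u) (a v) with h | h | h
      · simp [h, not_lt.mpr h.le]
      · simp [h]
      · simp [h, not_lt.mpr h.le]⟩

/-- The coordinate used by a pair. -/
noncomputable def own (G : SimpleGraph ℕ) (a : ℕ → ℝ) : Sym2 ℕ → ℕ × ℕ :=
  Sym2.lift ⟨fun u v =>
      if a u < a v then (v, rank G a v u) else if a v < a u then (u, rank G a u v) else (0, 0),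
    by
      intro u v
      rcases lt_trichotomy (a u) (a v) with h | h | h
      · simp [h, not_lt.mpr h.le]
      · simp [h]
      · simp [h, not_lt.mpr h.le]⟩

theorem edgeNoise_eq (ℓ : unitInterval → ℕ → ℝ) (G : SimpleGraph ℕ) (x : ℕ → unitInterval) :
    edgeNoise ℓ G x = noise G (fun w => ℓ (x w) 0) (fun p => ℓ (x p.1) (p.2 + 1)) := rfl

theorem measurable_rank {Ω : Type*} [MeasurableSpace Ω] {G : Ω → SimpleGraph ℕ}
    {a : Ω → ℕ → ℝ} (hG : Measurable G) (ha : Measurable a) (v u : ℕ) :
    Measurable fun ω => rank (G ω) (a ω) v u := by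
  unfold rank
  refine measurable_ncard.comp (measurable_set_iff.2 fun w => ?_)
  have h1 : Measurable fun ω => (G ω).Adj v w := SimpleGraph.measurable_iff_adj.1 hG v w
  have h2 : Measurable fun ω => a ω w < a ω u :=
    measurableSet_setOfPred.1 (measurableSet_lt ((measurable_pi_apply w).comp ha)
      ((measurable_pi_apply u).comp ha))
  exact h1.and h2

theorem measurable_apply_rank {Ω : Type*} [MeasurableSpace Ω] {b : Ω → ℕ × ℕ → ℝ}
    {r : Ω → ℕ} (hb : Measurable b) (hr : Measurable r) (v : ℕ) :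
    Measurable fun ω => b ω (v, r ω) := by
  have : Measurable fun p : Ω × ℕ => b p.1 (v, p.2) :=
    measurable_from_prod_countable_left fun n => (measurable_pi_apply (v, n)).comp hb
  exact this.comp (measurable_id.prodMk hr)

theorem measurable_noise {Ω : Type*} [MeasurableSpace Ω] {G : Ω → SimpleGraph ℕ}
    {a : Ω → ℕ → ℝ} {b : Ω → ℕ × ℕ → ℝ} (hG : Measurable G) (ha : Measurable a)
    (hb : Measurable b) : Measurable fun ω => noise (G ω) (a ω) (b ω) := by
  refine measurable_pi_lambda _ fun e => ?_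
  induction e using Sym2.ind with
  | h u v =>
    simp only [noise, Sym2.lift_mk]
    refine Measurable.ite (measurableSet_lt ((measurable_pi_apply u).comp ha)
      ((measurable_pi_apply v).comp ha)) (measurable_apply_rank hb (measurable_rank hG ha v u) v) ?_
    exact Measurable.ite (measurableSet_lt ((measurable_pi_apply v).comp ha)
      ((measurable_pi_apply u).comp ha)) (measurable_apply_rank hb (measurable_rank hG ha u v) u)
      measurable_const

theorem rank_comap (σ : Equiv.Perm ℕ) (G : SimpleGraph ℕ) (a : ℕ → ℝ) (v u : ℕ) :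
    rank (G.comap σ) (fun w => a (σ w)) v u = rank G a (σ v) (σ u) := by
  unfold rank
  rw [← Set.ncard_image_of_injective _ σ.injective]
  congr 1
  ext w
  constructor
  · rintro ⟨w', ⟨h1, h2⟩, rfl⟩
    exact ⟨h1, h2⟩
  · rintro ⟨h1, h2⟩
    exact ⟨σ.symm w, ⟨by simpa using h1, by simpa using h2⟩, by simp⟩

theorem exists_rep {G : SimpleGraph ℕ} {a : ℕ → ℝ} (ha : Function.Injective a) {e : Sym2 ℕ}
    (he : e ∈ G.edgeSet) : ∃ u v, e = s(u, v) ∧ G.Adj v u ∧ a u < a v := by
  induction e using Sym2.ind with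
  | h u v =>
    have huv : G.Adj u v := he
    rcases lt_or_gt_of_ne (fun h => huv.ne (ha h)) with h | h
    · exact ⟨u, v, rfl, huv.symm, h⟩
    · exact ⟨v, u, Sym2.eq_swap, huv, h⟩

theorem rank_lt {G : SimpleGraph ℕ} (hl : ∀ v : ℕ, (G.neighborSet v).Finite) {a : ℕ → ℝ}
    {v u u' : ℕ} (hu : G.Adj v u) (h : a u < a u') : rank G a v u < rank G a v u' := by
  unfold rank
  refine Set.ncard_lt_ncard ?_ ((hl v).subset fun w hw => hw.1)
  refine ⟨fun w hw => ⟨hw.1, hw.2.trans h⟩, fun hsub => ?_⟩
  exact lt_irrefl _ (hsub (show u ∈ {w | G.Adj v w ∧ a w < a u'} from ⟨hu, h⟩)).2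

theorem own_injOn {G : SimpleGraph ℕ} (hl : ∀ v : ℕ, (G.neighborSet v).Finite) {a : ℕ → ℝ}
    (ha : Function.Injective a) : Set.InjOn (own G a) G.edgeSet := by
  intro e he e' he' h
  obtain ⟨u, v, rfl, huv, hlt⟩ := exists_rep ha he
  obtain ⟨u', v', rfl, huv', hlt'⟩ := exists_rep ha he'
  simp only [own, Sym2.lift_mk, hlt, hlt', if_true, Prod.mk.injEq] at h
  obtain ⟨rfl, h⟩ := h
  rcases lt_trichotomy (a u) (a u') with h1 | h1 | h1
  · exact absurd h (rank_lt hl huv h1).ne
  · rw [ha h1]
  · exact absurd h (rank_lt hl huv' h1).ne'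

theorem noise_eq_own {G : SimpleGraph ℕ} {a : ℕ → ℝ} (ha : Function.Injective a)
    (b : ℕ × ℕ → ℝ) {e : Sym2 ℕ} (he : e ∈ G.edgeSet) : noise G a b e = b (own G a e) := by
  obtain ⟨u, v, rfl, -, hlt⟩ := exists_rep ha he
  simp [noise, own, hlt]

/-- Two disjoint groups of coordinates of a product measure are independent. -/
theorem map_split {ι α β : Type*} (γ : Measure ℝ) [IsProbabilityMeasure γ] {f : α → ι}
    {g : β → ι} (hf : Function.Injective f) (hg : Function.Injective g)
    (hfg : Disjoint (Set.range f) (Set.range g)) :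
    (Measure.infinitePi (fun _ : ι => γ)).map
        (fun ω => ((fun i => ω (f i) : α → ℝ), (fun j => ω (g j) : β → ℝ))) =
      (Measure.infinitePi (fun _ : α => γ)).prod (Measure.infinitePi (fun _ : β => γ)) := by
  have hind : iIndepFun (fun (i : ι) (ω : ι → ℝ) => ω i) (Measure.infinitePi (fun _ : ι => γ)) :=
    iIndepFun_infinitePi (X := fun _ (t : ℝ) => t) fun _ => measurable_id
  have h1 := indep_iSup_of_disjoint (fun i => (measurable_pi_apply i).comap_le)
    ((iIndepFun_iff_iIndep _ _ _).1 hind) hfg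
  have h2 : IndepFun (fun (ω : ι → ℝ) i => ω (f i)) (fun (ω : ι → ℝ) j => ω (g j))
      (Measure.infinitePi (fun _ : ι => γ)) := by
    rw [IndepFun_iff_Indep]
    refine indep_of_indep_of_le h1 ?_ ?_
    · refine Measurable.comap_le (@measurable_pi_lambda _ _ _ (_) _ _ fun i => ?_)
      refine Measurable.of_comap_le ?_
      exact le_iSup₂_of_le (f := fun (k : ι) (_ : k ∈ Set.range f) =>
        MeasurableSpace.comap (fun ω : ι → ℝ => ω k) inferInstance) (f i) ⟨i, rfl⟩ le_rfl
    · refine Measurable.comap_le (@measurable_pi_lambda _ _ _ (_) _ _ fun i => ?_)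
      refine Measurable.of_comap_le ?_
      exact le_iSup₂_of_le (f := fun (k : ι) (_ : k ∈ Set.range g) =>
        MeasurableSpace.comap (fun ω : ι → ℝ => ω k) inferInstance) (g i) ⟨i, rfl⟩ le_rfl
  rw [h2.map_prod_eq_prod_map_map
      (measurable_pi_lambda _ fun i => measurable_pi_apply (f i)).aemeasurable
      (measurable_pi_lambda _ fun i => measurable_pi_apply (g i)).aemeasurable,
    Measure.map_infinitePi_infinitePi_of_inj (P := fun _ : ι => γ) hf,
    Measure.map_infinitePi_infinitePi_of_inj (P := fun _ : ι => γ) hg]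

theorem ae_injective (γ : Measure ℝ) [IsProbabilityMeasure γ] [NullSingletonClass γ] :
    ∀ᵐ a ∂(Measure.infinitePi (fun _ : ℕ => γ)), Function.Injective a := by
  have h : ∀ i j : ℕ, ∀ᵐ a ∂(Measure.infinitePi (fun _ : ℕ => γ)), a i = a j → i = j := by
    intro i j
    by_cases hij : i = j
    · exact Eventually.of_forall fun _ _ => hij
    have hm : MeasurableSet {p : ℝ × ℝ | p.1 = p.2} := measurableSet_eq_fun measurable_fst
      measurable_snd
    have h0 : (γ.prod γ) {p : ℝ × ℝ | p.1 = p.2} = 0 := by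
      rw [Measure.prod_apply hm]
      refine (lintegral_congr fun x => ?_).trans lintegral_zero
      have : Prod.mk x ⁻¹' {p : ℝ × ℝ | p.1 = p.2} = {x} := by
        ext y
        simp [eq_comm]
      rw [this]
      exact measure_singleton x
    rw [← Measure.infinitePi_map_eval_prod (P := fun _ : ℕ => γ) hij,
      Measure.map_apply (by fun_prop) hm] at h0
    rw [ae_iff]
    refine measure_mono_null (fun a ha => ?_) h0
    simp only [Set.mem_ofPred_eq, Classical.not_imp] at ha
    exact ha.1
  filter_upwards [ae_all_iff.2 fun i => ae_all_iff.2 fun j => h i j] with a ha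
  exact fun i j hij => ha i j hij

theorem map_labels (γ : Measure ℝ) [IsProbabilityMeasure γ]
    (ℓ : unitInterval → ℕ → ℝ) (hℓ : Measurable ℓ)
    (hlaw : (volume : Measure unitInterval).map ℓ = Measure.infinitePi (fun _ : ℕ => γ)) :
    (labelMeasure ℕ).map (fun x => ((fun w => ℓ (x w) 0 : ℕ → ℝ),
        (fun p => ℓ (x p.1) (p.2 + 1) : ℕ × ℕ → ℝ))) =
      (Measure.infinitePi (fun _ : ℕ => γ)).prod (Measure.infinitePi (fun _ : ℕ × ℕ => γ)) := by
  have h1 : (labelMeasure ℕ).map (fun x i => ℓ (x i)) =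
      Measure.infinitePi (fun _ : ℕ => Measure.infinitePi (fun _ : ℕ => γ)) := by
    unfold labelMeasure
    rw [Measure.infinitePi_map_pi (μ := fun _ : ℕ => (volume : Measure unitInterval))
      (f := fun _ => ℓ) fun _ => hℓ, hlaw]
  have h2 := Measure.infinitePi_map_curry_symm (fun (_ : ℕ) (_ : ℕ) => γ)
  have h3 := map_split (ι := ℕ × ℕ) γ (f := fun w : ℕ => (w, 0))
    (g := fun p : ℕ × ℕ => (p.1, p.2 + 1)) (fun _ _ h => (Prod.ext_iff.1 h).1)
    (fun p q h => by
      obtain ⟨h1, h2⟩ := Prod.ext_iff.1 h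
      exact Prod.ext h1 (by simpa using h2))
    (by
      rw [Set.disjoint_left]
      rintro _ ⟨w, rfl⟩ ⟨p, hp⟩
      simpa using (Prod.ext_iff.1 hp).2)
  have hm : Measurable (fun (x : ℕ → unitInterval) i => ℓ (x i)) :=
    measurable_pi_lambda _ fun i => hℓ.comp (measurable_pi_apply i)
  rw [← h3, ← h2, ← h1, Measure.map_map (MeasurableEquiv.measurable _) hm, Measure.map_map
    (by fun_prop) ((MeasurableEquiv.measurable _).comp hm)]
  rfl

theorem map_restrict_noise (γ : Measure ℝ) [IsProbabilityMeasure γ] [NullSingletonClass γ]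
    (G : SimpleGraph ℕ) (hl : ∀ v : ℕ, (G.neighborSet v).Finite)
    (F : Finset (Sym2 ℕ)) (hF : (F : Set (Sym2 ℕ)) ⊆ G.edgeSet) :
    ((Measure.infinitePi (fun _ : ℕ => γ)).prod (Measure.infinitePi (fun _ : ℕ × ℕ => γ))).map
        (fun p => F.restrict (noise G p.1 p.2)) = Measure.pi (fun _ : F => γ) := by
  have hm : Measurable fun p : (ℕ → ℝ) × (ℕ × ℕ → ℝ) => F.restrict (noise G p.1 p.2) :=
    (Finset.measurable_restrict F).comp
      (measurable_noise measurable_const measurable_fst measurable_snd)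
  ext s hs
  rw [Measure.map_apply hm hs, Measure.prod_apply (hm hs)]
  have key : ∀ᵐ a ∂(Measure.infinitePi (fun _ : ℕ => γ)),
      (Measure.infinitePi (fun _ : ℕ × ℕ => γ))
        (Prod.mk a ⁻¹' ((fun p : (ℕ → ℝ) × (ℕ × ℕ → ℝ) => F.restrict (noise G p.1 p.2)) ⁻¹' s)) =
      Measure.pi (fun _ : F => γ) s := by
    filter_upwards [ae_injective γ] with a ha
    have hinj : Function.Injective fun e : F => own G a e := fun e e' h =>
      Subtype.ext (own_injOn hl ha (hF e.2) (hF e'.2) h)
    have h1 := Measure.map_infinitePi_infinitePi_of_inj (P := fun _ : ℕ × ℕ => γ) hinj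
    rw [← Measure.infinitePi_eq_pi, ← h1, Measure.map_apply (by fun_prop) hs]
    congr 1
    ext b
    have : F.restrict (noise G a b) = fun e : F => b (own G a e) :=
      funext fun e => noise_eq_own ha b (hF e.2)
    simp only [Set.mem_preimage, this]
  rw [lintegral_congr_ae key]
  simp

end EdgeNoise

open EdgeNoise

theorem measurable_edgeNoise (ℓ : unitInterval → ℕ → ℝ) (hℓ : Measurable ℓ) :
    Measurable fun p : SimpleGraph ℕ × (ℕ → unitInterval) => edgeNoise ℓ p.1 p.2 := by
  simp only [edgeNoise_eq]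
  refine measurable_noise measurable_fst (measurable_pi_lambda _ fun w => ?_)
    (measurable_pi_lambda _ fun q => ?_)
  · exact (measurable_pi_apply 0).comp (hℓ.comp ((measurable_pi_apply w).comp measurable_snd))
  · exact (measurable_pi_apply (q.2 + 1)).comp
      (hℓ.comp ((measurable_pi_apply q.1).comp measurable_snd))

theorem edgeNoise_comap (ℓ : unitInterval → ℕ → ℝ) (σ : Equiv.Perm ℕ) (G : SimpleGraph ℕ)
    (x : ℕ → unitInterval) :
    edgeNoise ℓ (G.comap σ) (x ∘ σ) = edgeNoise ℓ G x ∘ Sym2.map σ := by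
  funext e
  induction e using Sym2.ind with
  | h u v =>
    simp only [edgeNoise, Sym2.lift_mk, Function.comp_apply, Sym2.map_mk]
    rw [rank_comap σ G (fun w => ℓ (x w) 0) v u, rank_comap σ G (fun w => ℓ (x w) 0) u v]

theorem integral_edgeNoise (γ : Measure ℝ) [IsProbabilityMeasure γ] [NullSingletonClass γ]
    (ℓ : unitInterval → ℕ → ℝ) (hℓ : Measurable ℓ)
    (hlaw : (volume : Measure unitInterval).map ℓ = Measure.infinitePi (fun _ : ℕ => γ))
    (G : SimpleGraph ℕ) (hl : ∀ v : ℕ, (G.neighborSet v).Finite)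
    (F : Finset (Sym2 ℕ)) (hF : (F : Set (Sym2 ℕ)) ⊆ G.edgeSet)
    (h : (Sym2 ℕ → ℝ) → ℝ) (hm : Measurable h) (hd : DependsOn h (F : Set (Sym2 ℕ))) :
    ∫ x, h (edgeNoise ℓ G x) ∂(labelMeasure ℕ) =
      ∫ z, h z ∂(Measure.infinitePi (fun _ : Sym2 ℕ => γ)) := by
  classical
  let h' : (F → ℝ) → ℝ := fun y => h (Function.updateFinset (fun _ => 0) F y)
  have hm' : Measurable h' := hm.comp measurable_updateFinset
  have hh : ∀ z, h z = h' (F.restrict z) := fun z =>
    hd fun i hi => by simp_all [Function.updateFinset]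
  have hΦ : Measurable (fun x : ℕ → unitInterval => ((fun w => ℓ (x w) 0 : ℕ → ℝ),
      (fun p => ℓ (x p.1) (p.2 + 1) : ℕ × ℕ → ℝ))) := by
    refine Measurable.prodMk (measurable_pi_lambda _ fun w => ?_)
      (measurable_pi_lambda _ fun q => ?_)
    · exact (measurable_pi_apply 0).comp (hℓ.comp (measurable_pi_apply w))
    · exact (measurable_pi_apply (q.2 + 1)).comp (hℓ.comp (measurable_pi_apply q.1))
  have hΨ : Measurable fun p : (ℕ → ℝ) × (ℕ × ℕ → ℝ) => F.restrict (noise G p.1 p.2) :=
    (Finset.measurable_restrict F).comp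
      (measurable_noise measurable_const measurable_fst measurable_snd)
  simp only [hh]
  rw [integral_restrict_infinitePi (μ := fun _ : Sym2 ℕ => γ) hm'.aestronglyMeasurable,
    ← map_restrict_noise γ G hl F hF, ← map_labels γ ℓ hℓ hlaw, Measure.map_map hΨ hΦ,
    integral_map (hΨ.comp hΦ).aemeasurable hm'.aestronglyMeasurable]
  rfl

end Crest.Agent.R168
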