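import Crest.Agent.R168.Bayes

/-!
Euler schemes for the probability-flow equation `y' = E[X | tX + Z = y]` and their comparison with
the law of `tX + Z`.
-/

set_option autoImplicit false

namespace Crest.Agent.R168

open MeasureTheory Finset Filter Topology ProbabilityTheory

variable {I : Type*} [DecidableEq I]

/-- Euler scheme with mesh `h`, using the volume `W k` at step `k`. -/
noncomputable def sch (p : Finset I → Finset I → ℝ) (h : ℝ) (W : ℕ → Finset I) (z : I → ℝ) :
    ℕ → I → ℝ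
  | 0 => z
  | k + 1 => fun j => sch p h W z k j + h * vel (p (W k)) (W k) (k * h) (sch p h W z k) j

/-- Euler scheme in the fixed volume `F`. -/
noncomputable def eul (p : Finset I → Finset I → ℝ) (h : ℝ) (F : Finset I) (z : I → ℝ) (k : ℕ) :
    I → ℝ := sch p h (fun _ => F) z k

/-- Lipschitz for the sup norm over the coordinates in `F`. -/
def LipOn (F : Finset I) (K : ℝ) (f : (I → ℝ) → ℝ) : Prop :=
  ∀ (y y' : I → ℝ) (r : ℝ), 0 ≤ r → (∀ j ∈ F, |y j - y' j| ≤ r) → |f y - f y'| ≤ K * r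

lemma measurable_sch_param {Ω : Type*} [MeasurableSpace Ω] {p : Ω → Finset I → Finset I → ℝ}
    (hp : ∀ F A, Measurable fun ω => p ω F A) (h : ℝ) (W : ℕ → Finset I) {z : Ω → I → ℝ}
    (hz : Measurable z) (k : ℕ) : Measurable fun ω => sch (p ω) h W (z ω) k := by
  induction k with
  | zero => exact hz
  | succ k ih =>
    refine measurable_pi_lambda _ fun j => ?_
    exact ((measurable_pi_apply j).comp ih).add
      ((measurable_vel_param (hp (W k)) (W k) _ ih j).const_mul _)

lemma measurable_sch (p : Finset I → Finset I → ℝ) (h : ℝ) (W : ℕ → Finset I) (k : ℕ) :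
    Measurable fun z => sch p h W z k :=
  measurable_sch_param (p := fun _ => p) (fun _ _ => measurable_const) h W measurable_id k

lemma measurable_eul (p : Finset I → Finset I → ℝ) (h : ℝ) (F : Finset I) (k : ℕ) :
    Measurable fun z => eul p h F z k := measurable_sch p h _ k

lemma eul_zero (p : Finset I → Finset I → ℝ) (h : ℝ) (F : Finset I) (z : I → ℝ) :
    eul p h F z 0 = z := rfl

lemma eul_succ (p : Finset I → Finset I → ℝ) (h : ℝ) (F : Finset I) (z : I → ℝ) (k : ℕ) (j : I) :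
    eul p h F z (k + 1) j = eul p h F z k j + h * vel (p F) F (k * h) (eul p h F z k) j := rfl

section
variable {p : Finset I → Finset I → ℝ} {F : Finset I}

lemma eul_incr (hq : Prob (p F) F) {h : ℝ} (hh : 0 ≤ h) (z : I → ℝ) (n a : ℕ) (j : I) :
    0 ≤ eul p h F z (n + a) j - eul p h F z n j ∧
      eul p h F z (n + a) j - eul p h F z n j ≤ a * h := by
  induction a with
  | zero => simp
  | succ a ih =>
    rw [← add_assoc, eul_succ]
    have h0 := mul_nonneg hh (hq.vel_nonneg (((n + a : ℕ) : ℝ) * h) (eul p h F z (n + a)) j)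
    have h1 := mul_le_of_le_one_right hh
      (hq.vel_le_one (((n + a : ℕ) : ℝ) * h) (eul p h F z (n + a)) j)
    push_cast at *
    constructor <;> linarith [ih.1, ih.2]

lemma eul_coarse (hq : Prob (p F) F) (hl : MeanLip (p F) F) {δ : ℝ} (hδ : 0 ≤ δ) (z : I → ℝ)
    (n M : ℕ) (j : I) : ∀ a ≤ M,
    |eul p δ F z (n + a) j - eul p δ F z n j - a * δ * vel (p F) F (n * δ) (eul p δ F z n) j| ≤
      a * δ * (600 * (M * δ)) := by
  intro a
  induction a with
  | zero => simp
  | succ a ih =>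
    intro ha
    have ih := ih (by omega)
    have haM : (a : ℝ) * δ ≤ M * δ :=
      mul_le_mul_of_nonneg_right (by exact_mod_cast (by omega : a ≤ M)) hδ
    have hv := hl.vel_lip (t := ((n + a : ℕ) : ℝ) * δ) (t' := n * δ) (r := M * δ) (s := M * δ)
      (y := eul p δ F z (n + a)) (y' := eul p δ F z n) (by positivity)
      (fun i _ => by
        have := eul_incr hq hδ z n a i
        rw [abs_of_nonneg this.1]; linarith [this.2])
      (by
        have : ((n + a : ℕ) : ℝ) * δ - n * δ = a * δ := by push_cast; ring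
        rw [this, abs_of_nonneg (by positivity)]; exact haM) j
    rw [← add_assoc, eul_succ]
    have h2 := abs_le.mp hv
    have h3 := abs_le.mp ih
    have h4 := mul_le_mul_of_nonneg_left h2.1 hδ
    have h5 := mul_le_mul_of_nonneg_left h2.2 hδ
    push_cast at *
    rw [abs_le]; constructor <;> nlinarith

end

/-- Discrete Gronwall comparison with a scheme in decreasing volumes. -/
lemma sch_compare {p : Finset I → Finset I → ℝ} {h : ℝ} (hh : 0 ≤ h) {W : ℕ → Finset I}
    {z : I → ℝ} {y : ℕ → I → ℝ} (hy : y 0 = z) {c : ℕ → ℝ} (hc : ∀ k, 0 ≤ c k) (N : ℕ)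
    (hW : ∀ k < N, W (k + 1) ⊆ W k) (hl : ∀ k < N, MeanLip (p (W k)) (W k))
    (hstep : ∀ k < N, ∀ j ∈ W (k + 1),
      |y (k + 1) j - y k j - h * vel (p (W k)) (W k) (k * h) (y k) j| ≤ c k) :
    ∀ j ∈ W N, |y N j - sch p h W z N j| ≤ (1 + 400 * h) ^ N * ∑ k ∈ range N, c k := by
  induction N with
  | zero => intro j _; simp [sch, hy]
  | succ N ih =>
    intro j hj
    have ih := ih (fun k hk => hW k (by omega)) (fun k hk => hl k (by omega))
      (fun k hk => hstep k (by omega))
    set r := (1 + 400 * h) ^ N * ∑ k ∈ range N, c k with hr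
    have hS : 0 ≤ ∑ k ∈ range N, c k := Finset.sum_nonneg fun k _ => hc k
    have hr0 : 0 ≤ r := by positivity
    have hv := (hl N (by omega)).vel_lip (t := N * h) (t' := N * h) (s := 0) hr0 ih (by simp) j
    have h1 := abs_le.mp (hstep N (by omega) j hj)
    have h2 := abs_le.mp (ih j (hW N (by omega) hj))
    have h3 := abs_le.mp hv
    have h4 := mul_le_mul_of_nonneg_left h3.1 hh
    have h5 := mul_le_mul_of_nonneg_left h3.2 hh
    have h6 : 1 ≤ (1 + 400 * h) ^ (N + 1) := one_le_pow₀ (by linarith)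
    have h7 : c N ≤ (1 + 400 * h) ^ (N + 1) * c N := le_mul_of_one_le_left (hc N) h6
    have h8 : (1 + 400 * h) ^ (N + 1) * ∑ k ∈ range (N + 1), c k =
        (1 + 400 * h) * r + (1 + 400 * h) ^ (N + 1) * c N := by
      rw [Finset.sum_range_succ, hr]; ring
    rw [h8]
    simp only [sch]
    rw [abs_le]; constructor <;> nlinarith

section Chain

/-- Euler scheme started at step `k` from `e`, run for `n` steps. -/
noncomputable def eulFrom (q : Finset I → ℝ) (F : Finset I) (δ : ℝ) :
    ℕ → ℕ → (I → ℝ) → (I → ℝ)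
  | 0, _, e => e
  | n + 1, k, e => eulFrom q F δ n (k + 1) (fun j => e j + δ * vel q F (k * δ) e j)

lemma eulFrom_eul (p : Finset I → Finset I → ℝ) (δ : ℝ) (F : Finset I) (z : I → ℝ) (n k : ℕ) :
    eulFrom (p F) F δ n k (eul p δ F z k) = eul p δ F z (k + n) := by
  induction n generalizing k with
  | zero => rfl
  | succ n ih =>
    have := ih (k + 1)
    rw [show k + (n + 1) = k + 1 + n by ring, ← this]
    rfl

/-- Expectation of `f` after `n` steps of the resampling chain started at step `k`. -/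
noncomputable def chain (q : Finset I → ℝ) (F : Finset I) (δ : ℝ) (f : (I → ℝ) → ℝ) :
    ℕ → ℕ → (I → ℝ) → ℝ
  | 0, _, y => f y
  | n + 1, k, y => ∑ A ∈ F.powerset, post q F (k * δ) y A * chain q F δ f n (k + 1) (shift δ A y)

variable {q : Finset I → ℝ} {F : Finset I}

lemma bm_chain (hq : Prob q F) (δ : ℝ) {f : (I → ℝ) → ℝ} (hf : BM f) (n k : ℕ) :
    BM (chain q F δ f n k) := by
  induction n generalizing k with
  | zero => exact hf
  | succ n ih =>
    exact BM.sum fun A hA => (hq.bm_post _ hA).mul ((ih (k + 1)).comp (measurable_shift δ A))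

lemma integral_chain (hq : Prob q F) (δ : ℝ) {f : (I → ℝ) → ℝ} (hf : BM f) (n k : ℕ) :
    ∫ y, chain q F δ f n k y ∂lawY q F (k * δ) = ∫ y, f y ∂lawY q F ((k + n : ℕ) * δ) := by
  induction n generalizing k with
  | zero => rfl
  | succ n ih =>
    have h1 := hq.step (k * δ) δ (bm_chain hq δ hf n (k + 1))
    have h2 := ih (k + 1)
    rw [show k + (n + 1) = k + 1 + n by ring, ← h2,
      show ((k + 1 : ℕ) : ℝ) * δ = k * δ + δ by push_cast; ring, ← h1]
    rfl

/-- Squared Euclidean distance over the coordinates in `F`. -/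
def dsq (F : Finset I) (y e : I → ℝ) : ℝ := ∑ j ∈ F, (y j - e j) ^ 2

omit [DecidableEq I] in
lemma dsq_nonneg (F : Finset I) (y e : I → ℝ) : 0 ≤ dsq F y e :=
  Finset.sum_nonneg fun _ _ => sq_nonneg _

omit [DecidableEq I] in
lemma abs_le_sqrt_dsq (F : Finset I) (y e : I → ℝ) :
    ∀ j ∈ F, |y j - e j| ≤ Real.sqrt (dsq F y e) := fun _ hj =>
  Real.abs_le_sqrt (Finset.single_le_sum (f := fun j => (y j - e j) ^ 2)
    (fun _ _ => sq_nonneg _) hj)

lemma dsq_step (hq : Prob q F) (hl : MeanLip q F) {δ : ℝ} (hδ : 0 ≤ δ) (hδ1 : δ ≤ 1) (t : ℝ)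
    (y e : I → ℝ) :
    ∑ A ∈ F.powerset, post q F t y A * dsq F (shift δ A y) (fun j => e j + δ * vel q F t e j) ≤
      (1 + δ * (1 + 320000 * F.card)) * dsq F y e + δ ^ 2 * F.card := by
  simp only [dsq, Finset.mul_sum]
  rw [Finset.sum_comm]
  have key : ∀ j ∈ F, ∑ A ∈ F.powerset, post q F t y A *
      (shift δ A y j - (e j + δ * vel q F t e j)) ^ 2 ≤
        (1 + δ) * (y j - e j) ^ 2 + δ * 320000 * dsq F y e + δ ^ 2 := by
    intro j _
    set b := y j - e j - δ * vel q F t e j with hb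
    have h1 : ∀ A : Finset I, post q F t y A * (shift δ A y j - (e j + δ * vel q F t e j)) ^ 2 =
        b ^ 2 * post q F t y A + (2 * b * δ + δ ^ 2) * (post q F t y A * ind A j) := by
      intro A
      have : shift δ A y j - (e j + δ * vel q F t e j) = b + δ * ind A j := by
        simp only [shift, hb]; ring
      rw [this, add_sq, mul_pow, ind_sq]; ring
    simp only [h1, Finset.sum_add_distrib, ← Finset.mul_sum, hq.sum_post, ← vel_eq]
    have hv := hl.vel_lip (t := t) (t' := t) (s := 0) (Real.sqrt_nonneg _)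
      (abs_le_sqrt_dsq F y e) (by simp) j
    set v := vel q F t y j
    set w := vel q F t e j
    have hv0 : 0 ≤ v := hq.vel_nonneg t y j
    have hv1 : v ≤ 1 := hq.vel_le_one t y j
    have hu : (v - w) ^ 2 ≤ 160000 * dsq F y e := by
      have h2 : |v - w| ≤ 400 * Real.sqrt (dsq F y e) := by linarith
      have h3 := pow_le_pow_left₀ (abs_nonneg _) h2 2
      rw [sq_abs, mul_pow, Real.sq_sqrt (dsq_nonneg F y e)] at h3
      linarith
    have e1 : b ^ 2 * 1 + (2 * b * δ + δ ^ 2) * v =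
        (y j - e j + δ * (v - w)) ^ 2 + δ ^ 2 * (v - v ^ 2) := by rw [hb]; ring
    have e2 : δ ^ 2 * (v - v ^ 2) ≤ δ ^ 2 := mul_le_of_le_one_right (sq_nonneg _) (by nlinarith)
    have e3 : (y j - e j + δ * (v - w)) ^ 2 ≤ (1 + δ) * (y j - e j) ^ 2 + 2 * δ * (v - w) ^ 2 := by
      have := mul_nonneg hδ (sq_nonneg (y j - e j - (v - w)))
      have := mul_nonneg (mul_nonneg hδ (sub_nonneg.mpr hδ1)) (sq_nonneg (v - w))
      nlinarith
    have e4 := mul_le_mul_of_nonneg_left hu hδ
    rw [e1]; nlinarith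
  refine (Finset.sum_le_sum key).trans (le_of_eq ?_)
  simp only [Finset.sum_add_distrib, Finset.sum_const, nsmul_eq_mul, ← Finset.mul_sum, dsq]
  ring

lemma chain_bound (hq : Prob q F) (hl : MeanLip q F) {δ : ℝ} (hδ : 0 ≤ δ) (hδ1 : δ ≤ 1)
    {f : (I → ℝ) → ℝ} {K : ℝ} (hK : 0 ≤ K) (hf : LipOn F K f) {ε : ℝ} (hε : 0 < ε) (n k : ℕ)
    (y e : I → ℝ) :
    |chain q F δ f n k y - f (eulFrom q F δ n k e)| ≤
      K * (ε + ε⁻¹ * ((1 + δ * (1 + 320000 * F.card)) ^ n * (dsq F y e + n * δ ^ 2 * F.card))) := by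
  induction n generalizing k y e with
  | zero =>
    simp only [chain, eulFrom, pow_zero, Nat.cast_zero, zero_mul, add_zero, one_mul]
    refine (hf y e _ (Real.sqrt_nonneg _) (abs_le_sqrt_dsq F y e)).trans
      (mul_le_mul_of_nonneg_left ?_ hK)
    set a := Real.sqrt (dsq F y e) with ha
    have ha0 : 0 ≤ a := Real.sqrt_nonneg _
    rw [← Real.sq_sqrt (dsq_nonneg F y e), ← ha]
    by_cases h : a ≤ ε
    · have : 0 ≤ ε⁻¹ * a ^ 2 := by positivity
      linarith
    · have h1 : 1 ≤ ε⁻¹ * a := by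
        rw [inv_mul_eq_div, le_div_iff₀ hε]; linarith
      nlinarith
  | succ n ih =>
    set c := 1 + δ * (1 + 320000 * (F.card : ℝ)) with hc
    have hc1 : 1 ≤ c := by rw [hc]; have : 0 ≤ δ * (1 + 320000 * (F.card : ℝ)) := by positivity
                           linarith
    set e' : I → ℝ := fun j => e j + δ * vel q F (k * δ) e j with he'
    have h1 : chain q F δ f (n + 1) k y - f (eulFrom q F δ (n + 1) k e) =
        ∑ A ∈ F.powerset, post q F (k * δ) y A *
          (chain q F δ f n (k + 1) (shift δ A y) - f (eulFrom q F δ n (k + 1) e')) := by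
      simp only [mul_sub, Finset.sum_sub_distrib, ← Finset.sum_mul, hq.sum_post, one_mul]
      rfl
    rw [h1]
    refine (Finset.abs_sum_le_sum_abs _ _).trans ?_
    have h2 : ∀ A ∈ F.powerset, |post q F (k * δ) y A *
        (chain q F δ f n (k + 1) (shift δ A y) - f (eulFrom q F δ n (k + 1) e'))| ≤
        K * (ε + ε⁻¹ * (c ^ n * (n * δ ^ 2 * F.card))) * post q F (k * δ) y A +
          K * ε⁻¹ * c ^ n * (post q F (k * δ) y A * dsq F (shift δ A y) e') := by
      intro A hA
      rw [abs_mul, abs_of_nonneg (hq.post_nonneg _ _ hA)]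
      refine (mul_le_mul_of_nonneg_left (ih (k + 1) (shift δ A y) e')
        (hq.post_nonneg _ _ hA)).trans (le_of_eq ?_)
      ring
    refine (Finset.sum_le_sum h2).trans ?_
    rw [Finset.sum_add_distrib, ← Finset.mul_sum, ← Finset.mul_sum, hq.sum_post]
    have h3 := dsq_step hq hl hδ hδ1 (k * δ) y e
    rw [← hc, ← he'] at h3
    have h4 : 0 ≤ K * ε⁻¹ * c ^ n := by positivity
    have h5 := mul_le_mul_of_nonneg_left h3 h4
    have h6 : K * ε⁻¹ * c ^ n * ((n + 1) * δ ^ 2 * F.card) ≤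
        K * ε⁻¹ * c ^ n * (c * ((n + 1) * δ ^ 2 * F.card)) :=
      mul_le_mul_of_nonneg_left (le_mul_of_one_le_left (by positivity) hc1) h4
    push_cast
    rw [pow_succ c n]
    nlinarith

end Chain

lemma integral_eul_fine {p : Finset I → Finset I → ℝ} {F : Finset I} (hq : Prob (p F) F)
    (hl : MeanLip (p F) F) {δ : ℝ} (hδ : 0 ≤ δ) (hδ1 : δ ≤ 1)
    {f : (I → ℝ) → ℝ} (hb : BM f) {K : ℝ} (hK : 0 ≤ K) (hf : LipOn F K f) {ε : ℝ} (hε : 0 < ε)
    (n : ℕ) :
    |∫ z, f (eul p δ F z n) ∂Gam I - ∫ y, f y ∂lawY (p F) F (n * δ)| ≤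
      K * (ε + ε⁻¹ * (Real.exp (n * δ * (1 + 320000 * F.card)) * (n * δ * F.card) * δ)) := by
  have h1 := integral_chain hq δ hb n 0
  simp only [Nat.cast_zero, zero_mul, zero_add] at h1
  rw [← h1, hq.integral_lawY_zero (bm_chain hq δ hb n 0), ← integral_sub
    ((hb.comp (measurable_eul p δ F n)).integrable _) ((bm_chain hq δ hb n 0).integrable _)]
  have h2 : ∀ z, ‖f (eul p δ F z n) - chain (p F) F δ f n 0 z‖ ≤
      K * (ε + ε⁻¹ * (Real.exp (n * δ * (1 + 320000 * F.card)) * (n * δ * F.card) * δ)) := by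
    intro z
    have h3 := chain_bound hq hl hδ hδ1 hK hf hε n 0 z z
    have h4 := eulFrom_eul p δ F z n 0
    rw [eul_zero, zero_add] at h4
    rw [h4, abs_sub_comm] at h3
    refine h3.trans ?_
    have h5 : (1 + δ * (1 + 320000 * (F.card : ℝ))) ^ n ≤
        Real.exp (n * δ * (1 + 320000 * F.card)) := by
      rw [mul_assoc, Real.exp_nat_mul]
      exact pow_le_pow_left₀ (by positivity)
        (by linarith [Real.add_one_le_exp (δ * (1 + 320000 * (F.card : ℝ)))]) n
    have h6 : dsq F z z = 0 := by simp [dsq]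
    rw [h6, zero_add]
    refine mul_le_mul_of_nonneg_left (add_le_add le_rfl
      (mul_le_mul_of_nonneg_left ?_ (by positivity))) hK
    calc _ ≤ Real.exp (n * δ * (1 + 320000 * F.card)) * (n * δ ^ 2 * F.card) := by gcongr
      _ = _ := by ring
  simpa using norm_integral_le_of_norm_le_const (μ := Gam I) (ae_of_all _ h2)

/-- Dyadic mesh. -/
noncomputable def mesh (m : ℕ) : ℝ := 1 / 2 ^ m

lemma mesh_pos (m : ℕ) : 0 < mesh m := by unfold mesh; positivity

lemma mesh_le_one (m : ℕ) : mesh m ≤ 1 := by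
  unfold mesh
  exact div_le_one_of_le₀ (one_le_pow₀ (by norm_num)) (by positivity)

lemma mesh_add (m d : ℕ) : (2 : ℝ) ^ d * mesh (m + d) = mesh m := by
  unfold mesh; rw [pow_add]; field_simp

lemma tendsto_mesh : Tendsto mesh atTop (𝓝 0) := by
  have : mesh = fun m => (1 / 2 : ℝ) ^ m := by ext m; simp [mesh]
  rw [this]
  exact tendsto_pow_atTop_nhds_zero_of_lt_one (by norm_num) (by norm_num)

/-- Discretisation error of the dyadic Euler scheme up to time `T`. -/
noncomputable def err (m : ℕ) (T : ℝ) : ℝ := Real.exp (400 * T) * (600 * T * mesh m)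

lemma pow_le_exp_mul {h T : ℝ} (hh : 0 ≤ h) {k : ℕ} (hk : k * h ≤ T) :
    (1 + 400 * h) ^ k ≤ Real.exp (400 * T) := by
  calc (1 + 400 * h) ^ k ≤ Real.exp (400 * h) ^ k :=
        pow_le_pow_left₀ (by positivity) (by linarith [Real.add_one_le_exp (400 * h)]) k
    _ = Real.exp (k * (400 * h)) := (Real.exp_nat_mul _ _).symm
    _ ≤ _ := Real.exp_le_exp.mpr (by linarith)

/-- Coarse steps of the fine dyadic scheme. -/
lemma eul_dyadic_step {p : Finset I → Finset I → ℝ} {F : Finset I} (hq : Prob (p F) F)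
    (hl : MeanLip (p F) F) (z : I → ℝ) (m d k : ℕ) (j : I) :
    |eul p (mesh (m + d)) F z ((k + 1) * 2 ^ d) j - eul p (mesh (m + d)) F z (k * 2 ^ d) j -
      mesh m * vel (p F) F (k * mesh m) (eul p (mesh (m + d)) F z (k * 2 ^ d)) j| ≤
      600 * mesh m ^ 2 := by
  have := eul_coarse hq hl (mesh_pos (m + d)).le z (k * 2 ^ d) (2 ^ d) j (2 ^ d) le_rfl
  push_cast at this
  rw [mul_assoc (k : ℝ), mesh_add] at this
  rw [add_mul, one_mul]
  linarith

lemma eul_dyadic {p : Finset I → Finset I → ℝ} {F : Finset I} (hq : Prob (p F) F)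
    (hl : MeanLip (p F) F) (z : I → ℝ) (m d k : ℕ) {T : ℝ} (hT : k * mesh m ≤ T) :
    ∀ j ∈ F, |eul p (mesh (m + d)) F z (k * 2 ^ d) j - eul p (mesh m) F z k j| ≤ err m T := by
  intro j hj
  have hm := mesh_pos m
  have := sch_compare (p := p) hm.le (W := fun _ => F) (z := z)
    (y := fun k => eul p (mesh (m + d)) F z (k * 2 ^ d)) (by simp [eul_zero])
    (c := fun _ => 600 * mesh m ^ 2) (fun _ => by positivity) k (fun _ _ => subset_rfl)
    (fun _ _ => hl) (fun k _ j _ => eul_dyadic_step hq hl z m d k j) j hj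
  refine this.trans ?_
  simp only [Finset.sum_const, Finset.card_range, nsmul_eq_mul, err]
  have h1 := pow_le_exp_mul hm.le hT
  have h2 : (k : ℝ) * (600 * mesh m ^ 2) ≤ 600 * T * mesh m := by nlinarith
  exact mul_le_mul h1 h2 (by positivity) (Real.exp_pos _).le

lemma err_nonneg (m : ℕ) {T : ℝ} (hT : 0 ≤ T) : 0 ≤ err m T := by
  have := mesh_pos m
  unfold err; positivity

lemma tendsto_err (T : ℝ) : Tendsto (fun m => err m T) atTop (𝓝 0) := by
  simpa [err] using (tendsto_mesh.const_mul (600 * T)).const_mul (Real.exp (400 * T))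

/-- The dyadic Euler scheme transports the noise to the law of `tX + Z` up to the discretisation
error, uniformly in the volume. -/
lemma integral_eul {p : Finset I → Finset I → ℝ} {F : Finset I} (hq : Prob (p F) F)
    (hl : MeanLip (p F) F) {f : (I → ℝ) → ℝ} (hb : BM f) {K : ℝ} (hK : 0 ≤ K) (hf : LipOn F K f)
    (m k : ℕ) {T : ℝ} (hT : k * mesh m ≤ T) :
    |∫ z, f (eul p (mesh m) F z k) ∂Gam I - ∫ y, f y ∂lawY (p F) F (k * mesh m)| ≤
      K * err m T := by
  have hT0 : 0 ≤ T := le_trans (mul_nonneg (Nat.cast_nonneg k) (mesh_pos m).le) hT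
  set C := Real.exp (k * mesh m * (1 + 320000 * F.card)) * (k * mesh m * F.card) with hC
  have key : ∀ ε : ℝ, 0 < ε → ∀ d : ℕ,
      |∫ z, f (eul p (mesh m) F z k) ∂Gam I - ∫ y, f y ∂lawY (p F) F (k * mesh m)| ≤
        K * err m T + K * (ε + ε⁻¹ * (C * mesh (m + d))) := by
    intro ε hε d
    have h1 := integral_eul_fine hq hl (mesh_pos (m + d)).le (mesh_le_one _) hb hK hf hε (k * 2 ^ d)
    have h2 : ((k * 2 ^ d : ℕ) : ℝ) * mesh (m + d) = k * mesh m := by
      push_cast; rw [mul_assoc, mesh_add]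
    rw [h2, ← hC] at h1
    have h3 : |∫ z, f (eul p (mesh m) F z k) ∂Gam I -
        ∫ z, f (eul p (mesh (m + d)) F z (k * 2 ^ d)) ∂Gam I| ≤ K * err m T := by
      rw [← integral_sub ((hb.comp (measurable_eul p _ F _)).integrable _)
        ((hb.comp (measurable_eul p _ F _)).integrable _)]
      have h4 : ∀ z, ‖f (eul p (mesh m) F z k) - f (eul p (mesh (m + d)) F z (k * 2 ^ d))‖ ≤
          K * err m T := fun z => hf _ _ _ (err_nonneg m hT0) fun j hj => by
        rw [abs_sub_comm]; exact eul_dyadic hq hl z m d k hT j hj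
      simpa using norm_integral_le_of_norm_le_const (μ := Gam I) (ae_of_all _ h4)
    exact (abs_sub_le _ _ _).trans (add_le_add h3 h1)
  have key2 : ∀ ε : ℝ, 0 < ε →
      |∫ z, f (eul p (mesh m) F z k) ∂Gam I - ∫ y, f y ∂lawY (p F) F (k * mesh m)| ≤
        K * err m T + K * ε := by
    intro ε hε
    have ht : Tendsto (fun d => K * err m T + K * (ε + ε⁻¹ * (C * mesh (m + d)))) atTop
        (𝓝 (K * err m T + K * (ε + ε⁻¹ * (C * 0)))) := by
      have : Tendsto (fun d => mesh (m + d)) atTop (𝓝 0) :=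
        tendsto_mesh.comp (tendsto_atTop_mono (fun d => Nat.le_add_left d m) tendsto_id)
      exact ((((this.const_mul C).const_mul _).const_add ε).const_mul K).const_add _
    simpa using ge_of_tendsto' ht (key ε hε)
  have ht : Tendsto (fun ε : ℝ => K * err m T + K * ε) (𝓝[>] 0) (𝓝 (K * err m T + K * 0)) := by
    apply Tendsto.mono_left _ nhdsWithin_le_nhds
    exact (tendsto_id.const_mul K).const_add _
  have := ge_of_tendsto ht (eventually_nhdsWithin_of_forall key2)
  simpa using this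

end Crest.Agent.R168
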