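import Crest.Agent.R168.Defs

/-!
Stable generating polynomials with nonnegative coefficients: tilted means are Lipschitz in the
field for the sup norm, and negative correlation.
-/

set_option autoImplicit false

namespace Crest.Agent.R168

open Finset Filter Topology Complex

namespace Pick

/-- An entire function pair `u, v` with `u w₀ = 0 ≠ v w₀`, `u` not identically zero: `u / v` takes
values in every direction near `0` close to `w₀`. -/
lemma exists_near {u v : ℂ → ℂ} (hu : Differentiable ℂ u) (hv : Differentiable ℂ v) {w₀ : ℂ}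
    (hw : 0 < w₀.im) (h0 : u w₀ = 0) (hv0 : v w₀ ≠ 0) (hne : u 0 ≠ 0) (c : ℂ) :
    ∃ ε : ℝ, 0 < ε ∧ ∃ w : ℂ, 0 < w.im ∧ u w = ε * c * v w := by
  have hua : AnalyticOnNhd ℂ u Set.univ := hu.differentiableOn.analyticOnNhd isOpen_univ
  have hva : AnalyticOnNhd ℂ v Set.univ := hv.differentiableOn.analyticOnNhd isOpen_univ
  have hR : AnalyticAt ℂ (fun w => u w / v w) w₀ :=
    (hua w₀ trivial).div (hva w₀ trivial) hv0
  have hvn : ∀ᶠ w in 𝓝 w₀, v w ≠ 0 := hv.continuous.continuousAt.eventually_ne hv0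
  have him : ∀ᶠ w in 𝓝 w₀, 0 < w.im :=
    (continuous_im.continuousAt (x := w₀)).eventually (lt_mem_nhds hw)
  rcases hR.eventually_constant_or_nhds_le_map_nhds with h | h
  · exfalso
    have h1 : u =ᶠ[𝓝 w₀] 0 := by
      filter_upwards [h, hvn] with w h1 h2
      rw [h0, zero_div, div_eq_zero_iff] at h1
      simpa [h2] using h1
    have := hua.eqOn_zero_of_preconnected_of_eventuallyEq_zero isPreconnected_univ
      (Set.mem_univ w₀) h1 (Set.mem_univ 0)
    exact hne this
  · simp only [h0, zero_div] at h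
    have hmem : (fun w => u w / v w) '' {w | v w ≠ 0 ∧ 0 < w.im} ∈ 𝓝 (0 : ℂ) :=
      h (image_mem_map (hvn.and him))
    have ht : Tendsto (fun ε : ℝ => (ε : ℂ) * c) (𝓝[>] 0) (𝓝 0) := by
      have : Continuous (fun ε : ℝ => (ε : ℂ) * c) := by fun_prop
      simpa using (this.tendsto 0).mono_left nhdsWithin_le_nhds
    obtain ⟨ε, ⟨w, ⟨hw1, hw2⟩, hw3⟩, hε⟩ := ((ht.eventually hmem).and self_mem_nhdsWithin).exists
    refine ⟨ε, hε, w, hw2, ?_⟩
    simp only at hw3
    rw [← hw3]; field_simp

/-- A pair of entire functions behaving like the two halves of a stable polynomial on a line. -/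
structure Pair (A B : ℂ → ℂ) : Prop where
  dA : Differentiable ℂ A
  dB : Differentiable ℂ B
  stab : ∀ w : ℂ, 0 < w.im → ∀ ζ : ℂ, 0 < ζ.im → A w + ζ * B w ≠ 0
  cA : ∀ w, A ((starRingEnd ℂ) w) = (starRingEnd ℂ) (A w)
  cB : ∀ w, B ((starRingEnd ℂ) w) = (starRingEnd ℂ) (B w)

lemma Pair.slit_upper {A B : ℂ → ℂ} (h : Pair A B) {a b : ℝ} (ha : 0 < a) (hb : 0 < b)
    (hA : A 0 = a) (hB : B 0 = b) {w : ℂ} (hw : 0 < w.im) :
    B w ≠ 0 ∧ A w / B w ∈ slitPlane := by
  have hBw : B w ≠ 0 := by
    intro h0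
    have hAw : A w ≠ 0 := by
      have := h.stab w hw I (by simp)
      simpa [h0] using this
    obtain ⟨ε, hε, w', hw', he⟩ := exists_near h.dB h.dA hw h0 hAw
      (by rw [hB]; exact_mod_cast hb.ne') I
    apply h.stab w' hw' (I / ε) (by simp [div_ofReal_im, hε])
    have : (ε : ℂ) ≠ 0 := by exact_mod_cast hε.ne'
    rw [he]; field_simp; simp
  refine ⟨hBw, ?_⟩
  by_contra hns
  rw [mem_slitPlane_iff, not_or, not_lt, not_not] at hns
  set t : ℝ := -(A w / B w).re with ht
  have ht0 : 0 ≤ t := by linarith [hns.1]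
  have hq : A w / B w = -(t : ℂ) := by
    apply Complex.ext <;> simp [ht, hns.2]
  have h0 : A w + t * B w = 0 := by
    have : A w = -(t : ℂ) * B w := by rw [← hq]; field_simp
    rw [this]; ring
  obtain ⟨ε, hε, w', hw', he⟩ := exists_near (u := fun w => A w + t * B w)
    (h.dA.add (h.dB.const_mul _)) h.dB hw h0 hBw
    (by
      simp only [hA, hB]
      have : (0 : ℝ) < a + t * b := by positivity
      exact_mod_cast this.ne') (-I)
  apply h.stab w' hw' (t + ε * I) (by simpa using hε)
  linear_combination he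

lemma Pair.log_bound {A B : ℂ → ℂ} (h : Pair A B) (a b : ℝ → ℝ)
    (ha : ∀ x : ℝ, |x| < 1 → 0 < a x) (hb : ∀ x : ℝ, |x| < 1 → 0 < b x)
    (hA : ∀ x : ℝ, A x = a x) (hB : ∀ x : ℝ, B x = b x) {s : ℝ} (hs0 : 0 ≤ s) (hs : s ≤ 1 / 2) :
    |Real.log (a s / b s) - Real.log (a 0 / b 0)| ≤ 4 * Real.pi * s := by
  have ha0 := ha 0 (by simp)
  have hb0 := hb 0 (by simp)
  have hA0 : A 0 = a 0 := by simpa using hA 0
  have hB0 : B 0 = b 0 := by simpa using hB 0
  have key : ∀ w ∈ Metric.ball (0 : ℂ) 1, B w ≠ 0 ∧ A w / B w ∈ slitPlane := by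
    intro w hw
    rcases lt_trichotomy w.im 0 with hi | hi | hi
    · have := h.slit_upper ha0 hb0 hA0 hB0 (w := (starRingEnd ℂ) w) (by simpa using hi)
      rw [h.cA, h.cB, ← map_div₀] at this
      refine ⟨by simpa using this.1, ?_⟩
      have h2 := this.2
      rw [mem_slitPlane_iff] at h2 ⊢
      rwa [conj_re, conj_im, neg_ne_zero] at h2
    · have hw' : w = (w.re : ℂ) := by apply Complex.ext <;> simp [hi]
      have hx : |w.re| < 1 := lt_of_le_of_lt (abs_re_le_norm w) (by simpa using hw)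
      rw [hw', hA, hB]
      refine ⟨by exact_mod_cast (hb _ hx).ne', ?_⟩
      rw [← ofReal_div]
      exact ofReal_mem_slitPlane.mpr (div_pos (ha _ hx) (hb _ hx))
    · exact h.slit_upper ha0 hb0 hA0 hB0 hi
  set f : ℂ → ℂ := fun w => I * (log (A w / B w) - log (A 0 / B 0)) with hf
  have hfd : DifferentiableOn ℂ f (Metric.ball 0 1) := by
    intro w hw
    apply DifferentiableAt.differentiableWithinAt
    apply DifferentiableAt.const_mul
    apply DifferentiableAt.sub_const
    exact ((h.dA w).div (h.dB w) (key w hw).1).clog (key w hw).2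
  have hl0 : log (A 0 / B 0) = (Real.log (a 0 / b 0) : ℂ) := by
    rw [hA0, hB0, ← ofReal_div, ofReal_log (div_pos ha0 hb0).le]
  have hmaps : Set.MapsTo f (Metric.ball 0 1) {z | z.re ≤ Real.pi} := by
    intro w _
    simp only [hf, hl0, Set.mem_ofPred_eq, mul_re, I_re, zero_mul, I_im, one_mul, sub_im,
      ofReal_im, sub_zero, zero_sub, log_im]
    linarith [neg_pi_lt_arg (A w / B w)]
  have hsb : (s : ℂ) ∈ Metric.ball (0 : ℂ) 1 := by
    simp [abs_of_nonneg hs0]; linarith
  have hbc := borelCaratheodory_zero Real.pi_pos hfd hmaps one_pos hsb (by simp [hf])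
  have hs1 : |s| < 1 := by rw [abs_of_nonneg hs0]; linarith
  have hls : log (A s / B s) = (Real.log (a s / b s) : ℂ) := by
    rw [hA, hB, ← ofReal_div, ofReal_log (div_pos (ha s hs1) (hb s hs1)).le]
  simp only [hf, hl0, hls, norm_mul, norm_I, one_mul, ← ofReal_sub, norm_real, Real.norm_eq_abs,
    abs_of_nonneg hs0] at hbc
  refine hbc.trans ?_
  rw [div_le_iff₀ (by linarith)]
  have := Real.pi_pos
  nlinarith [mul_nonneg this.le hs0]

lemma Pair.mono {A B : ℂ → ℂ} (h : Pair A B) (a b : ℝ → ℝ)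
    (hb : ∀ x : ℝ, 0 ≤ x → 0 < b x)
    (hA : ∀ x : ℝ, A x = a x) (hB : ∀ x : ℝ, B x = b x) :
    a 0 / b 0 ≤ a 1 / b 1 := by
  have him : ∀ w : ℂ, 0 < w.im → 0 ≤ (A w / B w).im := by
    intro w hw
    by_cases h0 : B w = 0
    · simp [h0]
    by_contra hneg
    apply h.stab w hw (-(A w / B w)) (by simpa using not_le.mp hneg)
    field_simp; ring
  have hre : ∀ x : ℝ, (A x / B x).re = a x / b x := by
    intro x; rw [hA, hB, ← ofReal_div, ofReal_re]
  have him0 : ∀ x : ℝ, (A x / B x).im = 0 := by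
    intro x; rw [hA, hB, ← ofReal_div, ofReal_im]
  have hder : ∀ x : ℝ, 0 ≤ x → ∃ d : ℝ, 0 ≤ d ∧ HasDerivAt (fun x => a x / b x) d x := by
    intro x hx
    have hBx : B x ≠ 0 := by rw [hB]; exact_mod_cast (hb x hx).ne'
    have hd : HasDerivAt (fun w => A w / B w) (deriv (fun w => A w / B w) x) x :=
      ((h.dA x).div (h.dB x) hBx).hasDerivAt
    set D := deriv (fun w => A w / B w) x
    refine ⟨D.re, ?_, ?_⟩
    · have h1 : HasDerivAt (fun ε : ℝ => (x : ℂ) + ε * I) I 0 := by
        simpa using ((Complex.ofRealCLM.hasDerivAt (x := 0)).mul_const I).const_add (x : ℂ)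
      have h2 : HasDerivAt (fun ε : ℝ => A (x + ε * I) / B (x + ε * I)) (D * I) 0 := by
        have hd' : HasDerivAt (fun w => A w / B w) D ((x : ℂ) + (0 : ℝ) * I) := by simpa using hd
        have := (hd'.hasFDerivAt.restrictScalars ℝ).comp_hasDerivAt (0 : ℝ) h1
        have h5 : (ContinuousLinearMap.restrictScalars ℝ
            (ContinuousLinearMap.toSpanSingleton ℂ D)) I = D * I := by simp [mul_comm]
        exact h5 ▸ this
      have h3 : HasDerivAt (fun ε : ℝ => (A (x + ε * I) / B (x + ε * I)).im) (D * I).im 0 :=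
        Complex.imCLM.hasFDerivAt.comp_hasDerivAt 0 h2
      have h4 := h3.hasDerivWithinAt (s := Set.Ioi 0)
      rw [hasDerivWithinAt_iff_tendsto_slope' (by simp)] at h4
      have : 0 ≤ (D * I).im := by
        refine ge_of_tendsto h4 ?_
        filter_upwards [self_mem_nhdsWithin] with ε hε
        rw [slope_def_field]
        simp only [ofReal_zero, zero_mul, add_zero, him0, sub_zero]
        exact div_nonneg (him _ (by simpa using hε)) (le_of_lt hε)
      simpa using this
    · have := hd.real_of_complex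
      simpa [hre] using this
  have hmono : MonotoneOn (fun x => a x / b x) (Set.Ici 0) := by
    apply monotoneOn_of_deriv_nonneg (convex_Ici 0)
    · intro x hx
      obtain ⟨d, _, hd⟩ := hder x hx
      exact hd.continuousAt.continuousWithinAt
    · intro x hx
      obtain ⟨d, _, hd⟩ := hder x (interior_subset hx)
      exact hd.differentiableAt.differentiableWithinAt
    · intro x hx
      obtain ⟨d, hd0, hd⟩ := hder x (interior_subset hx)
      rwa [hd.deriv]
  exact hmono (Set.mem_Ici.mpr le_rfl) (Set.mem_Ici.mpr zero_le_one) zero_le_one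

variable {I : Type*} [DecidableEq I]

/-- The part of the generating polynomial without `e`. -/
noncomputable def aP {K : Type*} [RCLike K] (q : Finset I → ℝ) (F : Finset I) (e : I) (z : I → K) :
    K := ∑ A ∈ F.powerset with e ∉ A, (q A : K) * ∏ j ∈ A, z j

/-- The coefficient of `z e` in the generating polynomial. -/
noncomputable def bP {K : Type*} [RCLike K] (q : Finset I → ℝ) (F : Finset I) (e : I) (z : I → K) :
    K := ∑ A ∈ F.powerset with e ∈ A, (q A : K) * ∏ j ∈ A.erase e, z j

lemma split {K : Type*} [RCLike K] (q : Finset I → ℝ) (F : Finset I) (e : I) (z : I → K) :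
    ∑ A ∈ F.powerset, (q A : K) * ∏ j ∈ A, z j = aP q F e z + z e * bP q F e z := by
  rw [aP, bP, ← Finset.sum_filter_not_add_sum_filter _ (fun A => e ∈ A), Finset.mul_sum]
  congr 1
  refine Finset.sum_congr rfl fun A hA => ?_
  rw [← Finset.mul_prod_erase A z (Finset.mem_filter.mp hA).2]; ring

lemma stab_update {q : Finset I → ℝ} {F : Finset I} (hs : Stable q F) (e : I) (z : I → ℂ)
    (hz : ∀ j ∈ F, j ≠ e → 0 < (z j).im) (ζ : ℂ) (hζ : 0 < ζ.im) :
    aP q F e z + ζ * bP q F e z ≠ 0 := by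
  have := hs (Function.update z e ζ) (by
    intro j hj
    by_cases h : j = e
    · simpa [h] using hζ
    · simpa [Function.update_of_ne h] using hz j hj h)
  have h2 := split (K := ℂ) q F e (Function.update z e ζ)
  have ha : aP q F e (Function.update z e ζ) = aP q F e z := by
    refine Finset.sum_congr rfl fun A hA => ?_
    congr 1
    refine Finset.prod_congr rfl fun j hj => Function.update_of_ne ?_ _ _
    rintro rfl
    exact (Finset.mem_filter.mp hA).2 hj
  have hb : bP q F e (Function.update z e ζ) = bP q F e z := by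
    refine Finset.sum_congr rfl fun A hA => ?_
    congr 1
    exact Finset.prod_congr rfl fun j hj => Function.update_of_ne (Finset.ne_of_mem_erase hj) _ _
  rw [ha, hb, Function.update_self] at h2
  rw [← h2]
  exact this

lemma pair_line {q : Finset I → ℝ} {F : Finset I} (hs : Stable q F) (e : I) (l c : I → ℝ)
    (hl : ∀ j ∈ F, j ≠ e → 0 < l j) (hc : ∀ j ∈ F, j ≠ e → 0 < c j) :
    Pair (fun w : ℂ => aP q F e (fun j => (l j : ℂ) * (1 + c j * w)))
      (fun w : ℂ => bP q F e (fun j => (l j : ℂ) * (1 + c j * w))) where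
  dA := by unfold aP; fun_prop
  dB := by unfold bP; fun_prop
  stab := fun w hw ζ hζ => stab_update hs e _ (fun j hj hje => by
    have := hl j hj hje
    have := hc j hj hje
    simp only [mul_im, ofReal_re, add_im, one_im, ofReal_im, zero_mul, add_zero, zero_add]
    positivity) ζ hζ
  cA := by intro w; simp [aP, map_sum, map_prod]
  cB := by intro w; simp [bP, map_sum, map_prod]

lemma aP_ofReal (q : Finset I → ℝ) (F : Finset I) (e : I) (l c : I → ℝ) (x : ℝ) :
    aP q F e (fun j => (l j : ℂ) * (1 + c j * (x : ℂ))) =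
      ((aP q F e (fun j => l j * (1 + c j * x)) : ℝ) : ℂ) := by
  simp [aP]

lemma bP_ofReal (q : Finset I → ℝ) (F : Finset I) (e : I) (l c : I → ℝ) (x : ℝ) :
    bP q F e (fun j => (l j : ℂ) * (1 + c j * (x : ℂ))) =
      ((bP q F e (fun j => l j * (1 + c j * x)) : ℝ) : ℂ) := by
  simp [bP]

lemma aP_congr {q : Finset I → ℝ} {F : Finset I} {e : I} {l l' : I → ℝ}
    (h : ∀ j ∈ F, j ≠ e → l j = l' j) : aP q F e l = aP q F e l' := by
  refine Finset.sum_congr rfl fun A hA => ?_
  rw [Finset.mem_filter, Finset.mem_powerset] at hA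
  congr 1
  exact Finset.prod_congr rfl fun j hj => h j (hA.1 hj) (by rintro rfl; exact hA.2 hj)

lemma bP_congr {q : Finset I → ℝ} {F : Finset I} {e : I} {l l' : I → ℝ}
    (h : ∀ j ∈ F, j ≠ e → l j = l' j) : bP q F e l = bP q F e l' := by
  refine Finset.sum_congr rfl fun A hA => ?_
  rw [Finset.mem_filter, Finset.mem_powerset] at hA
  congr 1
  exact Finset.prod_congr rfl fun j hj =>
    h j (hA.1 (Finset.mem_of_mem_erase hj)) (Finset.ne_of_mem_erase hj)

lemma aP_cases {q : Finset I → ℝ} {F : Finset I} (hq : ∀ A ⊆ F, 0 ≤ q A) (e : I) :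
    (∀ l : I → ℝ, aP q F e l = 0) ∨
      ∀ l : I → ℝ, (∀ j ∈ F, j ≠ e → 0 < l j) → 0 < aP q F e l := by
  by_cases h : ∀ A ⊆ F, e ∉ A → q A = 0
  · left
    intro l
    refine Finset.sum_eq_zero fun A hA => ?_
    rw [Finset.mem_filter, Finset.mem_powerset] at hA
    simp [h A hA.1 hA.2]
  · right
    intro l hl
    push Not at h
    obtain ⟨A, hA, he, hne⟩ := h
    have hp : ∀ B ⊆ F, e ∉ B → 0 < ∏ j ∈ B, l j := fun B hB he =>
      Finset.prod_pos fun j hj => hl j (hB hj) (by rintro rfl; exact he hj)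
    refine Finset.sum_pos' (fun B hB => ?_) ⟨A, by simp [hA, he], ?_⟩
    · rw [Finset.mem_filter, Finset.mem_powerset] at hB
      exact mul_nonneg (hq B hB.1) (hp B hB.1 hB.2).le
    · exact mul_pos (lt_of_le_of_ne (hq A hA) hne.symm) (hp A hA he)

lemma bP_cases {q : Finset I → ℝ} {F : Finset I} (hq : ∀ A ⊆ F, 0 ≤ q A) (e : I) :
    (∀ l : I → ℝ, bP q F e l = 0) ∨
      ∀ l : I → ℝ, (∀ j ∈ F, j ≠ e → 0 < l j) → 0 < bP q F e l := by
  by_cases h : ∀ A ⊆ F, e ∈ A → q A = 0
  · left
    intro l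
    refine Finset.sum_eq_zero fun A hA => ?_
    rw [Finset.mem_filter, Finset.mem_powerset] at hA
    simp [h A hA.1 hA.2]
  · right
    intro l hl
    push Not at h
    obtain ⟨A, hA, he, hne⟩ := h
    have hp : ∀ B ⊆ F, 0 < ∏ j ∈ B.erase e, l j := fun B hB =>
      Finset.prod_pos fun j hj =>
        hl j (hB (Finset.mem_of_mem_erase hj)) (Finset.ne_of_mem_erase hj)
    refine Finset.sum_pos' (fun B hB => ?_) ⟨A, by simp [hA, he], ?_⟩
    · rw [Finset.mem_filter, Finset.mem_powerset] at hB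
      exact mul_nonneg (hq B hB.1) (hp B hB.1).le
    · exact mul_pos (lt_of_le_of_ne (hq A hA) hne.symm) (hp A hA)

/-- Monotonicity of the ratio along strictly increasing fields. -/
lemma ratio_mono {q : Finset I → ℝ} {F : Finset I} (hq : ∀ A ⊆ F, 0 ≤ q A) (hs : Stable q F)
    (e : I) (l l' : I → ℝ) (hl : ∀ j ∈ F, j ≠ e → 0 < l j) (hl' : ∀ j ∈ F, j ≠ e → l j < l' j) :
    aP q F e l * bP q F e l' ≤ aP q F e l' * bP q F e l := by
  rcases bP_cases hq e with hb | hb
  · simp [hb]
  set c : I → ℝ := fun j => l' j / l j - 1 with hc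
  have hcpos : ∀ j ∈ F, j ≠ e → 0 < c j := fun j hj hje => by
    have := hl j hj hje
    have := hl' j hj hje
    simp only [hc, sub_pos]
    rwa [one_lt_div (hl j hj hje)]
  have := (pair_line hs e l c hl hcpos).mono (fun x => aP q F e (fun j => l j * (1 + c j * x)))
    (fun x => bP q F e (fun j => l j * (1 + c j * x)))
    (fun x hx => hb _ fun j hj hje => by
      have := hl j hj hje
      have := hcpos j hj hje
      positivity)
    (aP_ofReal q F e l c) (bP_ofReal q F e l c)
  have h1 : ∀ j ∈ F, j ≠ e → l j * (1 + c j * 1) = l' j := fun j hj hje => by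
    have := (hl j hj hje).ne'
    simp only [hc]; field_simp; ring
  simp only [mul_zero, add_zero, mul_one (l _)] at this
  rw [aP_congr h1, bP_congr h1, div_le_div_iff₀ (hb _ hl)
    (hb _ fun j hj hje => (hl j hj hje).trans (hl' j hj hje))] at this
  exact this

/-- Lipschitz bound for the logarithm of the ratio along a small strictly increasing move. -/
lemma log_ratio_le {q : Finset I → ℝ} {F : Finset I} (hs : Stable q F) (e : I)
    (ha : ∀ l : I → ℝ, (∀ j ∈ F, j ≠ e → 0 < l j) → 0 < aP q F e l)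
    (hb : ∀ l : I → ℝ, (∀ j ∈ F, j ≠ e → 0 < l j) → 0 < bP q F e l)
    (l l' : I → ℝ) (s : ℝ) (hs0 : 0 < s) (hs1 : s ≤ 1 / 2) (hl : ∀ j ∈ F, j ≠ e → 0 < l j)
    (hl' : ∀ j ∈ F, j ≠ e → l j < l' j) (hl'' : ∀ j ∈ F, j ≠ e → l' j ≤ l j * (1 + s)) :
    |Real.log (aP q F e l' / bP q F e l') - Real.log (aP q F e l / bP q F e l)| ≤
      4 * Real.pi * s := by
  set c : I → ℝ := fun j => (l' j / l j - 1) / s with hc
  have hcpos : ∀ j ∈ F, j ≠ e → 0 < c j := fun j hj hje => by
    have := hl j hj hje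
    have := hl' j hj hje
    simp only [hc]
    apply div_pos _ hs0
    rwa [sub_pos, one_lt_div (hl j hj hje)]
  have hc1 : ∀ j ∈ F, j ≠ e → c j ≤ 1 := fun j hj hje => by
    have h1 := hl j hj hje
    have h2 := hl'' j hj hje
    simp only [hc]
    rw [div_le_one hs0, sub_le_iff_le_add, div_le_iff₀ h1]
    linarith
  have hpos : ∀ x : ℝ, |x| < 1 → ∀ j ∈ F, j ≠ e → 0 < l j * (1 + c j * x) := by
    intro x hx j hj hje
    have h1 := hl j hj hje
    have h2 := hcpos j hj hje
    have h3 := hc1 j hj hje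
    have h4 := (abs_lt.mp hx).1
    apply mul_pos h1
    nlinarith
  have := (pair_line hs e l c hl hcpos).log_bound
    (fun x => aP q F e (fun j => l j * (1 + c j * x)))
    (fun x => bP q F e (fun j => l j * (1 + c j * x)))
    (fun x hx => ha _ (hpos x hx)) (fun x hx => hb _ (hpos x hx))
    (aP_ofReal q F e l c) (bP_ofReal q F e l c) hs0.le hs1
  have h1 : ∀ j ∈ F, j ≠ e → l j * (1 + c j * s) = l' j := fun j hj hje => by
    have := (hl j hj hje).ne'
    simp only [hc]; field_simp; ring
  simp only [mul_zero, add_zero, mul_one (l _)] at this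
  rwa [aP_congr h1, bP_congr h1] at this

lemma frac_lip {u v : ℝ} (hu : 0 < u) (hv : 0 < v) :
    |u / (1 + u) - v / (1 + v)| ≤ |Real.log u - Real.log v| := by
  wlog h : v ≤ u generalizing u v
  · rw [abs_sub_comm, abs_sub_comm (Real.log u)]
    exact this hv hu (le_of_not_ge h)
  have h1 : Real.log (v / u) ≤ v / u - 1 := Real.log_le_sub_one_of_pos (div_pos hv hu)
  rw [Real.log_div hv.ne' hu.ne'] at h1
  have h2 : u / (1 + u) - v / (1 + v) = (u - v) / ((1 + u) * (1 + v)) := by
    field_simp; ring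
  have h3 : (u - v) / ((1 + u) * (1 + v)) ≤ (u - v) / u :=
    div_le_div_of_nonneg_left (by linarith) hu (by nlinarith)
  have h4 : (u - v) / u = 1 - v / u := by field_simp
  rw [h2, abs_of_nonneg (div_nonneg (by linarith) (by positivity))]
  refine le_trans ?_ (le_abs_self _)
  linarith

lemma mean_eq (q : Finset I → ℝ) (F : Finset I) (l : I → ℝ) (e : I) :
    mean q F l e = l e * bP q F e l / (aP q F e l + l e * bP q F e l) := by
  have h := split (K := ℝ) q F e l
  simp only [RCLike.ofReal_real_eq_id, id] at h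
  rw [mean, Zf, h]
  congr 1
  rw [bP, Finset.mul_sum, Finset.sum_filter]
  refine Finset.sum_congr rfl fun A _ => ?_
  unfold ind
  split_ifs with he
  · rw [← Finset.mul_prod_erase A l he]; simp; ring
  · simp

end Pick

open Pick

theorem meanLip_of_stable {I : Type*} [DecidableEq I] {q : Finset I → ℝ} {F : Finset I}
    (hq : ∀ A ⊆ F, 0 ≤ q A) (hs : Stable q F) : MeanLip q F := by
  intro θ θ' r hr h e
  rw [mean_eq, mean_eq]
  rcases bP_cases hq e with hb | hb
  · simp [hb, hr]
  have hb1 := hb (fun j => Real.exp (θ j)) fun j _ _ => Real.exp_pos _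
  have hb2 := hb (fun j => Real.exp (θ' j)) fun j _ _ => Real.exp_pos _
  have he1 := Real.exp_pos (θ e)
  have he2 := Real.exp_pos (θ' e)
  rcases aP_cases hq e with ha | ha
  · simp only [ha, zero_add]
    rw [div_self (by positivity), div_self (by positivity)]
    simp [hr]
  have ha1 := ha (fun j => Real.exp (θ j)) fun j _ _ => Real.exp_pos _
  have ha2 := ha (fun j => Real.exp (θ' j)) fun j _ _ => Real.exp_pos _
  have heF : e ∈ F := by
    by_contra hne
    have : bP q F e (fun j => Real.exp (θ j)) = 0 := by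
      refine Finset.sum_eq_zero fun A hA => ?_
      rw [Finset.mem_filter, Finset.mem_powerset] at hA
      exact absurd (hA.1 hA.2) hne
    exact hb1.ne' this
  set a1 := aP q F e (fun j => Real.exp (θ j)) with ha1def
  set a2 := aP q F e (fun j => Real.exp (θ' j)) with ha2def
  set b1 := bP q F e (fun j => Real.exp (θ j)) with hb1def
  set b2 := bP q F e (fun j => Real.exp (θ' j)) with hb2def
  by_cases hbig : 1 / 12 < r
  · have h1 : Real.exp (θ e) * b1 / (a1 + Real.exp (θ e) * b1) ≤ 1 := by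
      rw [div_le_one (by positivity)]; linarith
    have h2 : Real.exp (θ' e) * b2 / (a2 + Real.exp (θ' e) * b2) ≤ 1 := by
      rw [div_le_one (by positivity)]; linarith
    have h3 : 0 ≤ Real.exp (θ e) * b1 / (a1 + Real.exp (θ e) * b1) := by positivity
    have h4 : 0 ≤ Real.exp (θ' e) * b2 / (a2 + Real.exp (θ' e) * b2) := by positivity
    rw [abs_le]; constructor <;> linarith
  push Not at hbig
  rcases hr.eq_or_lt with hr0 | hr0
  · have hθ : ∀ j ∈ F, θ j = θ' j := fun j hj => by
      have := h j hj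
      rw [← hr0] at this
      exact sub_eq_zero.mp (abs_nonpos_iff.mp this)
    have e1 : a1 = a2 := aP_congr fun j hj _ => by rw [hθ j hj]
    have e2 : b1 = b2 := bP_congr fun j hj _ => by rw [hθ j hj]
    rw [e1, e2, hθ e heF]; simp [hr]
  have hexp : Real.exp (3 * r) ≤ 1 + 6 * r := by
    have := Real.abs_exp_sub_one_le (x := 3 * r) (by rw [abs_of_nonneg (by linarith)]; linarith)
    rw [abs_of_nonneg (a := 3 * r) (by linarith)] at this
    linarith [le_abs_self (Real.exp (3 * r) - 1)]
  have t1 := log_ratio_le hs e ha hb (fun j => Real.exp (θ j)) (fun j => Real.exp (θ j + 2 * r))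
    (6 * r) (by linarith) (by linarith) (fun j _ _ => Real.exp_pos _)
    (fun j _ _ => Real.exp_lt_exp.mpr (by linarith)) (fun j _ _ => by
      have : Real.exp (θ j + 2 * r) ≤ Real.exp (θ j + 3 * r) := Real.exp_le_exp.mpr (by linarith)
      rw [Real.exp_add (θ j) (3 * r)] at this
      exact this.trans (mul_le_mul_of_nonneg_left hexp (Real.exp_pos _).le))
  have t2 := log_ratio_le hs e ha hb (fun j => Real.exp (θ' j)) (fun j => Real.exp (θ j + 2 * r))
    (6 * r) (by linarith) (by linarith) (fun j _ _ => Real.exp_pos _)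
    (fun j hj _ => Real.exp_lt_exp.mpr (by linarith [(abs_le.mp (h j hj)).1])) (fun j hj _ => by
      have : Real.exp (θ j + 2 * r) ≤ Real.exp (θ' j + 3 * r) :=
        Real.exp_le_exp.mpr (by linarith [(abs_le.mp (h j hj)).2])
      rw [Real.exp_add (θ' j) (3 * r)] at this
      exact this.trans (mul_le_mul_of_nonneg_left hexp (Real.exp_pos _).le))
  rw [← ha1def, ← hb1def] at t1
  rw [← ha2def, ← hb2def] at t2
  have f1 : Real.exp (θ e) * b1 / (a1 + Real.exp (θ e) * b1) =
      (Real.exp (θ e) / (a1 / b1)) / (1 + Real.exp (θ e) / (a1 / b1)) := by field_simp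
  have f2 : Real.exp (θ' e) * b2 / (a2 + Real.exp (θ' e) * b2) =
      (Real.exp (θ' e) / (a2 / b2)) / (1 + Real.exp (θ' e) / (a2 / b2)) := by field_simp
  rw [f1, f2]
  refine (frac_lip (by positivity) (by positivity)).trans ?_
  rw [Real.log_div he1.ne' (by positivity), Real.log_div he2.ne' (by positivity), Real.log_exp,
    Real.log_exp]
  have hpi : Real.pi ≤ 4 := Real.pi_le_four
  have hpr : Real.pi * r ≤ 4 * r := mul_le_mul_of_nonneg_right hpi hr
  have := abs_le.mp (h e heF)
  have := abs_le.mp t1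
  have := abs_le.mp t2
  rw [abs_le]; constructor <;> linarith

theorem neg_corr {I : Type*} [DecidableEq I] {q : Finset I → ℝ} {F : Finset I}
    (hq : ∀ A ⊆ F, 0 ≤ q A) (hs : Stable q F) (B : Finset I) (e : I) (he : e ∉ B) :
    (∑ A ∈ F.powerset with (B ⊆ A ∧ e ∈ A), q A) * (∑ A ∈ F.powerset with e ∉ A, q A) ≤
      (∑ A ∈ F.powerset with (B ⊆ A ∧ e ∉ A), q A) * (∑ A ∈ F.powerset with e ∈ A, q A) := by
  set φ : Finset I → ℝ → ℝ := fun A u => u ^ (B \ A).card * (1 + u) ^ (A \ B).card with hφ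
  have hprod : ∀ (A : Finset I) (u : ℝ), 0 < u →
      (∏ j ∈ A, if j ∈ B then u⁻¹ else 1 + u) * u ^ B.card = φ A u := by
    intro A u hu
    rw [Finset.prod_ite]
    simp only [Finset.prod_const, hφ]
    have h1 : (A.filter (· ∈ B)) = B ∩ A := by ext; simp [and_comm]
    have h2 : (A.filter (· ∉ B)) = A \ B := by ext; simp
    rw [h1, h2, ← Finset.card_sdiff_add_card_inter B A, pow_add]
    field_simp
    rw [one_div, inv_pow]
    field_simp
  have hφ0 : ∀ A : Finset I, φ A 0 = if B ⊆ A then 1 else 0 := by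
    intro A
    simp only [hφ, add_zero, one_pow, mul_one]
    split_ifs with h
    · simp [Finset.sdiff_eq_empty_iff_subset.mpr h]
    · apply zero_pow
      rw [Ne, Finset.card_eq_zero, Finset.sdiff_eq_empty_iff_subset]; exact h
  set f : ℝ → ℝ := fun u => (∑ A ∈ F.powerset with e ∉ A, q A) *
    ∑ A ∈ F.powerset with e ∈ A, q A * φ (A.erase e) u with hf
  set g : ℝ → ℝ := fun u => (∑ A ∈ F.powerset with e ∉ A, q A * φ A u) *
    ∑ A ∈ F.powerset with e ∈ A, q A with hg
  have hfg : ∀ u ∈ Set.Ioo (0 : ℝ) 1, f u ≤ g u := by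
    intro u hu
    have := ratio_mono hq hs e (fun _ => 1) (fun j => if j ∈ B then u⁻¹ else 1 + u)
      (fun _ _ _ => one_pos) (fun j _ _ => by
        split_ifs
        · exact (one_lt_inv₀ hu.1).mpr hu.2
        · linarith [hu.1])
    have h2 := mul_le_mul_of_nonneg_right this (pow_pos hu.1 B.card).le
    simp only [aP, bP, RCLike.ofReal_real_eq_id, id, Finset.prod_const_one, mul_one] at h2
    simp only [hf, hg, ← hprod _ u hu.1, ← mul_assoc, ← Finset.sum_mul]
    linarith
  have hfc : Continuous f := by simp only [hf, hφ]; fun_prop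
  have hgc : Continuous g := by simp only [hg, hφ]; fun_prop
  have h0 : f 0 ≤ g 0 := by
    refine le_of_tendsto_of_tendsto (b := 𝓝[>] (0 : ℝ))
      ((hfc.tendsto 0).mono_left nhdsWithin_le_nhds)
      ((hgc.tendsto 0).mono_left nhdsWithin_le_nhds) ?_
    filter_upwards [Ioo_mem_nhdsGT (zero_lt_one' ℝ)] with u hu using hfg u hu
  simp only [hf, hg, hφ0, mul_ite, mul_one, mul_zero] at h0
  rw [← Finset.sum_filter, ← Finset.sum_filter, Finset.filter_filter, Finset.filter_filter] at h0
  have e1 : (F.powerset.filter fun A => e ∈ A ∧ B ⊆ A.erase e) =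
      F.powerset.filter fun A => B ⊆ A ∧ e ∈ A := by
    refine Finset.filter_congr fun A _ => ?_
    rw [Finset.subset_erase]; tauto
  have e2 : (F.powerset.filter fun A => e ∉ A ∧ B ⊆ A) =
      F.powerset.filter fun A => B ⊆ A ∧ e ∉ A := Finset.filter_congr fun A _ => and_comm
  rw [e1, e2] at h0
  linarith

end Crest.Agent.R168
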