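import Crest.Agent.R168.MatrixTree
import Crest.Agent.R168.Pick

/-!
Rayleigh monotonicity of the inclusion probabilities of the uniform spanning tree.
-/

set_option autoImplicit false

namespace Crest.Agent.R168

open Finset
open Crest.ProbabilityR.SpanningTrees

namespace UstMono

variable {V : Type*} [DecidableEq V]

/-- Number of spanning trees containing `B`. -/
noncomputable def cnt (G : SimpleGraph V) (S : Finset V) (B : Finset (Sym2 V)) : ℝ :=
  ∑ A ∈ (edgesIn G S).powerset with B ⊆ A, treeW G S A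

theorem ust_eq (G : SimpleGraph V) (S : Finset V) (B : Finset (Sym2 V)) :
    ustContains G S B = cnt G S B / cnt G S ∅ := by
  classical
  unfold ustContains cnt treeW
  congr 1
  · rw [Finset.card_filter, Finset.sum_filter]
    push_cast
    apply Finset.sum_congr rfl
    intro A _
    by_cases h1 : IsSpanningTreeOn G S A <;> by_cases h2 : B ⊆ A <;> simp [h1, h2]
  · rw [Finset.card_filter, Finset.sum_filter]
    push_cast
    apply Finset.sum_congr rfl
    intro A _
    by_cases h1 : IsSpanningTreeOn G S A <;> simp [h1]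

omit [DecidableEq V] in
theorem treeW_nonneg (G : SimpleGraph V) (S : Finset V) (A : Finset (Sym2 V)) :
    0 ≤ treeW G S A := by
  unfold treeW
  split_ifs <;> norm_num

theorem cnt_nonneg (G : SimpleGraph V) (S : Finset V) (B : Finset (Sym2 V)) : 0 ≤ cnt G S B :=
  Finset.sum_nonneg fun A _ => treeW_nonneg G S A

theorem cnt_pos (G : SimpleGraph V) (S : Finset V) (hc : (G.induce (S : Set V)).Connected) :
    0 < cnt G S ∅ := by
  refine lt_of_le_of_ne (cnt_nonneg G S ∅) fun h => ?_
  have h0 : ∀ A ∈ (edgesIn G S).powerset, treeW G S A = 0 := by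
    intro A hA
    have := (Finset.sum_eq_zero_iff_of_nonneg (fun A _ => treeW_nonneg G S A)).mp h.symm A
      (Finset.mem_filter.mpr ⟨hA, Finset.empty_subset _⟩)
    exact this
  apply stable_treeW G S hc (fun _ => Complex.I) (fun _ _ => by simp)
  apply Finset.sum_eq_zero
  intro A hA
  rw [h0 A hA]
  simp

theorem edgesIn_delete (G : SimpleGraph V) (S : Finset V) (e : Sym2 V) :
    edgesIn (G.deleteEdges {e}) S = (edgesIn G S).erase e := by
  ext f
  induction f using Sym2.ind with
  | h u v =>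
    rw [Finset.mem_erase, MatrixTree.mem_edgesIn, MatrixTree.mem_edgesIn,
      SimpleGraph.deleteEdges_adj, Set.mem_singleton_iff]
    tauto

theorem treeW_delete (G : SimpleGraph V) (S : Finset V) (e : Sym2 V) (A : Finset (Sym2 V))
    (hA : e ∉ A) : treeW (G.deleteEdges {e}) S A = treeW G S A := by
  have : IsSpanningTreeOn (G.deleteEdges {e}) S A ↔ IsSpanningTreeOn G S A := by
    unfold IsSpanningTreeOn
    rw [edgesIn_delete, Finset.subset_erase]
    tauto
  unfold treeW
  rw [this]

theorem cnt_delete (G : SimpleGraph V) (S : Finset V) (e : Sym2 V) (B : Finset (Sym2 V)) :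
    cnt (G.deleteEdges {e}) S B =
      ∑ A ∈ (edgesIn G S).powerset with (B ⊆ A ∧ e ∉ A), treeW G S A := by
  unfold cnt
  apply Finset.sum_congr
  · ext A
    simp only [Finset.mem_filter, Finset.mem_powerset, edgesIn_delete, Finset.subset_erase]
    tauto
  · intro A hA
    exact treeW_delete G S e A (Finset.mem_filter.mp hA).2.2

theorem ust_le_delete (G : SimpleGraph V) (S : Finset V) (e : Sym2 V) (B : Finset (Sym2 V))
    (he : e ∉ B) (hc : ((G.deleteEdges {e}).induce (S : Set V)).Connected) :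
    ustContains G S B ≤ ustContains (G.deleteEdges {e}) S B := by
  have hcG : (G.induce (S : Set V)).Connected :=
    hc.mono (fun u v h => (SimpleGraph.deleteEdges_le (G := G) {e}) h)
  have hn := neg_corr (q := treeW G S) (F := edgesIn G S) (fun A _ => treeW_nonneg G S A)
    (stable_treeW G S hcG) B e he
  rw [ust_eq, ust_eq, div_le_div_iff₀ (cnt_pos G S hcG) (cnt_pos _ S hc), cnt_delete, cnt_delete]
  have e1 : cnt G S B = (∑ A ∈ (edgesIn G S).powerset with (B ⊆ A ∧ e ∈ A), treeW G S A) +
      ∑ A ∈ (edgesIn G S).powerset with (B ⊆ A ∧ e ∉ A), treeW G S A := by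
    unfold cnt
    rw [← Finset.sum_filter_add_sum_filter_not _ (fun A => e ∈ A), Finset.filter_filter,
      Finset.filter_filter]
  have e2 : cnt G S ∅ = (∑ A ∈ (edgesIn G S).powerset with e ∈ A, treeW G S A) +
      ∑ A ∈ (edgesIn G S).powerset with e ∉ A, treeW G S A := by
    unfold cnt
    rw [← Finset.sum_filter_add_sum_filter_not _ (fun A => e ∈ A), Finset.filter_filter,
      Finset.filter_filter]
    simp
  have e3 : (∑ A ∈ (edgesIn G S).powerset with (∅ ⊆ A ∧ e ∉ A), treeW G S A) =
      ∑ A ∈ (edgesIn G S).powerset with e ∉ A, treeW G S A := by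
    simp
  rw [e1, e2, e3]
  nlinarith [hn]

theorem ust_le_deleteEdges (G : SimpleGraph V) (S : Finset V) (B : Finset (Sym2 V))
    (D : Finset (Sym2 V)) (hD : ∀ e ∈ D, e ∉ B)
    (hc : ((G.deleteEdges (D : Set (Sym2 V))).induce (S : Set V)).Connected) :
    ustContains G S B ≤ ustContains (G.deleteEdges (D : Set (Sym2 V))) S B := by
  induction D using Finset.induction_on with
  | empty => simp
  | insert e D heD ih =>
    have hG : G.deleteEdges ((insert e D : Finset (Sym2 V)) : Set (Sym2 V)) =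
        (G.deleteEdges (D : Set (Sym2 V))).deleteEdges {e} := by
      rw [SimpleGraph.deleteEdges_deleteEdges, Finset.coe_insert, Set.insert_eq, Set.union_comm]
    rw [hG] at hc ⊢
    have hcD : ((G.deleteEdges (D : Set (Sym2 V))).induce (S : Set V)).Connected :=
      hc.mono (fun u v h => (SimpleGraph.deleteEdges_le (G := G.deleteEdges D) {e}) h)
    exact (ih (fun f hf => hD f (Finset.mem_insert_of_mem hf)) hcD).trans
      (ust_le_delete _ S e B (hD e (Finset.mem_insert_self _ _)) hc)

theorem rtg_lift {α β : Type*} {r : α → α → Prop} {p : β → β → Prop} (f : α → β)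
    (h : ∀ x y, r x y → Relation.ReflTransGen p (f x) (f y)) {a b : α}
    (hab : Relation.ReflTransGen r a b) : Relation.ReflTransGen p (f a) (f b) := by
  induction hab with
  | refl => exact Relation.ReflTransGen.refl
  | tail _ hbc ih => exact ih.trans (h _ _ hbc)

/-- Steps along edges of `H` inside `S`. -/
def Step (H : SimpleGraph V) (S : Finset V) (a b : V) : Prop := a ∈ S ∧ b ∈ S ∧ H.Adj a b

omit [DecidableEq V] in
theorem connected_iff (H : SimpleGraph V) (S : Finset V) :
    (H.induce (S : Set V)).Connected ↔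
      S.Nonempty ∧ ∀ a ∈ S, ∀ b ∈ S, Relation.ReflTransGen (Step H S) a b := by
  constructor
  · intro hc
    obtain ⟨r⟩ := hc.nonempty
    refine ⟨⟨r.1, r.2⟩, fun a ha b hb => ?_⟩
    have h := (SimpleGraph.reachable_iff_reflTransGen _ _).mp (hc.preconnected ⟨a, ha⟩ ⟨b, hb⟩)
    exact rtg_lift (p := Step H S) (fun x : (S : Set V) => x.1)
      (fun x y hxy => Relation.ReflTransGen.single ⟨x.2, y.2, hxy⟩) h
  · rintro ⟨⟨r, hr⟩, h⟩
    have : Nonempty (S : Set V) := ⟨⟨r, hr⟩⟩
    refine ⟨fun a b => ?_⟩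
    have key : ∀ c : V, Relation.ReflTransGen (Step H S) a.1 c →
        ∀ hc : c ∈ S, (H.induce (S : Set V)).Reachable a ⟨c, hc⟩ := by
      intro c hac
      induction hac with
      | refl => intro _; exact SimpleGraph.Reachable.refl _
      | tail _ hbc ih =>
        intro hc
        exact (ih hbc.1).trans (SimpleGraph.Adj.reachable hbc.2.2)
    exact key b.1 (h a.1 a.2 b.1 b.2) b.2

omit [DecidableEq V] in
theorem Step.symm' {H : SimpleGraph V} {S : Finset V} {a b : V}
    (h : Relation.ReflTransGen (Step H S) a b) : Relation.ReflTransGen (Step H S) b a := by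
  induction h with
  | refl => exact Relation.ReflTransGen.refl
  | tail _ hbc ih => exact Relation.ReflTransGen.head ⟨hbc.2.1, hbc.1, hbc.2.2.symm⟩ ih

theorem connected_insert {H H' : SimpleGraph V} {S : Finset V} {u v : V} (hu : u ∈ S)
    (hle : ∀ a ∈ S, ∀ b ∈ S, H.Adj a b → H'.Adj a b) (huv : H'.Adj u v)
    (hc : (H.induce (S : Set V)).Connected) :
    (H'.induce ((insert v S : Finset V) : Set V)).Connected := by
  rw [connected_iff] at hc ⊢
  refine ⟨⟨v, Finset.mem_insert_self _ _⟩, ?_⟩
  have key : ∀ a ∈ insert v S, Relation.ReflTransGen (Step H' (insert v S)) a u := by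
    intro a ha
    rcases Finset.mem_insert.mp ha with rfl | ha
    · exact Relation.ReflTransGen.single
        ⟨Finset.mem_insert_self _ _, Finset.mem_insert_of_mem hu, huv.symm⟩
    · exact rtg_lift (p := Step H' (insert v S)) id
        (fun x y hxy => Relation.ReflTransGen.single ⟨Finset.mem_insert_of_mem hxy.1,
        Finset.mem_insert_of_mem hxy.2.1, hle _ hxy.1 _ hxy.2.1 hxy.2.2⟩) (hc.2 a ha u hu)
  intro a ha b hb
  exact (key a ha).trans (Step.symm' (key b hb))

theorem connected_of_insert {H H' : SimpleGraph V} {S : Finset V} {u v : V} (hu : u ∈ S)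
    (hv : v ∉ S) (hle : ∀ a ∈ S, ∀ b ∈ S, H'.Adj a b → H.Adj a b)
    (huv : ∀ a ∈ S, H'.Adj a v → a = u)
    (hc : (H'.induce ((insert v S : Finset V) : Set V)).Connected) :
    (H.induce (S : Set V)).Connected := by
  rw [connected_iff] at hc ⊢
  refine ⟨⟨u, hu⟩, fun a ha b hb => ?_⟩
  have h := hc.2 a (Finset.mem_insert_of_mem ha) b (Finset.mem_insert_of_mem hb)
  have h2 : Relation.ReflTransGen (Step H S) ((fun x => if x = v then u else x) a)
      ((fun x => if x = v then u else x) b) := by
    refine rtg_lift (p := Step H S) (fun x => if x = v then u else x) (fun x y hxy => ?_) h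
    obtain ⟨hx, hy, hadj⟩ := hxy
    by_cases hxv : x = v
    · by_cases hyv : y = v
      · rw [if_pos hxv, if_pos hyv]
      · have hy' : y ∈ S := (Finset.mem_insert.mp hy).resolve_left hyv
        have := huv y hy' (hxv ▸ hadj.symm)
        rw [if_pos hxv, if_neg hyv, this]
    · have hx' : x ∈ S := (Finset.mem_insert.mp hx).resolve_left hxv
      by_cases hyv : y = v
      · have := huv x hx' (hyv ▸ hadj)
        rw [if_neg hxv, if_pos hyv, this]
      · have hy' : y ∈ S := (Finset.mem_insert.mp hy).resolve_left hyv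
        rw [if_neg hxv, if_neg hyv]
        exact Relation.ReflTransGen.single ⟨hx', hy', hle x hx' y hy' hadj⟩
  · have ha' : a ≠ v := fun h => hv (h ▸ ha)
    have hb' : b ≠ v := fun h => hv (h ▸ hb)
    simpa [ha', hb'] using h2

omit [DecidableEq V] in
theorem isSpanningTreeOn_iff (G : SimpleGraph V) (S : Finset V) (A : Finset (Sym2 V)) :
    IsSpanningTreeOn G S A ↔ A ⊆ edgesIn G S ∧
      ((SimpleGraph.fromEdgeSet (A : Set (Sym2 V))).induce (S : Set V)).Connected ∧
        A.card + 1 = S.card := by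
  unfold IsSpanningTreeOn
  refine and_congr_right fun hA => ?_
  rw [SimpleGraph.isTree_iff_connected_and_card, MatrixTree.card_edgeSet hA]
  simp

section Leaf

variable {G G' : SimpleGraph V} {S : Finset V} {u v : V}

theorem edgesIn_leaf (hu : u ∈ S)
    (hin : ∀ a ∈ S, ∀ b ∈ S, G'.Adj a b ↔ G.Adj a b) (hout : ∀ a ∈ S, G'.Adj a v ↔ a = u) :
    edgesIn G' (insert v S) = insert s(u, v) (edgesIn G S) := by
  ext f
  induction f using Sym2.ind with
  | h a b =>
    rw [Finset.mem_insert, MatrixTree.mem_edgesIn, MatrixTree.mem_edgesIn, Finset.mem_insert,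
      Finset.mem_insert, Sym2.eq_iff]
    constructor
    · rintro ⟨ha | ha, hb | hb, hadj⟩
      · exact absurd (ha.trans hb.symm) hadj.ne
      · subst ha
        exact Or.inl (Or.inr ⟨rfl, (hout b hb).mp hadj.symm⟩)
      · subst hb
        exact Or.inl (Or.inl ⟨(hout a ha).mp hadj, rfl⟩)
      · exact Or.inr ⟨ha, hb, (hin a ha b hb).mp hadj⟩
    · rintro ((⟨rfl, rfl⟩ | ⟨rfl, rfl⟩) | ⟨ha, hb, hadj⟩)
      · exact ⟨Or.inr hu, Or.inl rfl, (hout a hu).mpr rfl⟩
      · exact ⟨Or.inl rfl, Or.inr hu, ((hout b hu).mpr rfl).symm⟩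
      · exact ⟨Or.inr ha, Or.inr hb, (hin a ha b hb).mpr hadj⟩

omit [DecidableEq V] in
theorem not_mem_edgesIn (hv : v ∉ S) (a : V) : s(a, v) ∉ edgesIn G S := fun h =>
  hv (MatrixTree.mem_edgesIn.mp h).2.1

theorem tree_insert_iff (hu : u ∈ S) (hv : v ∉ S)
    (hin : ∀ a ∈ S, ∀ b ∈ S, G'.Adj a b ↔ G.Adj a b) (hout : ∀ a ∈ S, G'.Adj a v ↔ a = u)
    (A : Finset (Sym2 V)) (hA : A ⊆ edgesIn G S) :
    IsSpanningTreeOn G' (insert v S) (insert s(u, v) A) ↔ IsSpanningTreeOn G S A := by
  have hne : u ≠ v := fun h => hv (h ▸ hu)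
  have hnA : s(u, v) ∉ A := fun h => not_mem_edgesIn hv u (hA h)
  rw [isSpanningTreeOn_iff, isSpanningTreeOn_iff, edgesIn_leaf hu hin hout,
    Finset.card_insert_of_notMem hnA, Finset.card_insert_of_notMem hv]
  constructor
  · rintro ⟨-, hc, hcard⟩
    refine ⟨hA, connected_of_insert hu hv ?_ ?_ hc, by omega⟩
    · intro a ha b hb hadj
      rw [SimpleGraph.fromEdgeSet_adj] at hadj ⊢
      refine ⟨?_, hadj.2⟩
      rcases Finset.mem_insert.mp (Finset.mem_coe.mp hadj.1) with h | h
      · rw [Sym2.eq_iff] at h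
        rcases h with h | h
        · exact absurd (h.2 ▸ hb) hv
        · exact absurd (h.1 ▸ ha) hv
      · exact h
    · intro a _ hadj
      rw [SimpleGraph.fromEdgeSet_adj] at hadj
      rcases Finset.mem_insert.mp (Finset.mem_coe.mp hadj.1) with h | h
      · rw [Sym2.eq_iff] at h
        rcases h with h | h
        · exact h.1
        · exact absurd h.1 hadj.2
      · exact absurd (hA h) (not_mem_edgesIn hv a)
  · rintro ⟨-, hc, hcard⟩
    refine ⟨Finset.insert_subset_insert _ hA, connected_insert hu ?_ ?_ hc, by omega⟩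
    · intro a _ b _ hadj
      rw [SimpleGraph.fromEdgeSet_adj] at hadj ⊢
      exact ⟨Finset.mem_coe.mpr (Finset.mem_insert_of_mem (Finset.mem_coe.mp hadj.1)), hadj.2⟩
    · rw [SimpleGraph.fromEdgeSet_adj]
      exact ⟨Finset.mem_coe.mpr (Finset.mem_insert_self _ _), hne⟩

theorem not_tree_of_subset (hu : u ∈ S) (hv : v ∉ S) (A : Finset (Sym2 V))
    (hA : A ⊆ edgesIn G S) : ¬ IsSpanningTreeOn G' (insert v S) A := by
  rw [isSpanningTreeOn_iff, connected_iff]
  rintro ⟨-, ⟨-, hc⟩, -⟩
  have h := hc u (Finset.mem_insert_of_mem hu) v (Finset.mem_insert_self _ _)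
  rcases Relation.ReflTransGen.cases_tail h with h | ⟨c, -, hc⟩
  · exact hv (h ▸ hu)
  · have := hc.2.2
    rw [SimpleGraph.fromEdgeSet_adj] at this
    exact not_mem_edgesIn hv c (hA (Finset.mem_coe.mp this.1))

theorem cnt_leaf (hu : u ∈ S) (hv : v ∉ S)
    (hin : ∀ a ∈ S, ∀ b ∈ S, G'.Adj a b ↔ G.Adj a b) (hout : ∀ a ∈ S, G'.Adj a v ↔ a = u)
    (B : Finset (Sym2 V)) (hB : B ⊆ edgesIn G S) :
    cnt G' (insert v S) B = cnt G S B := by
  unfold cnt
  rw [edgesIn_leaf hu hin hout, Finset.sum_filter, Finset.sum_filter,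
    Finset.sum_powerset_insert (not_mem_edgesIn hv u)]
  have h0 : ∑ A ∈ (edgesIn G S).powerset, (if B ⊆ A then treeW G' (insert v S) A else 0) = 0 := by
    apply Finset.sum_eq_zero
    intro A hA
    have := not_tree_of_subset (G' := G') hu hv A (Finset.mem_powerset.mp hA)
    simp [treeW, this]
  rw [h0, zero_add]
  apply Finset.sum_congr rfl
  intro A hA
  have hA' := Finset.mem_powerset.mp hA
  have h1 : B ⊆ insert s(u, v) A ↔ B ⊆ A :=
    Finset.subset_insert_iff_of_notMem (fun h => not_mem_edgesIn hv u (hB h))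
  have h2 : treeW G' (insert v S) (insert s(u, v) A) = treeW G S A := by
    unfold treeW
    rw [tree_insert_iff hu hv hin hout A hA']
  rw [h2]
  simp only [h1]

end Leaf

theorem ust_insert_le (G : SimpleGraph V) (S : Finset V) {u v : V} (hu : u ∈ S) (hv : v ∉ S)
    (huv : G.Adj u v) (hc : (G.induce (S : Set V)).Connected) (B : Finset (Sym2 V))
    (hB : B ⊆ edgesIn G S) : ustContains G (insert v S) B ≤ ustContains G S B := by
  set D : Finset (Sym2 V) := (S.erase u).image (fun a => s(a, v)) with hD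
  have hin : ∀ a ∈ S, ∀ b ∈ S, (G.deleteEdges (D : Set (Sym2 V))).Adj a b ↔ G.Adj a b := by
    intro a ha b hb
    rw [SimpleGraph.deleteEdges_adj]
    refine ⟨fun h => h.1, fun h => ⟨h, fun hm => ?_⟩⟩
    obtain ⟨c, -, hc⟩ := Finset.mem_image.mp (Finset.mem_coe.mp hm)
    rw [Sym2.eq_iff] at hc
    rcases hc with hc | hc
    · exact hv (hc.2 ▸ hb)
    · exact hv (hc.2 ▸ ha)
  have hout : ∀ a ∈ S, (G.deleteEdges (D : Set (Sym2 V))).Adj a v ↔ a = u := by
    intro a ha
    rw [SimpleGraph.deleteEdges_adj]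
    constructor
    · rintro ⟨-, hm⟩
      by_contra hne
      exact hm (Finset.mem_coe.mpr (Finset.mem_image.mpr ⟨a, Finset.mem_erase.mpr ⟨hne, ha⟩, rfl⟩))
    · rintro rfl
      refine ⟨huv, fun hm => ?_⟩
      obtain ⟨c, hc1, hc⟩ := Finset.mem_image.mp (Finset.mem_coe.mp hm)
      rw [Sym2.eq_iff] at hc
      rcases hc with hc | hc
      · exact (Finset.mem_erase.mp hc1).1 hc.1
      · exact hv (hc.2 ▸ ha)
  have hc' : ((G.deleteEdges (D : Set (Sym2 V))).induce
      ((insert v S : Finset V) : Set V)).Connected :=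
    connected_insert hu (fun a ha b hb h => (hin a ha b hb).mpr h) ((hout u hu).mpr rfl) hc
  refine (ust_le_deleteEdges G (insert v S) B D ?_ hc').trans (le_of_eq ?_)
  · intro e he heB
    obtain ⟨c, -, rfl⟩ := Finset.mem_image.mp he
    exact not_mem_edgesIn hv c (hB heB)
  · rw [ust_eq, ust_eq, cnt_leaf hu hv hin hout B hB,
      cnt_leaf hu hv hin hout ∅ (Finset.empty_subset _)]

omit [DecidableEq V] in
theorem edgesIn_mono (G : SimpleGraph V) {S S' : Finset V} (h : S ⊆ S') :
    edgesIn G S ⊆ edgesIn G S' := by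
  intro e he
  induction e using Sym2.ind with
  | h a b =>
    rw [MatrixTree.mem_edgesIn] at he ⊢
    exact ⟨h he.1, h he.2.1, he.2.2⟩

theorem ust_anti (G : SimpleGraph V) (S' : Finset V) (hc' : (G.induce (S' : Set V)).Connected)
    (B : Finset (Sym2 V)) (n : ℕ) : ∀ S : Finset V, S ⊆ S' → (S' \ S).card = n →
      (G.induce (S : Set V)).Connected → B ⊆ edgesIn G S →
        ustContains G S' B ≤ ustContains G S B := by
  induction n with
  | zero =>
    intro S hSS hn _ _
    have : S = S' := Finset.Subset.antisymm hSS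
      (Finset.sdiff_eq_empty_iff_subset.mp (Finset.card_eq_zero.mp hn))
    rw [this]
  | succ n ih =>
    intro S hSS hn hc hB
    obtain ⟨w, hw⟩ : (S' \ S).Nonempty := Finset.card_pos.mp (by omega)
    obtain ⟨hwS', hwS⟩ := Finset.mem_sdiff.mp hw
    obtain ⟨r, hr⟩ := ((connected_iff G S).mp hc).1
    have hpath := ((connected_iff G S').mp hc').2 r (hSS hr) w hwS'
    have key : ∀ c : V, Relation.ReflTransGen (Step G S') r c → c ∉ S →
        ∃ u ∈ S, ∃ v ∈ S', v ∉ S ∧ G.Adj u v := by
      intro c hrc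
      induction hrc with
      | refl => intro h; exact absurd hr h
      | @tail b c _ hbc ih' =>
        intro hcS
        by_cases hb : b ∈ S
        · exact ⟨b, hb, c, hbc.2.1, hcS, hbc.2.2⟩
        · exact ih' hb
    obtain ⟨u, hu, v, hvS', hv, huv⟩ := key w hpath hwS
    have hsub : insert v S ⊆ S' := Finset.insert_subset hvS' hSS
    have hcard : (S' \ insert v S).card = n := by
      rw [Finset.sdiff_insert, Finset.card_erase_of_mem (Finset.mem_sdiff.mpr ⟨hvS', hv⟩), hn]
      rfl
    exact (ih (insert v S) hsub hcard (connected_insert hu (fun _ _ _ _ h => h) huv hc)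
      (hB.trans (edgesIn_mono G (Finset.subset_insert _ _)))).trans
      (ust_insert_le G S hu hv huv hc B hB)

end UstMono

theorem ustContains_anti (G : SimpleGraph ℕ) (S S' : Finset ℕ) (hSS : S ⊆ S')
    (hc : (G.induce (S : Set ℕ)).Connected) (hc' : (G.induce (S' : Set ℕ)).Connected)
    (B : Finset (Sym2 ℕ)) (hB : B ⊆ edgesIn G S) :
    ustContains G S' B ≤ ustContains G S B :=
  UstMono.ust_anti G S' hc' B _ S hSS rfl hc hB

end Crest.Agent.R168
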