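import Crest.Agent.R168.MatrixTree
import Crest.Agent.R168.Pick
import Crest.Agent.R168.UstMono

/-!
Marginals of the free uniform spanning forest as limits along an exhaustion.
-/

set_option autoImplicit false

namespace Crest.Agent.R168

open Finset Filter Topology
open Crest.ProbabilityR.SpanningTrees

namespace Fusf

theorem eventually_subset {S : ℕ → Finset ℕ} (hmono : Monotone S) (hex : ∀ v : ℕ, ∃ n, v ∈ S n)
    (T : Finset ℕ) : ∀ᶠ n in atTop, T ⊆ S n := by
  have : ∀ v ∈ T, ∀ᶠ n in atTop, v ∈ S n := by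
    intro v _
    obtain ⟨n, hn⟩ := hex v
    exact (eventually_ge_atTop n).mono fun m hm => hmono hm hn
  exact ((eventually_all_finset T).mpr this).mono fun n hn v hv => hn v hv

theorem eventually_edges (G : SimpleGraph ℕ) {S : ℕ → Finset ℕ} (hmono : Monotone S)
    (hex : ∀ v : ℕ, ∃ n, v ∈ S n) (B : Finset (Sym2 ℕ)) (hB : (B : Set (Sym2 ℕ)) ⊆ G.edgeSet) :
    ∀ᶠ n in atTop, B ⊆ edgesIn G (S n) := by
  have : ∀ e ∈ B, ∀ᶠ n in atTop, e ∈ edgesIn G (S n) := by
    intro e he
    induction e using Sym2.ind with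
    | h u v =>
      refine (eventually_subset hmono hex {u, v}).mono fun n hn => ?_
      exact MatrixTree.mem_edgesIn.mpr ⟨hn (by simp), hn (by simp), hB he⟩
  exact ((eventually_all_finset B).mpr this).mono fun n hn e he => hn e he

theorem ust_nonneg (G : SimpleGraph ℕ) (S : Finset ℕ) (B : Finset (Sym2 ℕ)) :
    0 ≤ ustContains G S B := by
  unfold ustContains
  positivity

theorem ust_le_one (G : SimpleGraph ℕ) (S : Finset ℕ) (B : Finset (Sym2 ℕ)) :
    ustContains G S B ≤ 1 := by
  unfold ustContains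
  apply div_le_one_of_le₀ _ (by positivity)
  apply Nat.cast_le.mpr
  apply Finset.card_le_card
  intro A hA
  simp only [Finset.mem_filter] at hA ⊢
  exact ⟨hA.1, hA.2.1⟩

/-- Number of spanning trees of the piece. -/
noncomputable def cnt (G : SimpleGraph ℕ) (S : Finset ℕ) : ℝ :=
  ∑ T ∈ (edgesIn G S).powerset, treeW G S T

/-- Uniform weight on spanning trees of the piece. -/
noncomputable def wt (G : SimpleGraph ℕ) (S : Finset ℕ) (T : Finset (Sym2 ℕ)) : ℝ :=
  treeW G S T / cnt G S

theorem treeW_nonneg (G : SimpleGraph ℕ) (S : Finset ℕ) (T : Finset (Sym2 ℕ)) :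
    0 ≤ treeW G S T := by
  unfold treeW
  split_ifs <;> norm_num

theorem cnt_pos (G : SimpleGraph ℕ) (S : Finset ℕ) (hc : (G.induce (S : Set ℕ)).Connected) :
    0 < cnt G S := by
  rcases (Finset.sum_nonneg fun T _ => treeW_nonneg G S T : 0 ≤ cnt G S).eq_or_lt with h | h
  · exfalso
    have h0 := (Finset.sum_eq_zero_iff_of_nonneg (fun T _ => treeW_nonneg G S T)).mp h.symm
    apply stable_treeW G S hc (fun _ => Complex.I) (fun _ _ => by simp)
    apply Finset.sum_eq_zero
    intro T hT
    rw [h0 T hT]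
    simp
  · exact h

theorem wt_nonneg (G : SimpleGraph ℕ) (S : Finset ℕ) (T : Finset (Sym2 ℕ)) : 0 ≤ wt G S T :=
  div_nonneg (treeW_nonneg G S T) (Finset.sum_nonneg fun T _ => treeW_nonneg G S T)

theorem sum_wt (G : SimpleGraph ℕ) (S : Finset ℕ) (hc : (G.induce (S : Set ℕ)).Connected) :
    ∑ T ∈ (edgesIn G S).powerset, wt G S T = 1 := by
  unfold wt
  rw [← Finset.sum_div]
  exact div_self (cnt_pos G S hc).ne'

theorem stable_wt (G : SimpleGraph ℕ) (S : Finset ℕ) (hc : (G.induce (S : Set ℕ)).Connected) :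
    Stable (wt G S) (edgesIn G S) := by
  intro z hz h0
  apply stable_treeW G S hc z hz
  have hc0 : (cnt G S : ℂ) ≠ 0 := by exact_mod_cast (cnt_pos G S hc).ne'
  have : ∑ A ∈ (edgesIn G S).powerset, (treeW G S A : ℂ) * ∏ j ∈ A, z j =
      (cnt G S : ℂ) * ∑ A ∈ (edgesIn G S).powerset, (wt G S A : ℂ) * ∏ j ∈ A, z j := by
    rw [Finset.mul_sum]
    apply Finset.sum_congr rfl
    intro A _
    unfold wt
    push_cast
    field_simp
  rw [this, h0, mul_zero]

theorem ust_eq (G : SimpleGraph ℕ) (S : Finset ℕ) (B : Finset (Sym2 ℕ)) :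
    ustContains G S B = ∑ T ∈ (edgesIn G S).powerset, wt G S T * if B ⊆ T then 1 else 0 := by
  unfold ustContains wt cnt treeW
  simp only [div_mul_eq_mul_div]
  rw [← Finset.sum_div, Finset.card_filter, Finset.card_filter]
  push_cast
  congr 1
  · apply Finset.sum_congr rfl
    intro T _
    by_cases h1 : IsSpanningTreeOn G S T <;> by_cases h2 : B ⊆ T <;> simp [h1, h2]

theorem incl_excl {α : Type*} [DecidableEq α] (F A T : Finset α) (hA : A ⊆ F) :
    ∑ C ∈ (F \ A).powerset, (-1 : ℝ) ^ C.card * (if A ∪ C ⊆ T then 1 else 0) =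
      if T ∩ F = A then 1 else 0 := by
  have h1 := Finset.prod_one_add (R := ℝ) (f := fun i => if i ∈ T then -1 else 0) (F \ A)
  have h2 : ∀ C : Finset α, ∏ i ∈ C, (if i ∈ T then (-1 : ℝ) else 0) =
      (-1 : ℝ) ^ C.card * (if C ⊆ T then 1 else 0) := by
    intro C
    by_cases h : C ⊆ T
    · rw [if_pos h, mul_one, ← Finset.prod_const]
      exact Finset.prod_congr rfl fun i hi => if_pos (h hi)
    · rw [if_neg h, mul_zero]
      obtain ⟨i, hi, hiT⟩ := Finset.not_subset.mp h
      exact Finset.prod_eq_zero hi (if_neg hiT)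
  simp only [h2] at h1
  by_cases hAT : A ⊆ T
  · simp only [Finset.union_subset_iff, hAT, true_and]
    rw [← h1]
    split_ifs with h
    · apply Finset.prod_eq_one
      intro i hi
      obtain ⟨hiF, hiA⟩ := Finset.mem_sdiff.mp hi
      have : i ∉ T := fun hiT => hiA (h ▸ Finset.mem_inter.mpr ⟨hiT, hiF⟩)
      simp [this]
    · have : ¬ (T ∩ F ⊆ A) := fun h' =>
        h (Finset.Subset.antisymm h' (Finset.subset_inter hAT hA))
      obtain ⟨i, hi, hiA⟩ := Finset.not_subset.mp this
      obtain ⟨hiT, hiF⟩ := Finset.mem_inter.mp hi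
      apply Finset.prod_eq_zero (Finset.mem_sdiff.mpr ⟨hiF, hiA⟩)
      simp [hiT]
  · have : ¬ (T ∩ F = A) := fun h => hAT (h ▸ Finset.inter_subset_left)
    simp [Finset.union_subset_iff, hAT, this]

/-- Probability that the uniform spanning tree of the piece meets `F` exactly in `A`. -/
noncomputable def mu (G : SimpleGraph ℕ) (S : Finset ℕ) (F A : Finset (Sym2 ℕ)) : ℝ :=
  ∑ C ∈ (F \ A).powerset, (-1 : ℝ) ^ C.card * ustContains G S (A ∪ C)

theorem mu_eq (G : SimpleGraph ℕ) (S : Finset ℕ) {F A : Finset (Sym2 ℕ)} (hA : A ⊆ F) :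
    mu G S F A = ∑ T ∈ (edgesIn G S).powerset, wt G S T * if T ∩ F = A then 1 else 0 := by
  unfold mu
  simp only [ust_eq, Finset.mul_sum]
  rw [Finset.sum_comm]
  apply Finset.sum_congr rfl
  intro T _
  rw [← incl_excl F A T hA, Finset.mul_sum]
  exact Finset.sum_congr rfl fun C _ => by ring

theorem sum_mu (G : SimpleGraph ℕ) (S : Finset ℕ) (F : Finset (Sym2 ℕ))
    (g : Finset (Sym2 ℕ) → ℝ) :
    ∑ A ∈ F.powerset, mu G S F A * g A =
      ∑ T ∈ (edgesIn G S).powerset, wt G S T * g (T ∩ F) := by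
  rw [Finset.sum_congr rfl (fun A hA => by rw [mu_eq G S (Finset.mem_powerset.mp hA)])]
  simp only [Finset.sum_mul]
  rw [Finset.sum_comm]
  apply Finset.sum_congr rfl
  intro T _
  simp only [mul_assoc]
  rw [← Finset.mul_sum]
  congr 1
  simp [Finset.inter_subset_right]

theorem meanLip_mu (G : SimpleGraph ℕ) (S : Finset ℕ) (hc : (G.induce (S : Set ℕ)).Connected)
    (F : Finset (Sym2 ℕ)) : MeanLip (mu G S F) F := by
  intro θ θ' r hr hθ i
  by_cases hi : i ∈ F
  · have key : ∀ φ : Sym2 ℕ → ℝ, mean (mu G S F) F (fun j => Real.exp (φ j)) i =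
        mean (wt G S) (edgesIn G S) (fun j => Real.exp (if j ∈ F then φ j else 0)) i := by
      intro φ
      have hp : ∀ T : Finset (Sym2 ℕ), ∏ j ∈ T ∩ F, Real.exp (φ j) =
          ∏ j ∈ T, Real.exp (if j ∈ F then φ j else 0) := by
        intro T
        rw [← Finset.filter_mem_eq_inter, Finset.prod_filter]
        apply Finset.prod_congr rfl
        intro j _
        split_ifs <;> simp
      unfold mean Zf
      simp only [mul_assoc]
      rw [sum_mu G S F (fun A => (∏ j ∈ A, Real.exp (φ j)) * ind A i),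
        sum_mu G S F (fun A => ∏ j ∈ A, Real.exp (φ j))]
      simp only [hp]
      congr 1
      apply Finset.sum_congr rfl
      intro T _
      simp [ind, hi]
    rw [key, key]
    apply meanLip_of_stable (fun A _ => wt_nonneg G S A) (stable_wt G S hc) _ _ r hr
    intro j _
    split_ifs with hj
    · exact hθ j hj
    · simpa using hr
  · have key : ∀ l : Sym2 ℕ → ℝ, mean (mu G S F) F l i = 0 := by
      intro l
      unfold mean
      rw [Finset.sum_eq_zero, zero_div]
      intro A hA
      have : i ∉ A := fun h => hi (Finset.mem_powerset.mp hA h)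
      simp [ind, this]
    rw [key, key]
    simpa using hr

end Fusf

open Fusf

theorem tendsto_qG (G : SimpleGraph ℕ) (S : ℕ → Finset ℕ) (hmono : Monotone S)
    (hex : ∀ v : ℕ, ∃ n, v ∈ S n) (hc : ∀ n, (G.induce (S n : Set ℕ)).Connected)
    (B : Finset (Sym2 ℕ)) (hB : (B : Set (Sym2 ℕ)) ⊆ G.edgeSet) :
    Tendsto (fun n => ustContains G (S n) B) atTop (𝓝 (qG G B)) := by
  classical
  have hbdd : BddBelow (Set.range fun T : Finset ℕ =>
      if (G.induce (T : Set ℕ)).Connected ∧ B ⊆ edgesIn G T then ustContains G T B else 1) := by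
    refine ⟨0, ?_⟩
    rintro _ ⟨T, rfl⟩
    simp only []
    split_ifs
    · exact ust_nonneg _ _ _
    · norm_num
  rw [tendsto_order]
  constructor
  · intro c hcq
    refine (eventually_edges G hmono hex B hB).mono fun n hn => lt_of_lt_of_le hcq ?_
    have := ciInf_le hbdd (S n)
    rw [if_pos ⟨hc n, hn⟩] at this
    unfold qG
    convert this
  · intro c hcq
    unfold qG at hcq
    obtain ⟨T, hT⟩ := exists_lt_of_ciInf_lt hcq
    split_ifs at hT with h
    · refine (eventually_subset hmono hex T).mono fun n hn => lt_of_le_of_lt ?_ hT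
      exact ustContains_anti G T (S n) hn h.1 (hc n) B h.2
    · exact Eventually.of_forall fun n => lt_of_le_of_lt (ust_le_one _ _ _) hT

theorem good_pG (G : SimpleGraph ℕ) (S : ℕ → Finset ℕ) (hmono : Monotone S)
    (hex : ∀ v : ℕ, ∃ n, v ∈ S n) (hc : ∀ n, (G.induce (S n : Set ℕ)).Connected) :
    Good G.edgeSet (pG G) := by
  have hmu : ∀ F : Finset (Sym2 ℕ), (F : Set (Sym2 ℕ)) ⊆ G.edgeSet → ∀ A ⊆ F,
      Tendsto (fun n => mu G (S n) F A) atTop (𝓝 (pG G F A)) := by
    intro F hF A hA
    unfold mu pG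
    apply tendsto_finsetSum
    intro C hC
    apply Tendsto.const_mul
    apply tendsto_qG G S hmono hex hc
    refine Set.Subset.trans (Finset.coe_subset.mpr ?_) hF
    exact Finset.union_subset hA ((Finset.mem_powerset.mp hC).trans Finset.sdiff_subset)
  have hsum : ∀ F : Finset (Sym2 ℕ), (F : Set (Sym2 ℕ)) ⊆ G.edgeSet →
      ∀ g : Finset (Sym2 ℕ) → ℝ, Tendsto (fun n => ∑ A ∈ F.powerset, mu G (S n) F A * g A) atTop
        (𝓝 (∑ A ∈ F.powerset, pG G F A * g A)) := by
    intro F hF g
    apply tendsto_finsetSum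
    intro A hA
    exact (hmu F hF A (Finset.mem_powerset.mp hA)).mul_const _
  have hnn : ∀ F : Finset (Sym2 ℕ), (F : Set (Sym2 ℕ)) ⊆ G.edgeSet → ∀ A ⊆ F, 0 ≤ pG G F A := by
    intro F hF A hA
    apply ge_of_tendsto' (hmu F hF A hA)
    intro n
    rw [mu_eq G (S n) hA]
    apply Finset.sum_nonneg
    intro T _
    apply mul_nonneg (wt_nonneg _ _ _)
    split_ifs <;> norm_num
  have hone : ∀ F : Finset (Sym2 ℕ), (F : Set (Sym2 ℕ)) ⊆ G.edgeSet →
      ∑ A ∈ F.powerset, pG G F A = 1 := by
    intro F hF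
    have h2 : ∀ n, ∑ A ∈ F.powerset, mu G (S n) F A = 1 := by
      intro n
      have := sum_mu G (S n) F (fun _ => 1)
      simp only [mul_one] at this
      rw [this, sum_wt G (S n) (hc n)]
    have h3 := hsum F hF (fun _ => 1)
    simp only [mul_one, h2] at h3
    exact tendsto_nhds_unique h3 tendsto_const_nhds
  refine ⟨hnn, hone, ?_, ?_⟩
  · intro F F' hFF hF' g
    have hF : (F : Set (Sym2 ℕ)) ⊆ G.edgeSet := (Finset.coe_subset.mpr hFF).trans hF'
    have h1 := hsum F' hF' (fun B => g (B ∩ F))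
    have h2 := hsum F hF g
    have h3 : ∀ n, ∑ A ∈ F'.powerset, mu G (S n) F' A * g (A ∩ F) =
        ∑ A ∈ F.powerset, mu G (S n) F A * g A := by
      intro n
      rw [sum_mu G (S n) F' (fun B => g (B ∩ F)), sum_mu]
      apply Finset.sum_congr rfl
      intro T _
      rw [Finset.inter_assoc, Finset.inter_eq_right.mpr hFF]
    simp only [h3] at h1
    exact tendsto_nhds_unique h1 h2
  · intro F hF θ θ' r hr hθ i
    have hmean : ∀ φ : Sym2 ℕ → ℝ,
        Tendsto (fun n => mean (mu G (S n) F) F (fun j => Real.exp (φ j)) i) atTop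
          (𝓝 (mean (pG G F) F (fun j => Real.exp (φ j)) i)) := by
      intro φ
      unfold mean Zf
      simp only [mul_assoc]
      apply Tendsto.div (hsum F hF (fun A => (∏ j ∈ A, Real.exp (φ j)) * ind A i))
        (hsum F hF (fun A => ∏ j ∈ A, Real.exp (φ j)))
      apply ne_of_gt
      apply Finset.sum_pos'
      · intro A hA
        exact mul_nonneg (hnn F hF A (Finset.mem_powerset.mp hA))
          (Finset.prod_nonneg fun j _ => (Real.exp_pos _).le)
      · by_contra hno
        push Not at hno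
        have h1 := hone F hF
        rw [Finset.sum_eq_zero] at h1
        · exact zero_ne_one h1
        · intro A hA
          have h2 := hno A hA
          have h3 : 0 < ∏ j ∈ A, Real.exp (φ j) := Finset.prod_pos fun j _ => Real.exp_pos _
          have h4 := hnn F hF A (Finset.mem_powerset.mp hA)
          nlinarith
    apply le_of_tendsto' ((hmean θ).sub (hmean θ')).abs
    intro n
    exact meanLip_mu G (S n) (hc n) F θ θ' r hr hθ i

end Crest.Agent.R168
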