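import Crest.Agent.R168.Defs

/-! Measurability and equivariance of the free uniform spanning forest marginals and of balls. -/

set_option autoImplicit false

namespace Crest.Agent.R168

open MeasureTheory Finset Filter Topology
open Crest.ProbabilityR.SpanningTrees Crest.ProbabilityR.Labels Crest.ProbabilityR.GraphTables

namespace FusfMeas

theorem mem_edgesIn {V : Type*} (G : SimpleGraph V) (S : Finset V) (e : Sym2 V) :
    e ∈ edgesIn G S ↔ e ∈ S.sym2 ∧ e ∈ G.edgeSet := by
  unfold edgesIn
  simp only [Finset.mem_filter]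

theorem coe_toFin {α : Type*} {s : Set α} (h : s.Finite) : (toFin s : Set α) = s := by
  unfold toFin
  simp [h]

theorem toFin_of_infinite {α : Type*} {s : Set α} (h : ¬ s.Finite) : toFin s = ∅ := by
  unfold toFin
  simp [h]

theorem toFin_subset {α : Type*} (s : Set α) : (toFin s : Set α) ⊆ s := by
  by_cases h : s.Finite
  · rw [coe_toFin h]
  · rw [toFin_of_infinite h]; simp

theorem toFin_eq_iff {α : Type*} (s : Set α) (F : Finset α) :
    toFin s = F ↔ s = F ∨ (F = ∅ ∧ ∀ F' : Finset α, s ≠ F') := by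
  by_cases h : s.Finite
  · constructor
    · intro hF
      left
      rw [← hF, coe_toFin h]
    · rintro (hF | ⟨_, hF⟩)
      · apply Finset.coe_injective
        rw [coe_toFin h, hF]
      · exact absurd (by simp) (hF h.toFinset)
  · rw [toFin_of_infinite h]
    constructor
    · intro hF
      right
      refine ⟨hF.symm, fun F' hF' => h ?_⟩
      rw [hF']
      exact F'.finite_toSet
    · rintro (hF | ⟨hF, _⟩)
      · exact absurd (hF ▸ F.finite_toSet) h
      · exact hF.symm

theorem measurableSet_eq_set {Ω α : Type*} [MeasurableSpace Ω] [Countable α] (s : Ω → Set α)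
    (hs : ∀ a, MeasurableSet {w | a ∈ s w}) (T : Set α) : MeasurableSet {w | s w = T} := by
  have : {w | s w = T} = ⋂ a, {w | a ∈ s w ↔ a ∈ T} := by
    ext w
    simp [Set.ext_iff]
  rw [this]
  refine MeasurableSet.iInter fun a => ?_
  by_cases ha : a ∈ T
  · simpa [ha] using hs a
  · have : {w | a ∈ s w ↔ a ∈ T} = {w | a ∈ s w}ᶜ := by
      ext w; simp [ha]
    rw [this]
    exact (hs a).compl

/-- A function of a countable-valued map with measurable fibres is measurable. -/
theorem measurable_of_fibres {Ω β γ : Type*} [MeasurableSpace Ω] [Countable β] [MeasurableSpace γ]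
    (f : Ω → β) (hf : ∀ b, MeasurableSet {w | f w = b}) (g : β → γ) :
    Measurable fun w => g (f w) := by
  let _ : MeasurableSpace β := ⊤
  have h1 : Measurable f := measurable_to_countable' fun b => hf b
  exact (measurable_from_top (f := g)).comp h1

end FusfMeas

open FusfMeas

/-- For a set-valued map with measurable membership events, the fibres of `toFin ∘ s` are
measurable. -/
theorem measurableSet_toFin_eq {Ω α : Type*} [MeasurableSpace Ω] [Countable α] (s : Ω → Set α)
    (hs : ∀ a, MeasurableSet {w | a ∈ s w}) (F : Finset α) :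
    MeasurableSet {w | toFin (s w) = F} := by
  have : {w | toFin (s w) = F} =
      {w | s w = F} ∪ ({_w | F = ∅} ∩ ⋂ F' : Finset α, {w | s w = F'}ᶜ) := by
    ext w
    simp only [Set.mem_ofPred_eq, toFin_eq_iff, Set.mem_union, Set.mem_inter_iff, Set.mem_iInter,
      Set.mem_compl_iff, ne_eq]
  rw [this]
  refine (measurableSet_eq_set s hs _).union (MeasurableSet.inter ?_ ?_)
  · exact MeasurableSet.const _
  · exact MeasurableSet.iInter fun F' => (measurableSet_eq_set s hs _).compl

theorem measurable_graphOfTable : Measurable graphOfTable := by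
  rw [SimpleGraph.measurable_iff_adj]
  intro u v
  simp only [graphOfTable, SimpleGraph.fromRel_adj]
  have h : ∀ i j : ℕ, Measurable fun A : ℕ → ℕ → Bool => A i j = true := by
    intro i j
    have h1 : Measurable fun A : ℕ → ℕ → Bool => A i j :=
      (measurable_pi_apply j).comp (measurable_pi_apply i)
    exact (measurable_of_countable (fun b : Bool => b = true)).comp h1
  exact measurable_const.and ((h u v).or (h v u))

namespace FusfMeas

theorem measurableSet_mem_edgeSet (e : Sym2 ℕ) :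
    MeasurableSet {G : SimpleGraph ℕ | e ∈ G.edgeSet} := by
  have := measurable_set_iff.1 (SimpleGraph.measurable_edgeSet (V := ℕ)) e
  exact measurableSet_setOfPred.2 this

theorem measurableSet_adj (u v : ℕ) : MeasurableSet {G : SimpleGraph ℕ | G.Adj u v} :=
  measurableSet_mem_edgeSet s(u, v)

theorem measurableSet_edgesIn (S : Finset ℕ) (E : Finset (Sym2 ℕ)) :
    MeasurableSet {G : SimpleGraph ℕ | edgesIn G S = E} := by
  have h := measurableSet_eq_set (fun G : SimpleGraph ℕ => (edgesIn G S : Set (Sym2 ℕ)))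
    (fun e => by
      have : {G : SimpleGraph ℕ | e ∈ (edgesIn G S : Set (Sym2 ℕ))} =
          {_G | e ∈ S.sym2} ∩ {G | e ∈ G.edgeSet} := by
        ext G
        simp only [Set.mem_ofPred_eq, Finset.mem_coe, mem_edgesIn, Set.mem_inter_iff]
      rw [this]
      exact (MeasurableSet.const _).inter (measurableSet_mem_edgeSet e)) (E : Set (Sym2 ℕ))
  simpa only [Finset.coe_inj] using h

theorem induce_eq_of_edgesIn {G G' : SimpleGraph ℕ} {S : Finset ℕ}
    (h : edgesIn G S = edgesIn G' S) : G.induce (S : Set ℕ) = G'.induce (S : Set ℕ) := by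
  ext ⟨u, hu⟩ ⟨v, hv⟩
  have h1 := Finset.ext_iff.1 h s(u, v)
  have hu' : u ∈ S := hu
  have hv' : v ∈ S := hv
  simpa [mem_edgesIn, hu', hv'] using h1

theorem ustContains_congr {G G' : SimpleGraph ℕ} {S : Finset ℕ}
    (h : edgesIn G S = edgesIn G' S) (B : Finset (Sym2 ℕ)) :
    ustContains G S B = ustContains G' S B := by
  have h1 : ∀ A, IsSpanningTreeOn G S A ↔ IsSpanningTreeOn G' S A := by
    intro A
    unfold IsSpanningTreeOn
    rw [h]
  unfold ustContains
  congr 2
  · congr 1
    ext A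
    simp only [Finset.mem_filter, h, h1]
  · congr 1
    ext A
    simp only [Finset.mem_filter, h, h1]

theorem edgesIn_fromEdgeSet (G : SimpleGraph ℕ) (S : Finset ℕ) :
    edgesIn (SimpleGraph.fromEdgeSet (edgesIn G S : Set (Sym2 ℕ))) S = edgesIn G S := by
  ext e
  simp only [mem_edgesIn, SimpleGraph.edgeSet_fromEdgeSet, Set.mem_sdiff, Finset.mem_coe]
  constructor
  · rintro ⟨_, h, _⟩; exact h
  · rintro ⟨h1, h2⟩
    exact ⟨h1, ⟨h1, h2⟩, fun hd => G.not_isDiag_of_mem_edgeSet h2 hd⟩

open Classical in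
theorem measurable_term (S : Finset ℕ) (B : Finset (Sym2 ℕ)) :
    Measurable fun G : SimpleGraph ℕ =>
      if (G.induce (S : Set ℕ)).Connected ∧ B ⊆ edgesIn G S then ustContains G S B else 1 := by
  let g : Finset (Sym2 ℕ) → ℝ := fun E =>
    if ((SimpleGraph.fromEdgeSet (E : Set (Sym2 ℕ))).induce (S : Set ℕ)).Connected ∧ B ⊆ E then
      ustContains (SimpleGraph.fromEdgeSet (E : Set (Sym2 ℕ))) S B else 1
  have h := measurable_of_fibres (fun G : SimpleGraph ℕ => edgesIn G S)
    (measurableSet_edgesIn S) g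
  convert h using 2 with G
  simp only [g]
  refine if_congr ?_ (ustContains_congr (edgesIn_fromEdgeSet G S) B).symm rfl
  rw [induce_eq_of_edgesIn (edgesIn_fromEdgeSet G S)]

theorem measurable_qG (B : Finset (Sym2 ℕ)) : Measurable fun G : SimpleGraph ℕ => qG G B := by
  unfold qG
  exact Measurable.iInf fun S => measurable_term S B

end FusfMeas

theorem measurable_pG (F A : Finset (Sym2 ℕ)) :
    Measurable fun G : SimpleGraph ℕ => pG G F A := by
  unfold pG
  exact Finset.measurable_sum _ fun C _ => (measurable_qG _).const_mul _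

namespace FusfMeas

theorem map_inj (σ : Equiv.Perm ℕ) : Function.Injective (Sym2.map σ) :=
  Sym2.map.injective σ.injective

theorem map_map_symm (σ : Equiv.Perm ℕ) (e : Sym2 ℕ) : Sym2.map σ (Sym2.map σ.symm e) = e := by
  induction e using Sym2.ind with
  | _ u v => simp

theorem map_surj (σ : Equiv.Perm ℕ) : Function.Surjective (Sym2.map σ) :=
  fun e => ⟨_, map_map_symm σ e⟩

theorem mem_edgeSet_comap (σ : Equiv.Perm ℕ) (G : SimpleGraph ℕ) (e : Sym2 ℕ) :
    e ∈ (G.comap σ).edgeSet ↔ Sym2.map σ e ∈ G.edgeSet := by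
  induction e using Sym2.ind with
  | _ u v => simp

theorem mem_edgesIn_comap (σ : Equiv.Perm ℕ) (G : SimpleGraph ℕ) (S : Finset ℕ) (e : Sym2 ℕ) :
    e ∈ edgesIn (G.comap σ) S ↔ Sym2.map σ e ∈ edgesIn G (S.image σ) := by
  induction e using Sym2.ind with
  | _ u v => simp [mem_edgesIn]

theorem image_edgesIn_comap (σ : Equiv.Perm ℕ) (G : SimpleGraph ℕ) (S : Finset ℕ) :
    (edgesIn (G.comap σ) S).image (Sym2.map σ) = edgesIn G (S.image σ) := by
  ext e
  obtain ⟨f, rfl⟩ := map_surj σ e
  rw [(map_inj σ).mem_finset_image, mem_edgesIn_comap]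

theorem subset_edgesIn_comap (σ : Equiv.Perm ℕ) (G : SimpleGraph ℕ) (S : Finset ℕ)
    (B : Finset (Sym2 ℕ)) :
    B ⊆ edgesIn (G.comap σ) S ↔ B.image (Sym2.map σ) ⊆ edgesIn G (S.image σ) := by
  rw [← image_edgesIn_comap, Finset.image_subset_image_iff (map_inj σ)]

/-- The induced graphs are isomorphic. -/
def induceIso (σ : Equiv.Perm ℕ) (H H' : SimpleGraph ℕ) (h : ∀ u v, H.Adj u v ↔ H'.Adj (σ u) (σ v))
    (S : Finset ℕ) : H.induce (S : Set ℕ) ≃g H'.induce ((S.image σ : Finset ℕ) : Set ℕ) where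
  toFun x := ⟨σ x.1, by simp⟩
  invFun y := ⟨σ.symm y.1, by
    have := y.2
    simp only [Finset.coe_image, Set.mem_image, Finset.mem_coe] at this
    obtain ⟨x, hx, hxy⟩ := this
    rw [← hxy]
    simpa using hx⟩
  left_inv x := by simp
  right_inv y := by simp
  map_rel_iff' := by
    intro x y
    simp [h]

theorem isSpanningTreeOn_comap (σ : Equiv.Perm ℕ) (G : SimpleGraph ℕ) (S : Finset ℕ)
    (A : Finset (Sym2 ℕ)) :
    IsSpanningTreeOn (G.comap σ) S A ↔
      IsSpanningTreeOn G (S.image σ) (A.image (Sym2.map σ)) := by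
  unfold IsSpanningTreeOn
  rw [subset_edgesIn_comap]
  refine and_congr_right fun _ => ?_
  refine SimpleGraph.Iso.isTree_iff (induceIso σ _ _ ?_ S)
  intro u v
  simp only [SimpleGraph.fromEdgeSet_adj, Finset.mem_coe, ne_eq, EmbeddingLike.apply_eq_iff_eq]
  have : s(σ u, σ v) = Sym2.map σ s(u, v) := by simp
  rw [this, (map_inj σ).mem_finset_image]

theorem card_filter_comap (σ : Equiv.Perm ℕ) (E : Finset (Sym2 ℕ))
    (p q : Finset (Sym2 ℕ) → Prop) [DecidablePred p] [DecidablePred q]
    (h : ∀ A, p A ↔ q (A.image (Sym2.map σ))) :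
    (E.powerset.filter p).card = ((E.image (Sym2.map σ)).powerset.filter q).card := by
  refine Finset.card_bij (fun A _ => A.image (Sym2.map σ)) ?_ ?_ ?_
  · intro A hA
    simp only [Finset.mem_filter, Finset.mem_powerset] at hA ⊢
    exact ⟨Finset.image_subset_image hA.1, (h A).1 hA.2⟩
  · intro A _ A' _ hAA
    exact Finset.image_injective (map_inj σ) hAA
  · intro B hB
    simp only [Finset.mem_filter, Finset.mem_powerset] at hB
    obtain ⟨A, hA, rfl⟩ := Finset.subset_image_iff.1 hB.1
    exact ⟨A, by simp only [Finset.mem_filter, Finset.mem_powerset]; exact ⟨hA, (h A).2 hB.2⟩, rfl⟩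

theorem ustContains_comap (σ : Equiv.Perm ℕ) (G : SimpleGraph ℕ) (S : Finset ℕ)
    (B : Finset (Sym2 ℕ)) :
    ustContains (G.comap σ) S B = ustContains G (S.image σ) (B.image (Sym2.map σ)) := by
  unfold ustContains
  rw [← image_edgesIn_comap]
  congr 2
  · convert card_filter_comap σ _ _ _ ?_
    intro A
    rw [isSpanningTreeOn_comap, Finset.image_subset_image_iff (map_inj σ)]
  · convert card_filter_comap σ _ _ _ ?_
    intro A
    rw [isSpanningTreeOn_comap]

theorem qG_comap (σ : Equiv.Perm ℕ) (G : SimpleGraph ℕ) (B : Finset (Sym2 ℕ)) :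
    qG (G.comap σ) B = qG G (B.image (Sym2.map σ)) := by
  unfold qG
  have hs : Function.Surjective fun S : Finset ℕ => S.image σ := by
    intro T
    refine ⟨T.image σ.symm, ?_⟩
    simp [Finset.image_image]
  refine hs.iInf_congr _ fun S => ?_
  have h1 : (G.induce ((S.image σ : Finset ℕ) : Set ℕ)).Connected ↔
      ((G.comap σ).induce (S : Set ℕ)).Connected :=
    (SimpleGraph.Iso.connected_iff (induceIso σ (G.comap σ) G (fun _ _ => Iff.rfl) S)).symm
  have h2 := subset_edgesIn_comap σ G S B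
  by_cases h3 : ((G.comap σ).induce (S : Set ℕ)).Connected ∧ B ⊆ edgesIn (G.comap σ) S
  · rw [if_pos h3, if_pos ⟨h1.2 h3.1, h2.1 h3.2⟩, ustContains_comap]
  · rw [if_neg h3, if_neg fun h => h3 ⟨h1.1 h.1, h2.2 h.2⟩]

end FusfMeas

theorem pG_comap (σ : Equiv.Perm ℕ) (G : SimpleGraph ℕ) (F A : Finset (Sym2 ℕ)) :
    pG (G.comap σ) F A = pG G (F.image (Sym2.map σ)) (A.image (Sym2.map σ)) := by
  unfold pG
  rw [← Finset.image_sdiff _ _ (map_inj σ)]
  refine Finset.sum_bij (fun C _ => C.image (Sym2.map σ)) ?_ ?_ ?_ ?_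
  · intro C hC
    simp only [Finset.mem_powerset] at hC ⊢
    exact Finset.image_subset_image hC
  · intro C _ C' _ h
    exact Finset.image_injective (map_inj σ) h
  · intro B hB
    simp only [Finset.mem_powerset] at hB
    obtain ⟨C, hC, rfl⟩ := Finset.subset_image_iff.1 hB
    exact ⟨C, Finset.mem_powerset.2 hC, rfl⟩
  · intro C _
    rw [qG_comap, Finset.image_union, Finset.card_image_of_injective _ (map_inj σ)]

namespace FusfMeas

theorem measurableSet_ballV (e : Sym2 ℕ) (n : ℕ) (v : ℕ) :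
    MeasurableSet {G : SimpleGraph ℕ | v ∈ ballV G e n} := by
  induction n generalizing v with
  | zero => exact MeasurableSet.const _
  | succ n ih =>
    have : {G : SimpleGraph ℕ | v ∈ ballV G e (n + 1)} =
        {G | v ∈ ballV G e n} ∪ ⋃ u : ℕ, ({G | u ∈ ballV G e n} ∩ {G | G.Adj u v}) := by
      ext G
      simp [ballV]
    rw [this]
    exact (ih v).union (MeasurableSet.iUnion fun u => (ih u).inter (measurableSet_adj u v))

theorem mem_ballV_comap (σ : Equiv.Perm ℕ) (G : SimpleGraph ℕ) (e : Sym2 ℕ) (n : ℕ) (v : ℕ) :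
    v ∈ ballV (G.comap σ) e n ↔ σ v ∈ ballV G (Sym2.map σ e) n := by
  induction n generalizing v with
  | zero =>
    induction e using Sym2.ind with
    | _ a b => simp [ballV]
  | succ n ih =>
    simp only [ballV, Set.mem_union, Set.mem_ofPred_eq, ih, SimpleGraph.comap_adj]
    refine or_congr Iff.rfl ⟨?_, ?_⟩
    · rintro ⟨u, hu, h⟩
      exact ⟨σ u, hu, h⟩
    · rintro ⟨u, hu, h⟩
      obtain ⟨u, rfl⟩ := σ.surjective u
      exact ⟨u, hu, h⟩

theorem ballV_mono (G : SimpleGraph ℕ) (e : Sym2 ℕ) : Monotone (ballV G e) :=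
  monotone_nat_of_le_succ fun _ => Set.subset_union_left

theorem ballV_finite (G : SimpleGraph ℕ) (hl : ∀ v : ℕ, (G.neighborSet v).Finite) (e : Sym2 ℕ)
    (n : ℕ) : (ballV G e n).Finite := by
  induction n with
  | zero =>
    induction e using Sym2.ind with
    | _ a b =>
      refine (Set.toFinite {a, b}).subset ?_
      intro v hv
      simpa [ballV] using hv
  | succ n ih =>
    refine ih.union ((ih.biUnion fun v _ => hl v).subset ?_)
    rintro w ⟨v, hv, h⟩
    simp only [Set.mem_iUnion]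
    exact ⟨v, hv, h⟩

theorem mem_ballV_of_walk (G : SimpleGraph ℕ) (e : Sym2 ℕ) {u v : ℕ} (p : G.Walk u v) (n : ℕ)
    (hu : u ∈ ballV G e n) : v ∈ ballV G e (n + p.length) := by
  induction p generalizing n with
  | nil => simpa using hu
  | cons h p ih =>
    have := ih (n + 1) (Or.inr ⟨_, hu, h⟩)
    rw [SimpleGraph.Walk.length_cons]
    rwa [show n + (p.length + 1) = n + 1 + p.length by omega]

theorem eventually_mem_ballV (G : SimpleGraph ℕ) (hc : G.Connected) (e : Sym2 ℕ) (v : ℕ) :
    ∀ᶠ n in atTop, v ∈ ballV G e n := by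
  induction e using Sym2.ind with
  | _ a b =>
    obtain ⟨p⟩ := hc.preconnected a v
    have h := mem_ballV_of_walk G s(a, b) p 0 (by simp [ballV])
    filter_upwards [eventually_ge_atTop (0 + p.length)] with n hn
    exact ballV_mono G _ hn h

end FusfMeas

theorem measurableSet_ballE (e : Sym2 ℕ) (n : ℕ) (F : Finset (Sym2 ℕ)) :
    MeasurableSet {G : SimpleGraph ℕ | ballE G e n = F} := by
  unfold ballE
  refine measurableSet_toFin_eq
    (fun G : SimpleGraph ℕ => {f | f ∈ G.edgeSet ∧ ∀ v ∈ f, v ∈ ballV G e n}) (fun f => ?_) F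
  have : {G : SimpleGraph ℕ | f ∈ {f | f ∈ G.edgeSet ∧ ∀ v ∈ f, v ∈ ballV G e n}} =
      {G | f ∈ G.edgeSet} ∩ ⋂ v : ℕ, ⋂ _ : v ∈ f, {G | v ∈ ballV G e n} := by
    ext G
    simp
  rw [this]
  exact (measurableSet_mem_edgeSet f).inter
    (MeasurableSet.iInter fun v => MeasurableSet.iInter fun _ => measurableSet_ballV e n v)

theorem ballE_comap (σ : Equiv.Perm ℕ) (G : SimpleGraph ℕ) (e : Sym2 ℕ) (n : ℕ) :
    (ballE (G.comap σ) e n).image (Sym2.map σ) = ballE G (Sym2.map σ e) n := by
  unfold ballE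
  set s : Set (Sym2 ℕ) := {f | f ∈ (G.comap σ).edgeSet ∧ ∀ v ∈ f, v ∈ ballV (G.comap σ) e n}
    with hs
  set t : Set (Sym2 ℕ) := {f | f ∈ G.edgeSet ∧ ∀ v ∈ f, v ∈ ballV G (Sym2.map σ e) n} with ht
  have hst : Sym2.map σ '' s = t := by
    ext f
    obtain ⟨f, rfl⟩ := map_surj σ f
    rw [(map_inj σ).mem_set_image]
    simp only [hs, ht, Set.mem_ofPred_eq, mem_edgeSet_comap, mem_ballV_comap]
    refine and_congr_right fun _ => ?_
    induction f using Sym2.ind with
    | _ a b => simp
  by_cases h : s.Finite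
  · have h' : t.Finite := hst ▸ h.image _
    apply Finset.coe_injective
    rw [Finset.coe_image, coe_toFin h, coe_toFin h', hst]
  · have h' : ¬ t.Finite := fun h' =>
      h (Set.Finite.of_finite_image (hst ▸ h') (map_inj σ).injOn)
    rw [toFin_of_infinite h, toFin_of_infinite h', Finset.image_empty]

theorem ballE_subset (G : SimpleGraph ℕ) (e : Sym2 ℕ) (n : ℕ) :
    (ballE G e n : Set (Sym2 ℕ)) ⊆ G.edgeSet :=
  fun _ hf => (toFin_subset _ hf).1

theorem eventually_subset_ballE (G : SimpleGraph ℕ) (hc : G.Connected)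
    (hl : ∀ v : ℕ, (G.neighborSet v).Finite) (e : Sym2 ℕ) (W : Finset (Sym2 ℕ))
    (hW : (W : Set (Sym2 ℕ)) ⊆ G.edgeSet) : ∀ᶠ n in atTop, W ⊆ ballE G e n := by
  have h1 : ∀ f ∈ W, ∀ᶠ n in atTop, ∀ v ∈ f, v ∈ ballV G e n := by
    intro f _
    induction f using Sym2.ind with
    | _ a b =>
      filter_upwards [eventually_mem_ballV G hc e a, eventually_mem_ballV G hc e b] with n ha hb
      intro v hv
      rcases Sym2.mem_iff.1 hv with rfl | rfl
      · exact ha
      · exact hb
  filter_upwards [(Filter.eventually_all_finset W).2 h1] with n hn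
  intro f hf
  have hfin : {f | f ∈ G.edgeSet ∧ ∀ v ∈ f, v ∈ ballV G e n}.Finite := by
    have hb := ballV_finite G hl e n
    refine ((hb.prod hb).image fun p : ℕ × ℕ => s(p.1, p.2)).subset ?_
    intro g hg
    induction g using Sym2.ind with
    | _ a b => exact ⟨(a, b), ⟨hg.2 a (by simp), hg.2 b (by simp)⟩, rfl⟩
  have : f ∈ (ballE G e n : Set (Sym2 ℕ)) := by
    unfold ballE
    rw [coe_toFin hfin]
    exact ⟨hW hf, hn f hf⟩
  exact this

end Crest.Agent.R168
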