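import Crest.Agent.R168.Rule

/-!
Shift-invariant strongly Rayleigh laws on a countable group are factors of i.i.d. labels.
-/

set_option autoImplicit false

namespace Crest.Agent.R168

open MeasureTheory Finset Filter Topology ProbabilityTheory
open Crest.ProbabilityR.StronglyRayleigh Crest.ProbabilityR.Labels

section Marginals

variable {I : Type*} [DecidableEq I]

/-- Finite-dimensional marginals of a law on configurations. -/
noncomputable def marg (ν : Measure (I → Bool)) (F A : Finset I) : ℝ :=
  (ν {ω | ∀ i ∈ F, (ω i = true ↔ i ∈ A)}).toReal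

omit [DecidableEq I] in
lemma measurableSet_cyl (F A : Finset I) :
    MeasurableSet {ω : I → Bool | ∀ i ∈ F, (ω i = true ↔ i ∈ A)} := by
  simp only [Set.ofPred_forall]
  refine Finset.measurableSet_biInter F fun i _ => ?_
  exact (measurable_pi_apply (X := fun _ : I => Bool) i)
    (MeasurableSet.of_discrete (s := {b | b = true ↔ i ∈ A}))

omit [DecidableEq I] in
lemma sum_marg (ν : Measure (I → Bool)) [IsProbabilityMeasure ν] (F : Finset I)
    (g : Finset I → ℝ) :
    ∑ A ∈ F.powerset, marg ν F A * g A = ∫ ω, g (F.filter fun i => ω i = true) ∂ν := by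
  have h1 : ∀ ω : I → Bool, g (F.filter fun i => ω i = true) = ∑ A ∈ F.powerset,
      {ω : I → Bool | ∀ i ∈ F, (ω i = true ↔ i ∈ A)}.indicator (fun _ => g A) ω := by
    intro ω
    rw [Finset.sum_eq_single (F.filter fun i => ω i = true)]
    · rw [Set.indicator_of_mem]
      intro i hi; simp [hi]
    · intro A hA hne
      apply Set.indicator_of_notMem
      intro h
      apply hne
      ext i
      rw [Finset.mem_filter]
      exact ⟨fun hi => ⟨Finset.mem_powerset.mp hA hi,
        (h i (Finset.mem_powerset.mp hA hi)).mpr hi⟩, fun hi => (h i hi.1).mp hi.2⟩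
    · intro h
      exact absurd (Finset.mem_powerset.mpr (Finset.filter_subset _ _)) h
  simp only [h1]
  rw [integral_finsetSum _ fun A _ => (integrable_const _).indicator (measurableSet_cyl F A)]
  refine Finset.sum_congr rfl fun A _ => ?_
  rw [integral_indicator_const _ (measurableSet_cyl F A), smul_eq_mul]
  rfl

lemma good_marg (ν : Measure (I → Bool)) [IsProbabilityMeasure ν] (hsr : IsStronglyRayleigh ν) :
    Good Set.univ (marg ν) where
  nonneg := fun _ _ _ _ => ENNReal.toReal_nonneg
  sum_one := fun F _ => by simpa using sum_marg ν F fun _ => 1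
  cons := fun F F' hFF _ g => by
    rw [sum_marg ν F' fun B => g (B ∩ F), sum_marg]
    congr 1
    ext ω
    congr 1
    ext i
    simp only [Finset.mem_inter, Finset.mem_filter]
    exact ⟨fun h => ⟨h.2, h.1.2⟩, fun h => ⟨⟨hFF h.1, h.2⟩, h.1⟩⟩
  lip := fun F _ => meanLip_of_stable (fun _ _ => ENNReal.toReal_nonneg) (hsr F)

omit [DecidableEq I] in
lemma ext_of_contains {μ ν : Measure (I → Bool)} [IsProbabilityMeasure μ] [IsProbabilityMeasure ν]
    (h : ∀ F : Finset I, μ {ω | ∀ i ∈ F, ω i = true} = ν {ω | ∀ i ∈ F, ω i = true}) : μ = ν := by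
  classical
  set C : Set (Set (I → Bool)) := Set.range fun F : Finset I => {ω | ∀ i ∈ F, ω i = true} with hC
  refine ext_of_generate_finite C ?_ ?_ ?_ (by simp)
  · apply le_antisymm
    · refine iSup_le fun i => ?_
      rw [← measurable_iff_comap_le]
      refine @measurable_to_bool _ (MeasurableSpace.generateFrom C) _ ?_
      refine MeasurableSpace.measurableSet_generateFrom ⟨{i}, ?_⟩
      ext ω; simp
    · refine MeasurableSpace.generateFrom_le ?_
      rintro _ ⟨F, rfl⟩
      have := measurableSet_cyl F F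
      convert this using 1
      ext ω
      exact ⟨fun h i hi => by simp [h i hi, hi], fun h i hi => (h i hi).mpr hi⟩
  · rintro _ ⟨F, rfl⟩ _ ⟨F', rfl⟩ _
    refine ⟨F ∪ F', ?_⟩
    ext ω
    simp only [Finset.mem_union, Set.mem_ofPred_eq, Set.mem_inter_iff, or_imp, forall_and]
  · rintro _ ⟨F, rfl⟩
    exact h F

end Marginals

theorem group_factor (Γ : Type*) [Group Γ] [Countable Γ] (ν : Measure (Γ → Bool))
    [IsProbabilityMeasure ν] (hsr : IsStronglyRayleigh ν) (hinv : IsShiftInvariant ν) :
    ∃ Φ : (Γ → unitInterval) → (Γ → Bool), Measurable Φ ∧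
      (∀ (g : Γ) (u : Γ → unitInterval), Φ (leftShift g u) = leftShift g (Φ u)) ∧
      (labelMeasure Γ).map Φ = ν := by
  classical
  obtain ⟨ℓ, hℓ, hlaw⟩ := Measure.exists_measurable_map_eq lap
  obtain ⟨f, hf⟩ := exists_surjective_nat Γ
  have hp := good_marg ν hsr
  set z : (Γ → unitInterval) → Γ → ℝ := fun u i => ℓ (u i) with hz
  have hzm : Measurable z := by fun_prop
  have hzl : (labelMeasure Γ).map z = Gam Γ := by
    have := Measure.infinitePi_map_pi (fun _ : Γ => (volume : Measure unitInterval))
      (f := fun _ => ℓ) fun _ => hℓ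
    rw [hlaw] at this
    exact this
  have hnoise : IsNoise Set.univ (labelMeasure Γ) z := ⟨hzm, fun F _ h hm _ => by
    rw [← hzl, integral_map hzm.aemeasurable hm.aestronglyMeasurable]⟩
  set B : Γ → ℕ → Finset Γ := fun g n => ((range n).image f).image (g * ·) with hB
  have hexh : ∀ g, Exh Set.univ (B g) := fun g => ⟨fun _ => Set.subset_univ _, fun W _ => by
    have : ∀ w ∈ W, ∀ᶠ n in atTop, w ∈ B g n := by
      intro w _
      obtain ⟨k, hk⟩ := hf (g⁻¹ * w)
      filter_upwards [eventually_gt_atTop k] with n hn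
      exact Finset.mem_image.mpr ⟨_, Finset.mem_image.mpr ⟨k, Finset.mem_range.mpr hn, rfl⟩,
        by simp [hk]⟩
    filter_upwards [(eventually_all_finset W).mpr this] with n hn using hn⟩
  set u : Γ → ℕ → (Γ → unitInterval) → ℝ := fun g n x => appr (marg ν) (B g n) n g (z x) with hu
  have hum : ∀ g n, Measurable (u g n) := fun g n => (bm_appr _ _ _ _).meas.comp hzm
  have hmarg : ∀ (g : Γ) (F A : Finset Γ),
      marg ν F A = marg ν (F.image (g * ·)) (A.image (g * ·)) := by
    intro g F A
    rw [marg, marg, ← hinv g⁻¹ _ (measurableSet_cyl F A)]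
    congr 2
    ext ω
    simp only [leftShift, inv_inv, Set.preimage_ofPred_eq, Set.mem_ofPred_eq,
      Finset.forall_mem_image, (mul_right_injective g).mem_finset_image]
  have hshift : ∀ g n x, u 1 n (x ∘ (g * ·)) = u g n x := by
    intro g n x
    have := appr_image (mul_right_injective g) (marg ν) (marg ν) (B 1 n) (hmarg g _) n 1 (z x)
    have h2 : (B 1 n).image (g * ·) = B g n := by simp only [hB, one_mul, Finset.image_id']
    rw [h2, mul_one] at this
    exact this
  set N := fastN (labelMeasure Γ) (u 1) with hN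
  have hNg : ∀ g k a b, N k ≤ a → N k ≤ b →
      ∫ x, |u g a x - u g b x| ∂labelMeasure Γ ≤ 1 / 2 ^ k := by
    intro g k a b ha hb
    have := fastN_spec _ (hp.exh_cauchy hnoise (Set.mem_univ 1) (hexh 1)) k a b ha hb
    rw [← integral_label_comp (mul_right_injective g) (h := fun x => |u 1 a x - u 1 b x|)
      ((hum 1 a).sub (hum 1 b)).abs] at this
    simpa only [hshift] using this
  set Φ : (Γ → unitInterval) → (Γ → Bool) := fun x g => decide (x ∈ limEv (u g) N) with hΦ
  have hΦm : Measurable Φ := by
    refine measurable_pi_lambda _ fun g => measurable_to_bool ?_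
    have : (fun x => Φ x g) ⁻¹' {true} = limEv (u g) N := by
      ext x
      simp only [hΦ, Set.mem_preimage, Set.mem_singleton_iff, decide_eq_true_eq]
    rw [this]
    exact measurableSet_limEv (hum g) N
  refine ⟨Φ, hΦm, fun g x => ?_, ?_⟩
  · ext h
    simp only [hΦ, leftShift]
    rw [decide_eq_decide]
    have : ∀ n, u h n (leftShift g x) = u (g⁻¹ * h) n x := by
      intro n
      rw [← hshift h, ← hshift (g⁻¹ * h)]
      congr 1
      ext i
      simp [leftShift, mul_assoc]
    simp only [limEv, Set.mem_ofPred_eq, this]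
  · have := Measure.isProbabilityMeasure_map (μ := labelMeasure Γ) hΦm.aemeasurable
    refine ext_of_contains fun F => ?_
    have hset : {ω : Γ → Bool | ∀ i ∈ F, ω i = true} = {ω | ∀ i ∈ F, (ω i = true ↔ i ∈ F)} := by
      ext ω
      exact ⟨fun h i hi => by simp [h i hi, hi], fun h i hi => (h i hi).mpr hi⟩
    have h := hp.final hnoise (F₀ := F) (Set.subset_univ _) (B := B) (fun g _ => hexh g)
      (N := fun _ => N) (fun g _ => hNg g)
    rw [← ENNReal.toReal_eq_toReal_iff' (measure_ne_top _ _) (measure_ne_top _ _)]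
    conv_rhs => rw [hset]
    rw [Measure.map_apply hΦm (hset ▸ measurableSet_cyl F F)]
    refine Eq.trans ?_ h
    congr 2
    ext x
    simp only [hΦ, Set.mem_preimage, Set.mem_ofPred_eq, decide_eq_true_eq]
    rfl

end Crest.Agent.R168
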