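import Crest.Agent.R168.Core

/-!
Canonical almost-sure limits of `L¹`-Cauchy sequences, naturality of the approximants, and the
law of the limiting configuration.
-/

set_option autoImplicit false

namespace Crest.Agent.R168

open MeasureTheory Finset Filter Topology ProbabilityTheory

section Limit

variable {Ω : Type*} [MeasurableSpace Ω]

/-- The event on which a fast subsequence is eventually above `1 / 2`. -/
def limEv (u : ℕ → Ω → ℝ) (N : ℕ → ℕ) : Set Ω := {ω | ∀ᶠ k in atTop, 1 / 2 < u (N k) ω}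

lemma measurableSet_limEv {u : ℕ → Ω → ℝ} (hu : ∀ n, Measurable (u n)) (N : ℕ → ℕ) :
    MeasurableSet (limEv u N) := by
  have : limEv u N = ⋃ a : ℕ, ⋂ k : ℕ, ⋂ _ : a ≤ k, {ω | 1 / 2 < u (N k) ω} := by
    ext ω; simp [limEv, eventually_atTop]
  rw [this]
  exact .iUnion fun a => .iInter fun k => .iInter fun _ => measurableSet_lt measurable_const (hu _)

lemma tendsto_limEv (P : Measure Ω) [IsProbabilityMeasure P] {u : ℕ → Ω → ℝ}
    (hu : ∀ n, Measurable (u n)) (h0 : ∀ n ω, 0 ≤ u n ω) (h1 : ∀ n ω, u n ω ≤ 1) {N : ℕ → ℕ}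
    (hN : ∀ k a b, N k ≤ a → N k ≤ b → ∫ ω, |u a ω - u b ω| ∂P ≤ 1 / 2 ^ k)
    (h01 : Tendsto (fun n => ∫ ω, u n ω * (1 - u n ω) ∂P) atTop (𝓝 0)) :
    Tendsto (fun n => ∫ ω, |u n ω - (limEv u N).indicator 1 ω| ∂P) atTop (𝓝 0) := by
  have hb : ∀ n, BM (u n) := fun n => BM.of_unit (hu n) (h0 n) (h1 n)
  have htri : ∀ a b c, ∫ ω, |u a ω - u c ω| ∂P ≤
      ∫ ω, |u a ω - u b ω| ∂P + ∫ ω, |u c ω - u b ω| ∂P := by
    intro a b c
    rw [← integral_add (((hb a).sub (hb b)).abs.integrable _)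
      (((hb c).sub (hb b)).abs.integrable _)]
    refine integral_mono (((hb a).sub (hb c)).abs.integrable _)
      ((((hb a).sub (hb b)).abs.add ((hb c).sub (hb b)).abs).integrable _) fun ω => ?_
    have := abs_sub_le (u a ω) (u b ω) (u c ω)
    rwa [abs_sub_comm (u b ω)] at this
  have hkk : ∀ k k' n, N k ≤ n → ∫ ω, |u n ω - u (N k') ω| ∂P ≤ 1 / 2 ^ k + 1 / 2 ^ k' := by
    intro k k' n hn
    refine (htri n (max n (N k')) (N k')).trans (add_le_add ?_ ?_)
    · exact hN k _ _ hn (hn.trans (le_max_left _ _))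
    · exact hN k' _ _ le_rfl (le_max_right _ _)
  -- almost sure convergence of the fast subsequence
  have hsum : ∀ᵐ ω ∂P, Summable fun k => |u (N k) ω - u (N (k + 1)) ω| := by
    have hs : Summable fun k : ℕ => ∫ ω, ‖|u (N k) ω - u (N (k + 1)) ω|‖ ∂P := by
      refine Summable.of_nonneg_of_le (fun k => integral_nonneg fun ω => norm_nonneg _)
        (fun k => ?_) ((summable_geometric_two).mul_left 2)
      simp only [Real.norm_eq_abs, abs_abs]
      refine (hkk k (k + 1) (N k) le_rfl).trans ?_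
      have : (0 : ℝ) < 1 / 2 ^ k := by positivity
      rw [pow_succ, ← div_div, one_div_pow]; linarith
    have := hasSum_integral_of_summable_integral_norm
      (fun k => ((hb (N k)).sub (hb (N (k + 1)))).abs.integrable P) hs
    have h2 : ∑' k, ∫⁻ ω, ‖|u (N k) ω - u (N (k + 1)) ω|‖ₑ ∂P ≠ ⊤ := by
      have h3 : ∀ k, ∫⁻ ω, ‖|u (N k) ω - u (N (k + 1)) ω|‖ₑ ∂P =
          ENNReal.ofReal (∫ ω, ‖|u (N k) ω - u (N (k + 1)) ω|‖ ∂P) := fun k =>
        (ofReal_integral_norm_eq_lintegral_enorm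
          (((hb (N k)).sub (hb (N (k + 1)))).abs.integrable P)).symm
      simp only [h3]
      rw [← ENNReal.ofReal_tsum_of_nonneg (fun k => integral_nonneg fun ω => norm_nonneg _) hs]
      exact ENNReal.ofReal_ne_top
    rw [← lintegral_tsum fun k =>
      (((hb (N k)).sub (hb (N (k + 1)))).abs.meas.enorm).aemeasurable] at h2
    have h4 := ae_lt_top' (AEMeasurable.tsum fun k =>
      (((hb (N k)).sub (hb (N (k + 1)))).abs.meas.enorm).aemeasurable) h2
    filter_upwards [h4] with ω hω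
    have := tsum_enorm_ne_top_iff_summable_norm.mp hω.ne
    simpa using this
  set U : Ω → ℝ := fun ω => limUnder atTop fun k => u (N k) ω with hU
  have hconv : ∀ᵐ ω ∂P, Tendsto (fun k => u (N k) ω) atTop (𝓝 (U ω)) := by
    filter_upwards [hsum] with ω hω
    exact (cauchySeq_of_summable_dist (by simpa [Real.dist_eq] using hω)).tendsto_limUnder
  have hUm : AEStronglyMeasurable U P :=
    aestronglyMeasurable_of_tendsto_ae atTop (fun k => (hu _).aestronglyMeasurable) hconv
  have hU0 : ∀ᵐ ω ∂P, 0 ≤ U ω := by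
    filter_upwards [hconv] with ω hω using ge_of_tendsto' hω fun k => h0 _ _
  have hU1 : ∀ᵐ ω ∂P, U ω ≤ 1 := by
    filter_upwards [hconv] with ω hω using le_of_tendsto' hω fun k => h1 _ _
  have hpow : Tendsto (fun k : ℕ => (1 : ℝ) / 2 ^ k) atTop (𝓝 0) := tendsto_mesh
  have hUn : ∀ k n, N k ≤ n → ∫ ω, |u n ω - U ω| ∂P ≤ 1 / 2 ^ k := by
    intro k n hn
    have ht : Tendsto (fun k' => ∫ ω, |u n ω - u (N k') ω| ∂P) atTop
        (𝓝 (∫ ω, |u n ω - U ω| ∂P)) := by
      refine tendsto_integral_of_dominated_convergence (fun _ => 1)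
        (fun k' => ((hb n).sub (hb _)).abs.meas.aestronglyMeasurable) (integrable_const _)
        (fun k' => ae_of_all _ fun ω => ?_) ?_
      · rw [Real.norm_eq_abs, abs_abs, abs_le]
        constructor <;> linarith [h0 n ω, h1 n ω, h0 (N k') ω, h1 (N k') ω]
      · filter_upwards [hconv] with ω hω using (hω.const_sub _).abs
    have := le_of_tendsto_of_tendsto' ht (hpow.const_add (1 / 2 ^ k)) fun k' => hkk k k' n hn
    simpa using this
  have hlim : Tendsto (fun n => ∫ ω, |u n ω - U ω| ∂P) atTop (𝓝 0) := by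
    rw [Metric.tendsto_atTop]
    intro ε hε
    obtain ⟨k, hk⟩ := (hpow.eventually (gt_mem_nhds hε)).exists
    refine ⟨N k, fun n hn => ?_⟩
    rw [Real.dist_eq, sub_zero, abs_of_nonneg (integral_nonneg fun ω => abs_nonneg _)]
    exact (hUn k n hn).trans_lt hk
  have hUi : Integrable U P := Integrable.of_bound hUm 1 (by
    filter_upwards [hU0, hU1] with ω a b
    rwa [Real.norm_eq_abs, abs_of_nonneg a])
  have hUUi : Integrable (fun ω => U ω * (1 - U ω)) P :=
    Integrable.of_bound (hUm.mul (aestronglyMeasurable_const.sub hUm)) 1 (by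
      filter_upwards [hU0, hU1] with ω a b
      rw [Real.norm_eq_abs, abs_of_nonneg (mul_nonneg a (by linarith))]
      nlinarith)
  have hzero : ∫ ω, U ω * (1 - U ω) ∂P = 0 := by
    apply le_antisymm
    · have := h01.add hlim
      rw [add_zero] at this
      refine ge_of_tendsto' this fun n => ?_
      have hi1 := ((hb n).mul ((BM.const 1).sub (hb n))).integrable P
      have hi2 : Integrable (fun ω => |u n ω - U ω|) P := (((hb n).integrable P).sub hUi).abs
      rw [← integral_add hi1 hi2]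
      refine integral_mono_ae hUUi (hi1.add hi2) ?_
      filter_upwards [hU0, hU1] with ω a b
      have c := h0 n ω
      have d := h1 n ω
      have e1 := le_abs_self (u n ω - U ω)
      have e2 := neg_abs_le (u n ω - U ω)
      nlinarith
    · refine integral_nonneg_of_ae ?_
      filter_upwards [hU0, hU1] with ω a b using mul_nonneg a (by linarith)
  have hUU : ∀ᵐ ω ∂P, U ω * (1 - U ω) = 0 := by
    refine (integral_eq_zero_iff_of_nonneg_ae ?_ hUUi).mp hzero
    filter_upwards [hU0, hU1] with ω a b using mul_nonneg a (by linarith)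
  have hind : ∀ᵐ ω ∂P, U ω = (limEv u N).indicator 1 ω := by
    filter_upwards [hconv, hUU] with ω hω h
    rcases mul_eq_zero.mp h with h | h
    · rw [h] at hω
      rw [h, Set.indicator_of_notMem]
      intro hm
      obtain ⟨k, a, b⟩ := ((hω.eventually (gt_mem_nhds (show (0 : ℝ) < 1 / 2 by norm_num))).and
        hm).exists
      linarith
    · have h' : U ω = 1 := by linarith
      rw [h'] at hω
      rw [h', Set.indicator_of_mem]
      · rfl
      · exact hω.eventually (lt_mem_nhds (by norm_num))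
  refine hlim.congr fun n => integral_congr_ae ?_
  filter_upwards [hind] with ω hω
  rw [hω]

/-- A canonical fast subsequence. -/
noncomputable def fastN (P : Measure Ω) (u : ℕ → Ω → ℝ) (k : ℕ) : ℕ :=
  sInf {n | ∀ a b, n ≤ a → n ≤ b → ∫ ω, |u a ω - u b ω| ∂P ≤ 1 / 2 ^ k}

lemma fastN_spec (P : Measure Ω) {u : ℕ → Ω → ℝ}
    (h : ∀ ε : ℝ, 0 < ε → ∃ n, ∀ a b, n ≤ a → n ≤ b → ∫ ω, |u a ω - u b ω| ∂P ≤ ε) (k a b : ℕ)
    (ha : fastN P u k ≤ a) (hb : fastN P u k ≤ b) : ∫ ω, |u a ω - u b ω| ∂P ≤ 1 / 2 ^ k :=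
  Nat.sInf_mem (s := {n | ∀ a b, n ≤ a → n ≤ b → ∫ ω, |u a ω - u b ω| ∂P ≤ 1 / 2 ^ k})
    (h _ (by positivity)) a b ha hb

end Limit

section Natural

variable {I I' : Type*} [DecidableEq I] [DecidableEq I']

lemma vel_image {f : I → I'} (hf : Function.Injective f) (q : Finset I' → ℝ) (F : Finset I)
    (t : ℝ) (y : I' → ℝ) (i : I) :
    vel (fun A => q (A.image f)) F t (y ∘ f) i = vel q (F.image f) t y (f i) := by
  have hinj : Function.Injective (Finset.image f) := Finset.image_injective hf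
  have h1 : ∀ A : Finset I, ∏ j ∈ A.image f, Real.exp (th t (y j)) =
      ∏ j ∈ A, Real.exp (th t (y (f j))) := fun A => Finset.prod_image hf.injOn
  have h2 : ∀ A : Finset I, ind (A.image f) (f i) = ind A i := fun A => by
    simp [ind, hf.eq_iff]
  unfold vel mean Zf
  rw [Finset.powerset_image, Finset.sum_image hinj.injOn, Finset.sum_image hinj.injOn]
  simp only [h1, h2, Function.comp]

lemma eul_image {f : I → I'} (hf : Function.Injective f) (p : Finset I' → Finset I' → ℝ)
    (p' : Finset I → Finset I → ℝ) (F : Finset I) (hp : ∀ A, p' F A = p (F.image f) (A.image f))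
    (h : ℝ) (z : I' → ℝ) (k : ℕ) :
    eul p' h F (z ∘ f) k = eul p h (F.image f) z k ∘ f := by
  induction k with
  | zero => rfl
  | succ k ih =>
    ext j
    have : p' F = fun A => p (F.image f) (A.image f) := funext hp
    rw [eul_succ, ih, Function.comp_apply, Function.comp_apply, eul_succ, this, vel_image hf]

lemma appr_image {f : I → I'} (hf : Function.Injective f) (p : Finset I' → Finset I' → ℝ)
    (p' : Finset I → Finset I → ℝ) (F : Finset I) (hp : ∀ A, p' F A = p (F.image f) (A.image f))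
    (n : ℕ) (i : I) (z : I' → ℝ) :
    appr p' F n i (z ∘ f) = appr p (F.image f) n (f i) z := by
  simp only [appr, pos, eul_image hf p p' F hp, Function.comp]

lemma eul_congr (p : Finset I → Finset I → ℝ) (h : ℝ) (F : Finset I) {z z' : I → ℝ} {s : Set I}
    (hF : (F : Set I) ⊆ s) (hz : ∀ j ∈ s, z j = z' j) (k : ℕ) :
    ∀ j ∈ s, eul p h F z k j = eul p h F z' k j := by
  induction k with
  | zero => exact hz
  | succ k ih =>
    intro j hj
    rw [eul_succ, eul_succ, ih j hj, vel_congr _ _ _ fun i hi => ih i (hF hi)]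

lemma appr_congr (p : Finset I → Finset I → ℝ) (F : Finset I) (n : ℕ) {i : I} {z z' : I → ℝ}
    {s : Set I} (hF : (F : Set I) ⊆ s) (hi : i ∈ s) (hz : ∀ j ∈ s, z j = z' j) :
    appr p F n i z = appr p F n i z' := by
  simp only [appr, pos, eul_congr p _ F hF hz _ i hi]

end Natural

section Final

variable {I : Type*} [DecidableEq I] {E : Set I} {p : Finset I → Finset I → ℝ}
  {Ω : Type*} [MeasurableSpace Ω]

/-- `z` is a random field which is independent Laplace noise on `E`. -/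
structure IsNoise (E : Set I) (P : Measure Ω) (z : Ω → I → ℝ) : Prop where
  meas : Measurable z
  law : ∀ F : Finset I, (F : Set I) ⊆ E → ∀ h : (I → ℝ) → ℝ, Measurable h →
    DependsOn h (F : Set I) → ∫ ω, h (z ω) ∂P = ∫ y, h y ∂Gam I

/-- `B` exhausts `E` by finite subsets. -/
structure Exh (E : Set I) (B : ℕ → Finset I) : Prop where
  sub : ∀ n, (B n : Set I) ⊆ E
  ev : ∀ W : Finset I, (W : Set I) ⊆ E → ∀ᶠ n in atTop, W ⊆ B n

lemma IsNoise.integral_abs_sub {P : Measure Ω} {z : Ω → I → ℝ} (hz : IsNoise E P z) {i : I}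
    (hi : i ∈ E) {F F' : Finset I} (hF : (F : Set I) ⊆ E) (hF' : (F' : Set I) ⊆ E) (a b : ℕ) :
    ∫ ω, |appr p F a i (z ω) - appr p F' b i (z ω)| ∂P =
      ∫ y, |appr p F a i y - appr p F' b i y| ∂Gam I := by
  refine hz.law (insert i (F ∪ F')) ?_ (fun y => |appr p F a i y - appr p F' b i y|)
    ((bm_appr p F a i).sub (bm_appr p F' b i)).abs.meas fun y y' h => ?_
  · simp [Set.insert_subset_iff, hi, hF, hF']
  · simp only
    rw [appr_congr p F a (fun j hj => by simp [Finset.mem_coe.mp hj]) (by simp) h,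
      appr_congr p F' b (fun j hj => by simp [Finset.mem_coe.mp hj]) (by simp) h]

theorem Good.exh_cauchy (hp : Good E p) {P : Measure Ω} {z : Ω → I → ℝ} (hz : IsNoise E P z)
    {i : I} (hi : i ∈ E) {B : ℕ → Finset I} (hB : Exh E B) (ε : ℝ) (hε : 0 < ε) :
    ∃ n, ∀ a b, n ≤ a → n ≤ b →
      ∫ ω, |appr p (B a) a i (z ω) - appr p (B b) b i (z ω)| ∂P ≤ ε := by
  obtain ⟨W, n₀, hWE, hW⟩ := hp.cauchy hi hε
  obtain ⟨n₁, hn₁⟩ := eventually_atTop.mp (hB.ev W hWE)
  refine ⟨max n₀ n₁, fun a b ha hb => ?_⟩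
  rw [hz.integral_abs_sub hi (hB.sub a) (hB.sub b)]
  exact hW _ _ (hn₁ a (by omega)) (hB.sub a) (hn₁ b (by omega)) (hB.sub b) a b (by omega)
    (by omega)

theorem Good.final (hp : Good E p) {P : Measure Ω} [IsProbabilityMeasure P] {z : Ω → I → ℝ}
    (hz : IsNoise E P z) {F₀ : Finset I} (hF₀ : (F₀ : Set I) ⊆ E) {B : I → ℕ → Finset I}
    (hB : ∀ j ∈ F₀, Exh E (B j)) {N : I → ℕ → ℕ}
    (hN : ∀ j ∈ F₀, ∀ k a b, N j k ≤ a → N j k ≤ b →
      ∫ ω, |appr p (B j a) a j (z ω) - appr p (B j b) b j (z ω)| ∂P ≤ 1 / 2 ^ k) :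
    (P {ω | ∀ j ∈ F₀, ω ∈ limEv (fun n ω => appr p (B j n) n j (z ω)) (N j)}).toReal =
      p F₀ F₀ := by
  set u : I → ℕ → Ω → ℝ := fun j n ω => appr p (B j n) n j (z ω) with hu
  have hum : ∀ j n, BM (u j n) := fun j n => (bm_appr p _ n j).comp hz.meas
  have hsmall : Tendsto (fun n : ℕ => tl n * c0 + 1 / ((n : ℝ) + 1)) atTop (𝓝 0) := by
    simpa using (tendsto_tl.mul_const c0).add tendsto_one_div_add_atTop_nhds_zero_nat
  have h01 : ∀ j ∈ F₀, Tendsto (fun n => ∫ ω, u j n ω * (1 - u j n ω) ∂P) atTop (𝓝 0) := by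
    intro j hj
    refine squeeze_zero' (Eventually.of_forall fun n => integral_nonneg fun ω =>
      mul_nonneg (appr_nonneg _ _ _ _ _) (sub_nonneg.mpr (appr_le_one _ _ _ _ _))) ?_ hsmall
    filter_upwards [(hB j hj).ev {j} (by simpa using hF₀ hj)] with n hn
    have hjn : j ∈ B j n := hn (Finset.mem_singleton_self j)
    rw [hz.law (B j n) ((hB j hj).sub n) (fun y => appr p (B j n) n j y * (1 - appr p (B j n) n j y))
      ((bm_appr _ _ _ _).mul ((BM.const 1).sub (bm_appr _ _ _ _))).meas fun y y' h => by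
        simp only [appr_congr p (B j n) n subset_rfl hjn h]]
    exact hp.zero_one ((hB j hj).sub n) hjn n
  have hl : ∀ j ∈ F₀, Tendsto (fun n => ∫ ω, |u j n ω - (limEv (u j) (N j)).indicator 1 ω| ∂P)
      atTop (𝓝 0) := fun j hj => tendsto_limEv P (fun n => (hum j n).meas)
        (fun n ω => appr_nonneg _ _ _ _ _) (fun n ω => appr_le_one _ _ _ _ _) (hN j hj) (h01 j hj)
  -- a common volume
  set G : ℕ → Finset I := fun n => F₀ ∪ F₀.biUnion fun j => B j n with hG
  have hGE : ∀ n, (G n : Set I) ⊆ E := by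
    intro n x hx
    simp only [hG, Finset.coe_union, Finset.coe_biUnion, Set.mem_union, Set.mem_iUnion] at hx
    rcases hx with hx | ⟨j, hj, hx⟩
    · exact hF₀ hx
    · exact (hB j hj).sub n hx
  set v : I → ℕ → Ω → ℝ := fun j n ω => appr p (G n) n j (z ω) with hv
  have hvm : ∀ j n, BM (v j n) := fun j n => (bm_appr p _ n j).comp hz.meas
  have huv : ∀ j ∈ F₀, Tendsto (fun n => ∫ ω, |v j n ω - u j n ω| ∂P) atTop (𝓝 0) := by
    intro j hj
    rw [Metric.tendsto_atTop]
    intro ε hε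
    obtain ⟨W, n₀, hWE, hW⟩ := hp.cauchy (hF₀ hj) (half_pos hε)
    obtain ⟨n₁, hn₁⟩ := eventually_atTop.mp ((hB j hj).ev W hWE)
    refine ⟨max n₀ n₁, fun n hn => ?_⟩
    rw [Real.dist_eq, sub_zero, abs_of_nonneg (integral_nonneg fun ω => abs_nonneg _),
      hz.integral_abs_sub (hF₀ hj) (hGE n) ((hB j hj).sub n)]
    refine (hW _ _ ((hn₁ n (by omega)).trans ?_) (hGE n) (hn₁ n (by omega)) ((hB j hj).sub n) n n
      (by omega) (by omega)).trans_lt (half_lt_self hε)
    exact (Finset.subset_biUnion_of_mem (fun j => B j n) hj).trans Finset.subset_union_right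
  have hlaw : ∀ n, |∫ ω, ∏ j ∈ F₀, v j n ω ∂P - p F₀ F₀| ≤
      F₀.card * (tl n * c0 + 1 / ((n : ℝ) + 1)) := by
    intro n
    rw [hz.law (G n) (hGE n) (fun y => ∏ j ∈ F₀, appr p (G n) n j y)
      (BM.prod fun j _ => bm_appr _ _ _ _).meas fun y y' h => Finset.prod_congr rfl fun j hj =>
        appr_congr p (G n) n subset_rfl (by simp [hG, hj]) h, mul_add]
    exact hp.law Finset.subset_union_left (hGE n) n
  set S : I → Set Ω := fun j => limEv (u j) (N j) with hS
  have hSm : ∀ j, MeasurableSet (S j) := fun j => measurableSet_limEv (fun n => (hum j n).meas) _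
  have hSb : ∀ j, BM ((S j).indicator (1 : Ω → ℝ)) := fun j =>
    BM.of_unit (measurable_one.indicator (hSm j))
      (fun ω => Set.indicator_nonneg (fun _ _ => zero_le_one) ω)
      fun ω => Set.indicator_le_self' (fun _ _ => zero_le_one) ω
  have hT : MeasurableSet {ω | ∀ j ∈ F₀, ω ∈ S j} := by
    have : {ω | ∀ j ∈ F₀, ω ∈ S j} = ⋂ j ∈ F₀, S j := by ext; simp
    rw [this]
    exact Finset.measurableSet_biInter _ fun j _ => hSm j
  have hint : (P {ω | ∀ j ∈ F₀, ω ∈ S j}).toReal =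
      ∫ ω, ∏ j ∈ F₀, (S j).indicator (1 : Ω → ℝ) ω ∂P := by
    rw [← measureReal_def, ← integral_indicator_one hT]
    refine integral_congr_ae (ae_of_all _ fun ω => ?_)
    by_cases h : ∀ j ∈ F₀, ω ∈ S j
    · simp only
      rw [Set.indicator_of_mem (show ω ∈ {ω | ∀ j ∈ F₀, ω ∈ S j} from h), Finset.prod_eq_one]
      · rfl
      · intro j hj; rw [Set.indicator_of_mem (h j hj)]; rfl
    · simp only
      rw [Set.indicator_of_notMem (show ω ∉ {ω | ∀ j ∈ F₀, ω ∈ S j} from h)]
      push Not at h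
      obtain ⟨j, hj, h⟩ := h
      rw [Finset.prod_eq_zero hj (Set.indicator_of_notMem h _)]
  rw [hint]
  have hbound : ∀ n, |∫ ω, ∏ j ∈ F₀, (S j).indicator (1 : Ω → ℝ) ω ∂P - p F₀ F₀| ≤
      ∑ j ∈ F₀, (∫ ω, |v j n ω - u j n ω| ∂P + ∫ ω, |u j n ω - (S j).indicator 1 ω| ∂P) +
        F₀.card * (tl n * c0 + 1 / ((n : ℝ) + 1)) := by
    intro n
    refine (abs_sub_le _ (∫ ω, ∏ j ∈ F₀, v j n ω ∂P) _).trans (add_le_add ?_ (hlaw n))
    rw [abs_sub_comm, ← integral_sub ((BM.prod fun j _ => hvm j n).integrable _)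
      ((BM.prod fun j _ => hSb j).integrable _), ← Real.norm_eq_abs]
    have hi : ∀ j, BM fun ω => |v j n ω - u j n ω| + |u j n ω - (S j).indicator 1 ω| := fun j =>
      ((hvm j n).sub (hum j n)).abs.add ((hum j n).sub (hSb j)).abs
    calc _ ≤ ∫ ω, ∑ j ∈ F₀, (|v j n ω - u j n ω| + |u j n ω - (S j).indicator 1 ω|) ∂P := by
          refine norm_integral_le_of_norm_le ((BM.sum fun j _ => hi j).integrable _)
            (ae_of_all _ fun ω => ?_)
          refine (abs_prod_sub_prod_le F₀ (fun _ => appr_nonneg _ _ _ _ _)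
            (fun _ => appr_le_one _ _ _ _ _)
            (fun _ => Set.indicator_nonneg (fun _ _ => zero_le_one) ω)
            (fun _ => Set.indicator_le_self' (fun _ _ => zero_le_one) ω)).trans ?_
          exact Finset.sum_le_sum fun j _ => abs_sub_le _ _ _
      _ = _ := by
          rw [integral_finsetSum _ fun j _ => (hi j).integrable _]
          exact Finset.sum_congr rfl fun j _ => integral_add
            (((hvm j n).sub (hum j n)).abs.integrable _)
            (((hum j n).sub (hSb j)).abs.integrable _)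
  have ht : Tendsto (fun n => ∑ j ∈ F₀, (∫ ω, |v j n ω - u j n ω| ∂P +
      ∫ ω, |u j n ω - (S j).indicator 1 ω| ∂P) + F₀.card * (tl n * c0 + 1 / ((n : ℝ) + 1)))
      atTop (𝓝 0) := by
    have := (tendsto_finsetSum F₀ fun j hj => (huv j hj).add (hl j hj)).add
      (hsmall.const_mul (F₀.card : ℝ))
    simpa using this
  exact sub_eq_zero.mp (abs_nonpos_iff.mp (ge_of_tendsto' ht hbound))

end Final

end Crest.Agent.R168
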