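import Crest.Agent.R168.Defs

/-!
The spanning-tree polynomial is stable (weighted matrix-tree theorem via parent functions).
-/

set_option autoImplicit false

namespace Crest.Agent.R168

open Finset
open Crest.ProbabilityR.SpanningTrees

namespace MatrixTree

section Det

variable {W : Type*} [Fintype W] [DecidableEq W]

/-- `f` is a parent function towards the root `r`. -/
def Rooted (r : W) (f : W → W) : Prop := ∃ d : W → ℕ, ∀ v, v ≠ r → d (f v) < d v

/-- Rows of the matrices attached to parent functions. -/
def rowv (r v u : W) : W → ℂ :=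
  if v = r then Pi.single r 1 else Pi.single v 1 - Pi.single u 1

theorem det_rooted {r : W} {f : W → W} (h : Rooted r f) :
    (Matrix.of fun v => rowv r v (f v)).det = 1 := by
  obtain ⟨d, hd⟩ := h
  have hentry : ∀ i j, d i ≤ d j → (Matrix.of fun v => rowv r v (f v)) i j =
      if i = j then 1 else 0 := by
    intro i j hij
    simp only [Matrix.of_apply, rowv]
    by_cases hi : i = r
    · subst hi
      simp [Pi.single_apply, eq_comm]
    · have : j ≠ f i := by
        intro hj
        have := hd i hi
        rw [← hj] at this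
        omega
      simp [hi, Pi.single_apply, this, eq_comm]
  have hbt : (Matrix.of fun v => rowv r v (f v)).BlockTriangular (OrderDual.toDual ∘ d) := by
    intro i j hij
    have h1 : d i < d j := hij
    rw [hentry i j h1.le, if_neg]
    rintro rfl
    exact lt_irrefl _ h1
  rw [hbt.det]
  apply Finset.prod_eq_one
  intro a _
  have : (Matrix.of fun v => rowv r v (f v)).toSquareBlock (OrderDual.toDual ∘ d) a = 1 := by
    ext i j
    have h1 : d i.1 = d j.1 := by
      have := i.2.trans j.2.symm
      simpa using this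
    rw [Matrix.toSquareBlock_def, Matrix.of_apply, hentry _ _ h1.le, Matrix.one_apply]
    simp [Subtype.ext_iff]
  rw [this, Matrix.det_one]

theorem det_not_rooted {r : W} {f : W → W} (h : ¬ Rooted r f) :
    (Matrix.of fun v => rowv r v (f v)).det = 0 := by
  classical
  rw [← Matrix.exists_mulVec_eq_zero_iff]
  refine ⟨fun v => if ∃ k, f^[k] v = r then 0 else 1, ?_, ?_⟩
  · intro h0
    apply h
    have hall : ∀ v, ∃ k, f^[k] v = r := by
      intro v
      by_contra hv
      have := congrFun h0 v
      simp [hv] at this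
    refine ⟨fun v => Nat.find (hall v), fun v hv => ?_⟩
    have h1 := Nat.find_spec (hall v)
    rcases hk : Nat.find (hall v) with _ | k
    · rw [hk] at h1
      exact absurd h1 hv
    · rw [hk, Function.iterate_succ_apply] at h1
      have := Nat.find_min' (hall (f v)) h1
      simp only [hk]
      omega
  · ext v
    simp only [Matrix.mulVec, Matrix.of_apply, rowv, Pi.zero_apply]
    by_cases hv : v = r
    · rw [if_pos hv, single_dotProduct, one_mul, if_pos ⟨0, rfl⟩]
    · rw [if_neg hv, sub_dotProduct, single_dotProduct, single_dotProduct, one_mul, one_mul]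
      have : (∃ k, f^[k] v = r) ↔ ∃ k, f^[k] (f v) = r := by
        constructor
        · rintro ⟨k, hk⟩
          rcases k with _ | k
          · exact absurd hk hv
          · exact ⟨k, hk⟩
        · rintro ⟨k, hk⟩
          exact ⟨k + 1, hk⟩
      simp only [this, sub_self]

/-- The coefficients of the rows. -/
def coef (r : W) (a : W → W → ℂ) (v u : W) : ℂ :=
  if v = r then (if u = r then 1 else 0) else a v u

open Classical in
theorem det_expand (r : W) (a : W → W → ℂ) :
    (Matrix.of fun v => ∑ u, coef r a v u • rowv r v u).det =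
      ∑ f ∈ Finset.univ.filter (fun f : W → W => f r = r ∧ Rooted r f),
        ∏ v ∈ Finset.univ.erase r, a v (f v) := by
  have h1 : (Matrix.of fun v => ∑ u, coef r a v u • rowv r v u).det =
      ∑ f : W → W, (∏ v, coef r a v (f v)) * (Matrix.of fun v => rowv r v (f v)).det := by
    have := (Matrix.detRowAlternating (n := W) (R := ℂ)).toMultilinearMap.map_sum
      (fun v u => coef r a v u • rowv r v u)
    refine this.trans ?_
    apply Finset.sum_congr rfl
    intro f _
    exact (Matrix.detRowAlternating (n := W) (R := ℂ)).toMultilinearMap.map_smul_univ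
      (fun v => coef r a v (f v)) (fun v => rowv r v (f v))
  rw [h1, Finset.sum_filter]
  apply Finset.sum_congr rfl
  intro f _
  rw [← Finset.mul_prod_erase Finset.univ _ (Finset.mem_univ r)]
  have h2 : ∏ v ∈ Finset.univ.erase r, coef r a v (f v) = ∏ v ∈ Finset.univ.erase r, a v (f v) := by
    apply Finset.prod_congr rfl
    intro v hv
    simp [coef, Finset.ne_of_mem_erase hv]
  rw [h2]
  by_cases hr : f r = r
  · by_cases hf : Rooted r f
    · rw [det_rooted hf]
      simp [coef, hr, hf]
    · rw [det_not_rooted hf]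
      simp [hf]
  · simp [coef, hr]

theorem det_ne_zero (H : SimpleGraph W) (hc : H.Connected) (r : W) (a : W → W → ℂ)
    (hsymm : ∀ u v, a u v = a v u) (him : ∀ u v, 0 ≤ (a u v).im)
    (hpos : ∀ u v, H.Adj u v → 0 < (a u v).im) :
    (Matrix.of fun v => ∑ u, coef r a v u • rowv r v u).det ≠ 0 := by
  intro h0
  obtain ⟨x, hx0, hx⟩ := Matrix.exists_mulVec_eq_zero_iff.mpr h0
  have hrow : ∀ v, ∑ u, coef r a v u * (rowv r v u ⬝ᵥ x) = 0 := by
    intro v
    have := congrFun hx v
    simp only [Matrix.mulVec, Matrix.of_apply, Pi.zero_apply, sum_dotProduct,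
      smul_dotProduct, smul_eq_mul] at this
    exact this
  have hr : x r = 0 := by
    have := hrow r
    simpa [coef, rowv] using this
  have hv : ∀ v, ∑ u, a v u * ((x v - x u) * (starRingEnd ℂ) (x v)) = 0 := by
    intro v
    by_cases hvr : v = r
    · rw [hvr, hr]; simp
    · have := hrow v
      simp only [coef, rowv, if_neg hvr, sub_dotProduct, single_dotProduct, one_mul] at this
      simp only [← mul_assoc]
      rw [← Finset.sum_mul, this, zero_mul]
  have h1 : ∑ v, ∑ u, a v u * ((x v - x u) * (starRingEnd ℂ) (x v)) = 0 :=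
    Finset.sum_eq_zero fun v _ => hv v
  have h2 : ∑ v, ∑ u, a v u * ((x u - x v) * (starRingEnd ℂ) (x u)) = 0 := by
    rw [Finset.sum_comm, ← h1]
    exact Finset.sum_congr rfl fun v _ => Finset.sum_congr rfl fun u _ => by rw [hsymm u v]
  have h3 : ∑ v, ∑ u, a v u * (Complex.normSq (x v - x u) : ℂ) = 0 := by
    rw [← add_zero (0 : ℂ)]
    nth_rewrite 1 [← h1]
    rw [← h2, ← Finset.sum_add_distrib]
    apply Finset.sum_congr rfl
    intro v _
    rw [← Finset.sum_add_distrib]
    apply Finset.sum_congr rfl
    intro u _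
    rw [← Complex.mul_conj, map_sub]
    ring
  have h4 : ∑ v, ∑ u, (a v u).im * Complex.normSq (x v - x u) = 0 := by
    have := congrArg Complex.im h3
    simpa [Complex.im_sum] using this
  have hnn : ∀ v u, 0 ≤ (a v u).im * Complex.normSq (x v - x u) :=
    fun v u => mul_nonneg (him v u) (Complex.normSq_nonneg _)
  have h5 : ∀ v u, H.Adj v u → x v = x u := by
    intro v u hadj
    have e1 := (Finset.sum_eq_zero_iff_of_nonneg
      (fun v _ => Finset.sum_nonneg fun u _ => hnn v u)).mp h4 v (Finset.mem_univ _)
    have e2 := (Finset.sum_eq_zero_iff_of_nonneg (fun u _ => hnn v u)).mp e1 u (Finset.mem_univ _)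
    rcases mul_eq_zero.mp e2 with h | h
    · exact absurd h (hpos v u hadj).ne'
    · exact sub_eq_zero.mp (Complex.normSq_eq_zero.mp h)
  apply hx0
  ext v
  obtain ⟨p⟩ := hc.preconnected v r
  have : ∀ {s t : W} (_ : H.Walk s t), x s = x t := by
    intro s t q
    induction q with
    | nil => rfl
    | cons hadj _ ih => exact (h5 _ _ hadj).trans ih
  rw [this p, hr]
  rfl

end Det

section Trees

variable {V : Type*} [DecidableEq V]

omit [DecidableEq V] in
theorem mem_edgesIn {G : SimpleGraph V} {S : Finset V} {u v : V} :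
    s(u, v) ∈ edgesIn G S ↔ u ∈ S ∧ v ∈ S ∧ G.Adj u v := by
  unfold edgesIn
  simp [Finset.mem_filter, and_assoc]

omit [DecidableEq V] in
theorem card_edgeSet {G : SimpleGraph V} {S : Finset V} {A : Finset (Sym2 V)}
    (hA : A ⊆ edgesIn G S) :
    Nat.card ((SimpleGraph.fromEdgeSet (A : Set (Sym2 V))).induce (S : Set V)).edgeSet =
      A.card := by
  have himg : Sym2.map (Subtype.val : ↥(S : Set V) → V) ''
      ((SimpleGraph.fromEdgeSet (A : Set (Sym2 V))).induce (S : Set V)).edgeSet = (A : Set _) := by
    ext e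
    constructor
    · rintro ⟨e', he', rfl⟩
      induction e' using Sym2.ind with
      | h u v =>
        simp only [SimpleGraph.mem_edgeSet, SimpleGraph.comap_adj, Function.Embedding.subtype_apply,
          SimpleGraph.fromEdgeSet_adj] at he'
        exact he'.1
    · intro he
      induction e using Sym2.ind with
      | h u v =>
        obtain ⟨hu, hv, hadj⟩ := mem_edgesIn.mp (hA he)
        refine ⟨s(⟨u, hu⟩, ⟨v, hv⟩), ?_, rfl⟩
        simp only [SimpleGraph.mem_edgeSet, SimpleGraph.comap_adj, Function.Embedding.subtype_apply,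
          SimpleGraph.fromEdgeSet_adj]
        exact ⟨he, hadj.ne⟩
  rw [Nat.card_coe_set_eq, ← Set.ncard_coe_finset,
    ← Set.ncard_image_of_injective _ (Sym2.map.injective Subtype.val_injective), himg]

/-- The edge set of a parent function. -/
def edgesOf {S : Finset V} (r : (S : Set V)) (f : ↥(S : Set V) → ↥(S : Set V)) : Finset (Sym2 V) :=
  (Finset.univ.erase r).image (fun v => s(v.1, (f v).1))

theorem edge_injOn {S : Finset V} {r : (S : Set V)} {f : ↥(S : Set V) → ↥(S : Set V)}
    (h : Rooted r f) :
    Set.InjOn (fun v : (S : Set V) => s(v.1, (f v).1)) (Finset.univ.erase r : Finset _) := by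
  obtain ⟨d, hd⟩ := h
  intro u hu v hv huv
  simp only [Sym2.eq_iff] at huv
  rcases huv with h | h
  · exact Subtype.ext h.1
  · have h1 : u = f v := Subtype.ext h.1
    have h2 : f u = v := Subtype.ext h.2
    have e1 := hd u (Finset.ne_of_mem_erase (Finset.mem_coe.mp hu))
    have e2 := hd v (Finset.ne_of_mem_erase (Finset.mem_coe.mp hv))
    rw [h2] at e1
    rw [← h1] at e2
    omega

theorem card_edgesOf {S : Finset V} {r : (S : Set V)} {f : ↥(S : Set V) → ↥(S : Set V)}
    (h : Rooted r f) : (edgesOf r f).card + 1 = Nat.card (S : Set V) := by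
  unfold edgesOf
  rw [Finset.card_image_of_injOn (edge_injOn h), Finset.card_erase_add_one (Finset.mem_univ r),
    Finset.card_univ, Nat.card_eq_fintype_card]

theorem isSpanningTreeOn_edgesOf {G : SimpleGraph V} {S : Finset V} {r : (S : Set V)}
    {f : ↥(S : Set V) → ↥(S : Set V)} (h : Rooted r f)
    (hadj : ∀ v, v ≠ r → G.Adj v.1 (f v).1) : IsSpanningTreeOn G S (edgesOf r f) := by
  have hsub : edgesOf r f ⊆ edgesIn G S := by
    intro e he
    obtain ⟨v, hv, rfl⟩ := Finset.mem_image.mp he
    exact mem_edgesIn.mpr ⟨v.2, (f v).2, hadj v (Finset.ne_of_mem_erase hv)⟩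
  refine ⟨hsub, ?_⟩
  rw [SimpleGraph.isTree_iff_connected_and_card, card_edgeSet hsub]
  refine ⟨?_, card_edgesOf h⟩
  obtain ⟨d, hd⟩ := h
  have hreach : ∀ n, ∀ v : (S : Set V), d v < n →
      ((SimpleGraph.fromEdgeSet (edgesOf r f : Set (Sym2 V))).induce (S : Set V)).Reachable v r := by
    intro n
    induction n with
    | zero => intro v hv; omega
    | succ n ih =>
      intro v hv
      by_cases hvr : v = r
      · rw [hvr]
      · have h1 := hd v hvr
        refine SimpleGraph.Reachable.trans (SimpleGraph.Adj.reachable ?_) (ih (f v) (by omega))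
        simp only [SimpleGraph.comap_adj, Function.Embedding.subtype_apply,
          SimpleGraph.fromEdgeSet_adj]
        refine ⟨?_, (hadj v hvr).ne⟩
        exact Finset.mem_coe.mpr (Finset.mem_image.mpr
          ⟨v, Finset.mem_erase.mpr ⟨hvr, Finset.mem_univ _⟩, rfl⟩)
  have : Nonempty (S : Set V) := ⟨r⟩
  exact ⟨fun u v => (hreach _ u (Nat.lt_succ_self _)).trans (hreach _ v (Nat.lt_succ_self _)).symm⟩

theorem edgesOf_inj {S : Finset V} {r : (S : Set V)} {f g : ↥(S : Set V) → ↥(S : Set V)}
    (hf : Rooted r f) (hfr : f r = r) (hgr : g r = r) (h : edgesOf r f = edgesOf r g) : f = g := by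
  obtain ⟨d, hd⟩ := hf
  have key : ∀ n, ∀ v : (S : Set V), d v < n → f v = g v := by
    intro n
    induction n with
    | zero => intro v hv; omega
    | succ n ih =>
      intro v hv
      by_cases hvr : v = r
      · rw [hvr, hfr, hgr]
      · have h1 : s(v.1, (f v).1) ∈ edgesOf r g := by
          rw [← h]
          exact Finset.mem_image.mpr ⟨v, Finset.mem_erase.mpr ⟨hvr, Finset.mem_univ _⟩, rfl⟩
        obtain ⟨u, hu, huv⟩ := Finset.mem_image.mp h1
        simp only [Sym2.eq_iff] at huv
        rcases huv with h2 | h2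
        · have h3 : u = v := Subtype.ext h2.1
          rw [← h3] at h2 ⊢
          exact (Subtype.ext h2.2).symm
        · have h3 : u = f v := Subtype.ext h2.1
          have h4 : g u = v := Subtype.ext h2.2
          have e1 := hd v hvr
          have e2 := hd u (Finset.ne_of_mem_erase hu)
          rw [← h3] at e1
          rw [ih u (by omega), h4] at e2
          omega
  ext v
  rw [key _ v (Nat.lt_succ_self _)]

theorem exists_parent {G : SimpleGraph V} {S : Finset V} (r : (S : Set V)) {A : Finset (Sym2 V)}
    (hA : IsSpanningTreeOn G S A) :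
    ∃ f : ↥(S : Set V) → ↥(S : Set V), f r = r ∧ Rooted r f ∧ (∀ v, v ≠ r → G.Adj v.1 (f v).1) ∧
      edgesOf r f = A := by
  obtain ⟨hsub, htree⟩ := hA
  rw [SimpleGraph.isTree_iff_connected_and_card, card_edgeSet hsub] at htree
  obtain ⟨hconn, hcard⟩ := htree
  set K := (SimpleGraph.fromEdgeSet (A : Set (Sym2 V))).induce (S : Set V) with hK
  have hex : ∀ v : (S : Set V), ∃ u, (v = r → u = r) ∧
      (v ≠ r → K.Adj v u ∧ K.dist u r < K.dist v r) := by
    intro v
    by_cases hvr : v = r
    · exact ⟨r, fun _ => rfl, fun h => absurd hvr h⟩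
    · obtain ⟨p, hp⟩ := hconn.exists_walk_length_eq_dist v r
      cases p with
      | nil => exact absurd rfl hvr
      | cons hadj q =>
        refine ⟨_, fun h => absurd h hvr, fun _ => ⟨hadj, ?_⟩⟩
        have := SimpleGraph.dist_le q
        rw [SimpleGraph.Walk.length_cons] at hp
        omega
  choose f hf1 hf2 using hex
  have hroot : Rooted r f := ⟨fun v => K.dist v r, fun v hv => (hf2 v hv).2⟩
  have hmem : ∀ v, v ≠ r → s(v.1, (f v).1) ∈ A := by
    intro v hv
    have := (hf2 v hv).1
    simp only [hK, SimpleGraph.comap_adj, Function.Embedding.subtype_apply,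
      SimpleGraph.fromEdgeSet_adj] at this
    exact this.1
  refine ⟨f, hf1 r rfl, hroot, fun v hv => (mem_edgesIn.mp (hsub (hmem v hv))).2.2, ?_⟩
  apply Finset.eq_of_subset_of_card_le
  · intro e he
    obtain ⟨v, hv, rfl⟩ := Finset.mem_image.mp he
    exact hmem v (Finset.ne_of_mem_erase hv)
  · have := card_edgesOf hroot
    omega

end Trees

end MatrixTree

open MatrixTree in
theorem stable_treeW {V : Type*} [DecidableEq V] (G : SimpleGraph V) (S : Finset V)
    (hc : (G.induce (S : Set V)).Connected) : Stable (treeW G S) (edgesIn G S) := by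
  classical
  intro z hz
  obtain ⟨r⟩ := hc.nonempty
  set a : ↥(S : Set V) → ↥(S : Set V) → ℂ :=
    fun v u => if G.Adj v.1 u.1 then z s(v.1, u.1) else 0 with ha
  have hpos : ∀ u v : (S : Set V), G.Adj u.1 v.1 → 0 < (a u v).im := by
    intro u v h
    simp only [ha, if_pos h]
    exact hz _ (mem_edgesIn.mpr ⟨u.2, v.2, h⟩)
  have hne := det_ne_zero (G.induce (S : Set V)) hc r a
    (fun u v => by
      simp only [ha, G.adj_comm u.1 v.1, Sym2.eq_swap (a := u.1)])
    (fun u v => by
      by_cases h : G.Adj u.1 v.1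
      · exact (hpos u v h).le
      · simp [ha, h])
    (fun u v h => hpos u v h)
  rw [det_expand] at hne
  intro h0
  apply hne
  rw [← h0]
  have e1 : ∑ A ∈ (edgesIn G S).powerset, (treeW G S A : ℂ) * ∏ j ∈ A, z j =
      ∑ A ∈ (edgesIn G S).powerset.filter (fun A => IsSpanningTreeOn G S A), ∏ j ∈ A, z j := by
    rw [Finset.sum_filter]
    apply Finset.sum_congr rfl
    intro A _
    unfold treeW
    split_ifs <;> simp
  have e2 : ∑ f ∈ Finset.univ.filter (fun f : ↥(S : Set V) → ↥(S : Set V) => f r = r ∧ Rooted r f),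
        ∏ v ∈ Finset.univ.erase r, a v (f v) =
      ∑ f ∈ (Finset.univ.filter (fun f : ↥(S : Set V) → ↥(S : Set V) => f r = r ∧ Rooted r f)).filter
        (fun f => ∀ v, v ≠ r → G.Adj v.1 (f v).1), ∏ j ∈ edgesOf r f, z j := by
    rw [Finset.sum_filter (p := fun f : ↥(S : Set V) → ↥(S : Set V) =>
      ∀ v, v ≠ r → G.Adj v.1 (f v).1)]
    apply Finset.sum_congr rfl
    intro f hf
    have hroot := (Finset.mem_filter.mp hf).2.2
    split_ifs with h
    · unfold edgesOf
      rw [Finset.prod_image (edge_injOn hroot)]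
      apply Finset.prod_congr rfl
      intro v hv
      simp only [ha, if_pos (h v (Finset.ne_of_mem_erase hv))]
    · push Not at h
      obtain ⟨v, hv, hn⟩ := h
      apply Finset.prod_eq_zero (Finset.mem_erase.mpr ⟨hv, Finset.mem_univ _⟩)
      simp only [ha, if_neg hn]
  rw [e1, e2]
  apply Finset.sum_nbij (fun f => edgesOf r f)
  · intro f hf
    simp only [Finset.mem_filter, Finset.mem_univ, true_and] at hf
    have := isSpanningTreeOn_edgesOf hf.1.2 hf.2
    exact Finset.mem_filter.mpr ⟨Finset.mem_powerset.mpr this.1, this⟩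
  · intro f hf g hg hfg
    simp only [Finset.coe_filter, Finset.mem_filter, Finset.mem_univ, true_and,
      Set.mem_ofPred_eq] at hf hg
    exact edgesOf_inj hf.1.2 hf.1.1 hg.1.1 hfg
  · intro A hA
    obtain ⟨f, h1, h2, h3, h4⟩ := exists_parent r (Finset.mem_filter.mp (Finset.mem_coe.mp hA)).2
    refine ⟨f, ?_, h4⟩
    simp only [Finset.coe_filter, Finset.mem_filter, Finset.mem_univ, true_and, Set.mem_ofPred_eq]
    exact ⟨⟨h1, h2⟩, h3⟩
  · intro f _
    rfl

end Crest.Agent.R168
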