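import Crest.Agent.R168.Defs

/-!
The Laplace noise, its infinite products, and their quasi-invariance under finite shifts.
-/

set_option autoImplicit false

namespace Crest.Agent.R168

open MeasureTheory Finset Filter Topology ProbabilityTheory
open scoped ENNReal

/-- The Laplace (two-sided exponential) law. -/
noncomputable def lap : Measure ℝ :=
  volume.withDensity (fun y => ENNReal.ofReal (Real.exp (-|y|) / 2))

lemma integrable_exp_neg_mul_abs {a : ℝ} (ha : 0 < a) :
    Integrable (fun y : ℝ => Real.exp (-a * |y|)) := by
  rw [← integrableOn_univ, ← Set.Iic_union_Ioi (a := (0 : ℝ))]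
  apply IntegrableOn.union
  · refine (integrableOn_exp_mul_Iic ha 0).congr_fun (fun x hx => ?_) measurableSet_Iic
    simp only [abs_of_nonpos (show x ≤ 0 from hx)]; ring_nf
  · refine (exp_neg_integrableOn_Ioi 0 ha).congr_fun (fun x hx => ?_) measurableSet_Ioi
    simp only [abs_of_pos (show 0 < x from hx)]

instance : IsProbabilityMeasure lap := by
  constructor
  rw [lap, withDensity_apply _ MeasurableSet.univ, Measure.restrict_univ,
    ← ofReal_integral_eq_lintegral_ofReal]
  · rw [integral_div, integral_comp_abs (f := fun x => Real.exp (-x)), integral_exp_neg_Ioi_zero]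
    simp
  · simpa using (integrable_exp_neg_mul_abs one_pos).div_const 2
  · exact ae_of_all _ fun y => by positivity

instance : NullSingletonClass lap := by unfold lap; infer_instance

lemma integrable_expabs_lap : Integrable (fun y : ℝ => Real.exp (|y| / 2)) lap := by
  rw [lap, integrable_withDensity_iff_integrable_smul' (by fun_prop) (by simp)]
  refine ((integrable_exp_neg_mul_abs (a := 1 / 2) (by norm_num)).div_const 2).congr
    (ae_of_all _ fun y => ?_)
  simp only [smul_eq_mul]
  rw [ENNReal.toReal_ofReal (by positivity), div_mul_eq_mul_div, ← Real.exp_add]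
  congr 2; ring

/-- Logarithm of the likelihood ratio of the shift by `t` of the Laplace law. -/
noncomputable def th (t y : ℝ) : ℝ := |y| - |y - t|

@[fun_prop]
lemma measurable_th {Ω : Type*} [MeasurableSpace Ω] (t : ℝ) {f : Ω → ℝ} (hf : Measurable f) :
    Measurable fun ω => th t (f ω) := by unfold th; fun_prop

lemma th_le (t y : ℝ) : th t y ≤ |t| := by
  unfold th
  have := abs_sub_abs_le_abs_sub y (y - t)
  simpa using this

lemma th_lip (t t' y y' : ℝ) : |th t y - th t' y'| ≤ 2 * |y - y'| + |t - t'| := by
  unfold th
  have h1 := abs_abs_sub_abs_le_abs_sub y y'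
  have h2 := abs_abs_sub_abs_le_abs_sub (y - t) (y' - t')
  have h3 : |y - t - (y' - t')| ≤ |y - y'| + |t - t'| := by
    have : y - t - (y' - t') = (y - y') - (t - t') := by ring
    rw [this]; exact abs_sub _ _
  have h4 := abs_le.mp h1
  have h5 := abs_le.mp (h2.trans h3)
  rw [abs_le]; constructor <;> linarith

lemma lap_shift (t : ℝ) :
    lap.map (· + t) = lap.withDensity (fun y => ENNReal.ofReal (Real.exp (th t y))) := by
  ext s hs
  rw [Measure.map_apply (by fun_prop) hs, lap, withDensity_apply _ (measurable_add_const t hs),
    ← withDensity_mul _ (by fun_prop) (by fun_prop), withDensity_apply _ hs,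
    ← lintegral_indicator hs, ← lintegral_indicator (measurable_add_const t hs),
    ← lintegral_add_right_eq_self (μ := volume) (s.indicator _) t]
  refine lintegral_congr fun y => ?_
  by_cases h : y + t ∈ s
  · rw [Set.indicator_of_mem h, Set.indicator_of_mem (show y ∈ (· + t) ⁻¹' s from h)]
    simp only [Pi.mul_apply]
    rw [← ENNReal.ofReal_mul (by positivity), div_mul_eq_mul_div, ← Real.exp_add]
    congr 3
    simp only [th, add_sub_cancel_right]; ring
  · rw [Set.indicator_of_notMem h, Set.indicator_of_notMem (show y ∉ (· + t) ⁻¹' s from h)]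

/-- Independent Laplace noise indexed by `I`. -/
noncomputable def Gam (I : Type*) : Measure (I → ℝ) := Measure.infinitePi (fun _ : I => lap)

instance (I : Type*) : IsProbabilityMeasure (Gam I) := by unfold Gam; infer_instance

variable {I : Type*} [DecidableEq I]

/-- Shift by `t` of the coordinates in `A`. -/
def shift (t : ℝ) (A : Finset I) (z : I → ℝ) : I → ℝ := fun j => z j + t * ind A j

/-- Likelihood ratio of the shifted noise. -/
noncomputable def wt (t : ℝ) (y : I → ℝ) (A : Finset I) : ℝ := ∏ j ∈ A, Real.exp (th t (y j))

@[fun_prop]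
lemma measurable_shift (t : ℝ) (A : Finset I) : Measurable (shift t A) := by
  unfold shift; fun_prop

omit [DecidableEq I] in
@[fun_prop]
lemma measurable_wt (t : ℝ) (A : Finset I) : Measurable fun y : I → ℝ => wt t y A := by
  unfold wt; fun_prop

omit [DecidableEq I] in
lemma wt_pos (t : ℝ) (y : I → ℝ) (A : Finset I) : 0 < wt t y A :=
  Finset.prod_pos fun _ _ => Real.exp_pos _

omit [DecidableEq I] in
lemma wt_le (t : ℝ) (y : I → ℝ) (A : Finset I) : wt t y A ≤ Real.exp |t| ^ A.card := by
  unfold wt
  rw [← Finset.prod_const]
  exact Finset.prod_le_prod (fun _ _ => (Real.exp_pos _).le)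
    fun j _ => Real.exp_le_exp.mpr (th_le _ _)

lemma Gam_shift (t : ℝ) (A : Finset I) :
    (Gam I).map (shift t A) = (Gam I).withDensity (fun y => ENNReal.ofReal (wt t y A)) := by
  have hp : ∀ j : I, IsProbabilityMeasure (lap.map (· + t * ind A j)) := fun j =>
    Measure.isProbabilityMeasure_map (by fun_prop)
  have h1 : (Gam I).map (shift t A) =
      Measure.infinitePi (fun j : I => lap.map (· + t * ind A j)) :=
    Measure.infinitePi_map_pi (fun _ : I => lap) (f := fun j y => y + t * ind A j) (by fun_prop)
  rw [h1]
  symm
  refine Measure.eq_infinitePi _ fun s u hu => ?_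
  have hms : MeasurableSet (Set.pi (s : Set I) u) := .pi s.countable_toSet fun i _ => hu i
  set f : I → ℝ → ℝ≥0∞ := fun j y => (if j ∈ s then (u j).indicator 1 y else 1) *
    (if j ∈ A then ENNReal.ofReal (Real.exp (th t y)) else 1) with hf
  have hfm : ∀ j, Measurable (f j) := by
    intro j
    apply Measurable.mul
    · split_ifs
      · exact measurable_one.indicator (hu j)
      · fun_prop
    · split_ifs <;> fun_prop
  have h2 : ∀ y : I → ℝ, (Set.pi (s : Set I) u).indicator (fun y => ENNReal.ofReal (wt t y A)) y =
      ∏ j ∈ s ∪ A, f j (y j) := by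
    intro y
    simp only [hf, Finset.prod_mul_distrib, Finset.prod_ite_mem, Finset.union_inter_cancel_left,
      Finset.union_inter_cancel_right]
    rw [← ENNReal.ofReal_prod_of_nonneg (fun _ _ => (Real.exp_pos _).le)]
    by_cases hy : y ∈ Set.pi (s : Set I) u
    · rw [Set.indicator_of_mem hy, Finset.prod_eq_one, one_mul, wt]
      intro j hj
      rw [Set.indicator_of_mem (hy j hj)]; rfl
    · rw [Set.indicator_of_notMem hy]
      simp only [Set.mem_pi, Finset.mem_coe, not_forall] at hy
      obtain ⟨j, hj, hy⟩ := hy
      rw [Finset.prod_eq_zero hj (Set.indicator_of_notMem hy _), zero_mul]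
  rw [withDensity_apply _ hms, ← lintegral_indicator hms, lintegral_congr h2, Gam,
    lintegral_prod_eq_prod_lintegral_of_indepFun (s ∪ A) (fun j (y : I → ℝ) => f j (y j))
      (iIndepFun_infinitePi hfm) (fun j => (hfm j).comp (measurable_pi_apply j))]
  have h3 : ∀ j, ∫⁻ y : I → ℝ, f j (y j) ∂Measure.infinitePi (fun _ : I => lap) =
      if j ∈ s then lap.map (· + t * ind A j) (u j) else 1 := by
    intro j
    rw [(measurePreserving_eval_infinitePi (fun _ : I => lap) j).lintegral_comp (hfm j)]
    by_cases hA : j ∈ A
    · simp only [hf, hA, if_true, ind, mul_one]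
      split_ifs with hs
      · rw [lap_shift, withDensity_apply _ (hu j), ← lintegral_indicator (hu j)]
        refine lintegral_congr fun y => ?_
        by_cases h : y ∈ u j <;> simp [h]
      · have := (Measure.isProbabilityMeasure_map (μ := lap) (f := (· + t))
          (by fun_prop)).measure_univ
        rw [lap_shift, withDensity_apply _ MeasurableSet.univ, Measure.restrict_univ] at this
        simpa using this
    · simp only [hf, hA, if_false, ind, mul_one, mul_zero, add_zero]
      split_ifs with hs
      · rw [lintegral_indicator_one (hu j)]; simp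
      · simp
  simp only [h3, Finset.prod_ite_mem, Finset.union_inter_cancel_left]

lemma integral_shift (t : ℝ) (A : Finset I) {g : (I → ℝ) → ℝ} (hg : Measurable g) :
    ∫ z, g (shift t A z) ∂Gam I = ∫ y, wt t y A * g y ∂Gam I := by
  rw [← integral_map (measurable_shift t A).aemeasurable hg.aestronglyMeasurable, Gam_shift,
    integral_withDensity_eq_integral_toReal_smul (by fun_prop) (by simp)]
  refine integral_congr_ae (ae_of_all _ fun y => ?_)
  simp [ENNReal.toReal_ofReal (wt_pos t y A).le]

/-- The exponential moment of the noise. -/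
noncomputable def c0 : ℝ := ∫ y, Real.exp (|y| / 2) ∂lap

lemma c0_nonneg : 0 ≤ c0 := integral_nonneg fun _ => (Real.exp_pos _).le

omit [DecidableEq I] in
lemma integrable_expabs (i : I) : Integrable (fun z : I → ℝ => Real.exp (|z i| / 2)) (Gam I) :=
  (measurePreserving_eval_infinitePi (fun _ : I => lap) i).integrable_comp_of_integrable
    integrable_expabs_lap

omit [DecidableEq I] in
lemma integral_expabs (i : I) : ∫ z : I → ℝ, Real.exp (|z i| / 2) ∂Gam I = c0 := by
  rw [c0, ← (measurePreserving_eval_infinitePi (fun _ : I => lap) i).map_eq,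
    integral_map (measurable_pi_apply i).aemeasurable (by fun_prop)]
  rfl

end Crest.Agent.R168
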