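import Crest.Agent.R168.Limit
import Crest.Agent.R168.Fusf
import Crest.Agent.R168.FusfMeas
import Crest.Agent.R168.EdgeNoise

/-!
The equivariant measurable rule producing the free uniform spanning forest.
-/

set_option autoImplicit false

namespace Crest.Agent.R168

open MeasureTheory Finset Filter Topology ProbabilityTheory
open Crest.ProbabilityR.SpanningTrees Crest.ProbabilityR.Labels Crest.ProbabilityR.GraphTables

instance labelProb (V : Type*) : IsProbabilityMeasure (labelMeasure V) := by
  unfold labelMeasure; infer_instance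

lemma integral_label_comp {V W : Type*} {f : V → W} (hf : Function.Injective f)
    {h : (V → unitInterval) → ℝ} (hh : Measurable h) :
    ∫ x, h (x ∘ f) ∂labelMeasure W = ∫ x, h x ∂labelMeasure V := by
  have := Measure.map_infinitePi_infinitePi_of_inj
    (P := fun _ : W => (volume : Measure unitInterval)) hf
  unfold labelMeasure
  rw [← this, integral_map (Measurable.aemeasurable (by fun_prop)) hh.aestronglyMeasurable]
  rfl

lemma measurable_index' {Ω β : Type*} [MeasurableSpace Ω] [Countable β] {f : β → Ω → ℝ}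
    (hf : ∀ n, Measurable (f n)) {N : Ω → β} (hN : ∀ b, MeasurableSet {ω | N ω = b}) :
    Measurable fun ω => f (N ω) ω := by
  let _ : MeasurableSpace β := ⊤
  have h1 : Measurable N := measurable_to_countable' fun b => hN b
  exact (measurable_from_prod_countable_right (f := fun p : β × Ω => f p.1 p.2) hf).comp
    (h1.prodMk measurable_id)

lemma measurable_index {Ω : Type*} [MeasurableSpace Ω] {f : ℕ → Ω → ℝ} (hf : ∀ n, Measurable (f n))
    {N : Ω → ℕ} (hN : Measurable N) : Measurable fun ω => f (N ω) ω :=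
  measurable_index' hf fun b => hN (measurableSet_singleton b)

lemma measurable_sInf_nat {Ω : Type*} [MeasurableSpace Ω] {Q : ℕ → Ω → Prop}
    (hQ : ∀ n, MeasurableSet {ω | Q n ω}) : Measurable fun ω => sInf {n | Q n ω} := by
  refine measurable_to_countable' fun m => ?_
  have : (fun ω => sInf {n | Q n ω}) ⁻¹' {m} =
      ({ω | Q m ω} ∩ ⋂ k, ⋂ _ : k < m, {ω | Q k ω}ᶜ) ∪
        ({_ω | m = 0} ∩ ⋂ k, {ω | Q k ω}ᶜ) := by
    ext ω
    simp only [Set.mem_preimage, Set.mem_singleton_iff, Set.mem_union, Set.mem_inter_iff,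
      Set.mem_ofPred_eq, Set.mem_iInter, Set.mem_compl_iff]
    constructor
    · intro h
      by_cases hne : {n | Q n ω}.Nonempty
      · left
        exact ⟨h ▸ Nat.sInf_mem hne, fun k hk => Nat.notMem_of_lt_sInf (h ▸ hk)⟩
      · right
        rw [Set.not_nonempty_iff_eq_empty] at hne
        refine ⟨by rw [← h, hne, Nat.sInf_empty], fun k hk => ?_⟩
        exact (Set.eq_empty_iff_forall_notMem.mp hne) k hk
    · rintro (⟨h1, h2⟩ | ⟨h1, h2⟩)
      · apply le_antisymm (Nat.sInf_le h1)
        by_contra hlt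
        exact h2 _ (not_le.mp hlt) (Nat.sInf_mem (⟨m, h1⟩ : {n | Q n ω}.Nonempty))
      · rw [h1, Nat.sInf_eq_zero]
        exact Or.inr (Set.eq_empty_iff_forall_notMem.mpr h2)
  rw [this]
  exact ((hQ m).inter (.iInter fun k => .iInter fun _ => (hQ k).compl)).union
    ((MeasurableSet.const _).inter (.iInter fun k => (hQ k).compl))

variable (ℓ : unitInterval → ℕ → ℝ)

/-- Approximants of the output at the pair `e`. -/
noncomputable def uG (G : SimpleGraph ℕ) (e : Sym2 ℕ) (n : ℕ) (x : ℕ → unitInterval) : ℝ :=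
  appr (pG G) (ballE G e n) n e (edgeNoise ℓ G x)

open Classical in
/-- The rule. -/
noncomputable def rule (G : SimpleGraph ℕ) (x : ℕ → unitInterval) (e : Sym2 ℕ) : Bool :=
  decide (x ∈ limEv (uG ℓ G e) (fastN (labelMeasure ℕ) (uG ℓ G e)))

variable {ℓ}

lemma measurable_uG (hℓ : Measurable ℓ) (e : Sym2 ℕ) (n : ℕ) :
    Measurable fun p : SimpleGraph ℕ × (ℕ → unitInterval) => uG ℓ p.1 e n p.2 := by
  have h1 : ∀ F : Finset (Sym2 ℕ), Measurable fun p : SimpleGraph ℕ × (ℕ → unitInterval) =>
      appr (pG p.1) F n e (edgeNoise ℓ p.1 p.2) := fun F =>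
    measurable_appr_param (p := fun p : SimpleGraph ℕ × (ℕ → unitInterval) => pG p.1)
      (fun F A => (measurable_pG F A).comp measurable_fst) F n e (measurable_edgeNoise ℓ hℓ)
  have h2 : ∀ F : Finset (Sym2 ℕ),
      MeasurableSet {p : SimpleGraph ℕ × (ℕ → unitInterval) | ballE p.1 e n = F} := fun F =>
    measurable_fst (measurableSet_ballE e n F)
  unfold uG
  exact measurable_index' h1 h2

lemma measurable_uG' (hℓ : Measurable ℓ) (G : SimpleGraph ℕ) (e : Sym2 ℕ) (n : ℕ) :
    Measurable (uG ℓ G e n) := by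
  have := (measurable_uG hℓ e n).comp (measurable_prodMk_left (x := G))
  simpa only [Function.comp_def] using this

lemma measurable_fastN (hℓ : Measurable ℓ) (e : Sym2 ℕ) (k : ℕ) :
    Measurable fun G : SimpleGraph ℕ => fastN (labelMeasure ℕ) (uG ℓ G e) k := by
  refine measurable_sInf_nat fun n => ?_
  simp only [Set.ofPred_forall]
  refine .iInter fun a => .iInter fun b => .iInter fun _ => .iInter fun _ =>
    measurableSet_le ?_ measurable_const
  exact (((measurable_uG hℓ e a).sub
    (measurable_uG hℓ e b)).abs.stronglyMeasurable.integral_prod_right').measurable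

lemma measurable_rule (hℓ : Measurable ℓ) :
    Measurable fun p : SimpleGraph ℕ × (ℕ → unitInterval) => rule ℓ p.1 p.2 := by
  refine measurable_pi_lambda _ fun e => ?_
  refine measurable_to_bool ?_
  have : (fun p : SimpleGraph ℕ × (ℕ → unitInterval) => rule ℓ p.1 p.2 e) ⁻¹' {true} =
      limEv (fun k p => uG ℓ p.1 e (fastN (labelMeasure ℕ) (uG ℓ p.1 e) k) p.2) id := by
    ext p
    simp only [rule, Set.mem_preimage, Set.mem_singleton_iff, decide_eq_true_eq]
    rfl
  rw [this]
  exact measurableSet_limEv (fun k => measurable_index (measurable_uG hℓ e)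
    ((measurable_fastN hℓ e k).comp measurable_fst)) id

lemma uG_comap (σ : Equiv.Perm ℕ) (G : SimpleGraph ℕ) (e : Sym2 ℕ) (n : ℕ)
    (x : ℕ → unitInterval) : uG ℓ (G.comap σ) e n (x ∘ σ) = uG ℓ G (Sym2.map σ e) n x := by
  rw [uG, uG, edgeNoise_comap, ← ballE_comap]
  exact appr_image (Sym2.map.injective σ.injective) _ _ _ (fun A => pG_comap σ G _ A) n e _

lemma rule_comap (hℓ : Measurable ℓ) (σ : Equiv.Perm ℕ) (G : SimpleGraph ℕ)
    (x : ℕ → unitInterval) : rule ℓ (G.comap σ) (x ∘ σ) = rule ℓ G x ∘ Sym2.map σ := by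
  ext e
  have h1 : fastN (labelMeasure ℕ) (uG ℓ (G.comap σ) e) =
      fastN (labelMeasure ℕ) (uG ℓ G (Sym2.map σ e)) := by
    ext k
    have : ∀ a b, ∫ x, |uG ℓ (G.comap σ) e a x - uG ℓ (G.comap σ) e b x| ∂labelMeasure ℕ =
        ∫ x, |uG ℓ G (Sym2.map σ e) a x - uG ℓ G (Sym2.map σ e) b x| ∂labelMeasure ℕ := by
      intro a b
      rw [← integral_label_comp σ.injective
        (h := fun x => |uG ℓ (G.comap σ) e a x - uG ℓ (G.comap σ) e b x|)
        ((measurable_uG' hℓ _ e a).sub (measurable_uG' hℓ _ e b)).abs]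
      simp only [uG_comap]
    simp only [fastN, this]
  simp only [rule, Function.comp_apply]
  rw [decide_eq_decide, h1]
  simp only [limEv, Set.mem_ofPred_eq, uG_comap]

lemma rule_law (hℓ : Measurable ℓ)
    (hlaw : (volume : Measure unitInterval).map ℓ = Measure.infinitePi (fun _ : ℕ => lap))
    (G : SimpleGraph ℕ) (hc : G.Connected) (hl : ∀ v : ℕ, (G.neighborSet v).Finite)
    (hp : Good G.edgeSet (pG G)) (F : Finset (Sym2 ℕ)) (hF : (F : Set (Sym2 ℕ)) ⊆ G.edgeSet) :
    ((labelMeasure ℕ).map (rule ℓ G) {ω | ∀ e ∈ F, ω e = true}).toReal = qG G F := by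
  have hz : IsNoise G.edgeSet (labelMeasure ℕ) (edgeNoise ℓ G) :=
    ⟨(measurable_edgeNoise ℓ hℓ).comp measurable_prodMk_left,
      fun F hF h hm hd => integral_edgeNoise lap ℓ hℓ hlaw G hl F hF h hm hd⟩
  have hB : ∀ e, Exh G.edgeSet (ballE G e) := fun e =>
    ⟨ballE_subset G e, eventually_subset_ballE G hc hl e⟩
  have h := hp.final hz hF (B := ballE G) (fun e _ => hB e)
    (N := fun e => fastN (labelMeasure ℕ) (uG ℓ G e))
    (fun e he => fastN_spec _ (hp.exh_cauchy hz (hF he) (hB e)))
  have hm : MeasurableSet {ω : Sym2 ℕ → Bool | ∀ e ∈ F, ω e = true} := by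
    simp only [Set.ofPred_forall]
    exact .iInter fun e => .iInter fun _ =>
      measurableSet_eq_fun (measurable_pi_apply e) measurable_const
  have hr : Measurable (rule ℓ G) := by
    have := (measurable_rule hℓ).comp (measurable_prodMk_left (x := G))
    simpa only [Function.comp_def] using this
  rw [Measure.map_apply hr hm]
  have h2 : pG G F F = qG G F := by simp [pG]
  rw [← h2, ← h]
  congr 2
  ext x
  simp only [rule, Set.mem_preimage, Set.mem_ofPred_eq, decide_eq_true_eq]
  rfl

end Crest.Agent.R168
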