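import Crest.Agent.R168.Defs

/-! Statements of the sub-tasks of result 168 (all `sorry` here; never import this file). -/

set_option autoImplicit false

namespace Crest.Agent.R168.Skeleton

open MeasureTheory Finset Filter Topology
open Crest.ProbabilityR.SpanningTrees Crest.ProbabilityR.Labels Crest.ProbabilityR.GraphTables

-- file R168/Pick.lean
theorem meanLip_of_stable {I : Type*} [DecidableEq I] {q : Finset I → ℝ} {F : Finset I}
    (hq : ∀ A ⊆ F, 0 ≤ q A) (hs : Stable q F) : MeanLip q F := sorry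

theorem neg_corr {I : Type*} [DecidableEq I] {q : Finset I → ℝ} {F : Finset I}
    (hq : ∀ A ⊆ F, 0 ≤ q A) (hs : Stable q F) (B : Finset I) (e : I) (he : e ∉ B) :
    (∑ A ∈ F.powerset with (B ⊆ A ∧ e ∈ A), q A) * (∑ A ∈ F.powerset with e ∉ A, q A) ≤
      (∑ A ∈ F.powerset with (B ⊆ A ∧ e ∉ A), q A) * (∑ A ∈ F.powerset with e ∈ A, q A) := sorry

-- file R168/MatrixTree.lean
theorem stable_treeW {V : Type*} [DecidableEq V] (G : SimpleGraph V) (S : Finset V)
    (hc : (G.induce (S : Set V)).Connected) : Stable (treeW G S) (edgesIn G S) := sorry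

-- file R168/UstMono.lean
theorem ustContains_anti (G : SimpleGraph ℕ) (S S' : Finset ℕ) (hSS : S ⊆ S')
    (hc : (G.induce (S : Set ℕ)).Connected) (hc' : (G.induce (S' : Set ℕ)).Connected)
    (B : Finset (Sym2 ℕ)) (hB : B ⊆ edgesIn G S) :
    ustContains G S' B ≤ ustContains G S B := sorry

-- file R168/Fusf.lean
theorem tendsto_qG (G : SimpleGraph ℕ) (S : ℕ → Finset ℕ) (hmono : Monotone S)
    (hex : ∀ v : ℕ, ∃ n, v ∈ S n) (hc : ∀ n, (G.induce (S n : Set ℕ)).Connected)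
    (B : Finset (Sym2 ℕ)) (hB : (B : Set (Sym2 ℕ)) ⊆ G.edgeSet) :
    Tendsto (fun n => ustContains G (S n) B) atTop (𝓝 (qG G B)) := sorry

theorem good_pG (G : SimpleGraph ℕ) (S : ℕ → Finset ℕ) (hmono : Monotone S)
    (hex : ∀ v : ℕ, ∃ n, v ∈ S n) (hc : ∀ n, (G.induce (S n : Set ℕ)).Connected) :
    Good G.edgeSet (pG G) := sorry

-- file R168/FusfMeas.lean
theorem measurable_graphOfTable : Measurable graphOfTable := sorry

theorem measurable_pG (F A : Finset (Sym2 ℕ)) : Measurable fun G : SimpleGraph ℕ => pG G F A :=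
  sorry

theorem pG_comap (σ : Equiv.Perm ℕ) (G : SimpleGraph ℕ) (F A : Finset (Sym2 ℕ)) :
    pG (G.comap σ) F A = pG G (F.image (Sym2.map σ)) (A.image (Sym2.map σ)) := sorry

theorem measurableSet_ballE (e : Sym2 ℕ) (n : ℕ) (F : Finset (Sym2 ℕ)) :
    MeasurableSet {G : SimpleGraph ℕ | ballE G e n = F} := sorry

theorem ballE_comap (σ : Equiv.Perm ℕ) (G : SimpleGraph ℕ) (e : Sym2 ℕ) (n : ℕ) :
    (ballE (G.comap σ) e n).image (Sym2.map σ) = ballE G (Sym2.map σ e) n := sorry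

theorem ballE_subset (G : SimpleGraph ℕ) (e : Sym2 ℕ) (n : ℕ) :
    (ballE G e n : Set (Sym2 ℕ)) ⊆ G.edgeSet := sorry

theorem eventually_subset_ballE (G : SimpleGraph ℕ) (hc : G.Connected)
    (hl : ∀ v : ℕ, (G.neighborSet v).Finite) (e : Sym2 ℕ) (W : Finset (Sym2 ℕ))
    (hW : (W : Set (Sym2 ℕ)) ⊆ G.edgeSet) : ∀ᶠ n in atTop, W ⊆ ballE G e n := sorry

-- file R168/EdgeNoise.lean
theorem measurable_edgeNoise (ℓ : unitInterval → ℕ → ℝ) (hℓ : Measurable ℓ) :
    Measurable fun p : SimpleGraph ℕ × (ℕ → unitInterval) => edgeNoise ℓ p.1 p.2 := sorry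

theorem edgeNoise_comap (ℓ : unitInterval → ℕ → ℝ) (σ : Equiv.Perm ℕ) (G : SimpleGraph ℕ)
    (x : ℕ → unitInterval) :
    edgeNoise ℓ (G.comap σ) (x ∘ σ) = edgeNoise ℓ G x ∘ Sym2.map σ := sorry

theorem integral_edgeNoise (γ : Measure ℝ) [IsProbabilityMeasure γ] [NullSingletonClass γ]
    (ℓ : unitInterval → ℕ → ℝ) (hℓ : Measurable ℓ)
    (hlaw : (volume : Measure unitInterval).map ℓ = Measure.infinitePi (fun _ : ℕ => γ))
    (G : SimpleGraph ℕ) (hl : ∀ v : ℕ, (G.neighborSet v).Finite)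
    (F : Finset (Sym2 ℕ)) (hF : (F : Set (Sym2 ℕ)) ⊆ G.edgeSet)
    (h : (Sym2 ℕ → ℝ) → ℝ) (hm : Measurable h) (hd : DependsOn h (F : Set (Sym2 ℕ))) :
    ∫ x, h (edgeNoise ℓ G x) ∂(labelMeasure ℕ) =
      ∫ z, h z ∂(Measure.infinitePi (fun _ : Sym2 ℕ => γ)) := sorry

end Crest.Agent.R168.Skeleton
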